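import Vale.Agent.P256.H909.Aff
import Vale.Agent.P256.H387.Dense

/-! The Hermitian Helton–Vinnikov theorem for ternary hyperbolic polynomials. -/

set_option linter.all false

namespace Vale.Agent.P256.H909

open Polynomial Matrix Filter Topology
open scoped ComplexOrder

/-! ### degrees of the coefficients -/

/-- total degree at most `k` -/
def W2 (k : ℕ) (F : ℝ[X][X]) : Prop := ∀ i N : ℕ, k < N + i → (F.coeff i).coeff N = 0

theorem W2.mul {k l : ℕ} {F G : ℝ[X][X]} (hF : W2 k F) (hG : W2 l G) : W2 (k + l) (F * G) := by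
  intro i N hN
  rw [coeff_mul, finset_sum_coeff]
  refine Finset.sum_eq_zero fun x hx => ?_
  rw [coeff_mul]
  refine Finset.sum_eq_zero fun y hy => ?_
  rw [Finset.mem_antidiagonal] at hx hy
  by_cases h1 : k < y.1 + x.1
  · rw [hF _ _ h1, zero_mul]
  · rw [hG _ _ (by omega : l < y.2 + x.2), mul_zero]

theorem W2.one : W2 0 1 := by
  intro i N hN
  rw [coeff_one]
  split_ifs with h
  · rw [coeff_one, if_neg (by omega)]
  · exact coeff_zero _

theorem W2.pow {k : ℕ} {F : ℝ[X][X]} (hF : W2 k F) (m : ℕ) : W2 (k * m) (F ^ m) := by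
  induction m with
  | zero => rw [pow_zero, mul_zero]; exact W2.one
  | succ m ih => rw [pow_succ, mul_add, mul_one]; exact ih.mul hF

theorem W2.prod {ι : Type*} (s : Finset ι) (F : ι → ℝ[X][X]) (k : ι → ℕ)
    (h : ∀ i ∈ s, W2 (k i) (F i)) : W2 (∑ i ∈ s, k i) (∏ i ∈ s, F i) := by
  classical
  induction s using Finset.induction_on with
  | empty => simpa using W2.one
  | insert a s ha ih =>
    rw [Finset.prod_insert ha, Finset.sum_insert ha]
    exact (h a (Finset.mem_insert_self _ _)).mul (ih fun i hi => h i (Finset.mem_insert_of_mem hi))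

theorem W2.sum {ι : Type*} (s : Finset ι) (F : ι → ℝ[X][X]) (k : ℕ)
    (h : ∀ i ∈ s, W2 k (F i)) : W2 k (∑ i ∈ s, F i) := by
  intro i N hN
  rw [finset_sum_coeff, finset_sum_coeff]
  exact Finset.sum_eq_zero fun x hx => h x hx i N hN

variable {n : ℕ}

theorem natDegree_cpoly {p : MvPolynomial (Fin n) ℝ} {d : ℕ} (hp : p.IsHomogeneous d)
    (z e u : Fin n → ℝ) (j : ℕ) : (cpoly p z e u j).natDegree ≤ d - j := by
  have hlin : ∀ i, W2 1 (C (C (z i) + X * C (e i)) + X * C (C (u i)) : ℝ[X][X]) := by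
    intro i a N hN
    rw [coeff_add, mul_comm X (C (C (u i))), coeff_C_mul, coeff_X, coeff_C, coeff_add]
    split_ifs with h1 h2 h2
    · omega
    · simp only [mul_zero, coeff_zero, add_zero]
      rw [coeff_add, coeff_C, mul_comm X, coeff_C_mul, coeff_X, if_neg (by omega),
        if_neg (by omega)]
      simp
    · simp only [mul_one, coeff_zero, zero_add]
      rw [coeff_C, if_neg (by omega)]
    · simp
  have hW : W2 d (gline p (fun i => (C (z i) + X * C (e i) : ℝ[X])) (fun i => (C (u i) : ℝ[X]))) := by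
    unfold gline
    rw [MvPolynomial.aeval_def, MvPolynomial.eval₂_eq']
    apply W2.sum
    intro m hm
    have hdeg : ∑ i, m i = d := by
      have := hp (MvPolynomial.mem_support_iff.1 hm)
      rw [← this, Finsupp.weight_apply, Finsupp.sum_fintype]
      · simp only [Pi.one_apply, smul_eq_mul, mul_one]
      · simp
    have h1 := W2.prod Finset.univ
      (fun i => (C (C (z i) + X * C (e i)) + X * C (C (u i)) : ℝ[X][X]) ^ m i) (fun i => m i)
      (fun i _ => by
        have := (hlin i).pow (m i)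
        rwa [one_mul] at this)
    rw [hdeg] at h1
    have h2 : W2 0 (algebraMap ℝ ℝ[X][X] (MvPolynomial.coeff m p)) := by
      intro i N hN
      rw [Polynomial.algebraMap_apply, Polynomial.algebraMap_apply, coeff_C]
      split_ifs with h
      · rw [show (algebraMap ℝ ℝ) (MvPolynomial.coeff m p) = MvPolynomial.coeff m p from rfl,
          coeff_C, if_neg (by omega)]
      · exact coeff_zero _
    have h3 := h2.mul h1
    rwa [zero_add] at h3
  rw [natDegree_le_iff_coeff_eq_zero]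
  intro N hN
  exact hW j N (by omega)

theorem dd_smul' {p : MvPolynomial (Fin n) ℝ} {d : ℕ} (hp : p.IsHomogeneous d) (c : ℝ)
    (y v : Fin n → ℝ) : dd p (c • y) v = c ^ (d - 1) * dd p y v := by
  unfold dd
  rw [Finset.mul_sum]
  refine Finset.sum_congr rfl fun i _ => ?_
  rw [eval_smul' (hp.pderiv (i := i))]; ring

/-! ### the affine representation of an irreducible ternary polynomial -/

theorem roots_at {p : MvPolynomial (Fin n) ℝ} {e : Fin n → ℝ} (hp : IsHyperbolic p e) {d : ℕ}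
    (hd : p.IsHomogeneous d) {x : Fin n → ℝ}
    (hnd : ∀ t : ℝ, MvPolynomial.eval (x + t • e) p = 0 → dd p (x + t • e) e ≠ 0) :
    ∃ r : Fin d → ℝ, Function.Injective r ∧ ∀ i, MvPolynomial.eval (x + r i • e) p = 0 := by
  classical
  obtain ⟨h1, h2⟩ := line_leading hd x e hp.2.1.ne'
  have h0 : line p x e ≠ 0 := by
    intro h
    rw [h, leadingCoeff_zero] at h2
    exact hp.2.1.ne h2
  have hcard : (line p x e).roots.card = d := by
    rw [← h1]; exact (hp.splits x).natDegree_eq_card_roots.symm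
  have hnodup : (line p x e).roots.Nodup := by
    rw [Multiset.nodup_iff_count_le_one]
    intro t
    rw [count_roots]
    by_contra hcon
    push Not at hcon
    obtain ⟨h3, h4⟩ := (one_lt_rootMultiplicity_iff_isRoot h0).1 hcon
    rw [IsRoot.def, eval_line] at h3
    rw [IsRoot.def, eval_derivative_line] at h4
    exact hnd t h3 h4
  have hc : (line p x e).roots.toFinset.card = d := by
    rw [Multiset.toFinset_card_of_nodup hnodup, hcard]
  refine ⟨(line p x e).roots.toFinset.orderEmbOfFin hc, (Finset.orderEmbOfFin _ hc).injective,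
    fun i => ?_⟩
  have h3 := Finset.orderEmbOfFin_mem _ hc i
  rw [Multiset.mem_toFinset] at h3
  have h4 := (mem_roots'.1 h3).2
  rwa [IsRoot.def, eval_line] at h4

/-- first coordinate vector -/
def e3 : Fin 3 → ℝ := ![1, 0, 0]
/-- second coordinate vector -/
def a3 : Fin 3 → ℝ := ![0, 1, 0]
/-- third coordinate vector -/
def b3 : Fin 3 → ℝ := ![0, 0, 1]

theorem good_line {p : MvPolynomial (Fin 3) ℝ} (hp : IsHyperbolic p e3) (hirr : Irreducible p) :
    ∃ s : Finset ℝ, ∀ u ∉ s, ∀ t : ℝ, MvPolynomial.eval (a3 + u • b3 + t • e3) p = 0 →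
      dd p (a3 + u • b3 + t • e3) e3 ≠ 0 := by
  classical
  obtain ⟨d, hd⟩ := hp.1
  obtain ⟨r, hr0, hr⟩ := Vale.Agent.P256.H387.exists_disc hp hirr
  obtain ⟨x, hx⟩ : ∃ x : Fin 3 → ℝ, MvPolynomial.eval x (r * MvPolynomial.X 1) ≠ 0 := by
    by_contra hcon
    push Not at hcon
    have h1 : r * MvPolynomial.X 1 = 0 := MvPolynomial.funext fun x => by rw [hcon x, map_zero]
    rcases mul_eq_zero.1 h1 with h | h
    · exact hr0 h
    · exact MvPolynomial.X_ne_zero _ h
  rw [map_mul, MvPolynomial.eval_X] at hx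
  have hx1 : x 1 ≠ 0 := right_ne_zero_of_mul hx
  have hx0 : MvPolynomial.eval x r ≠ 0 := left_ne_zero_of_mul hx
  set ρ : ℝ[X] := line r (x 0 • e3 + x 1 • a3) (x 1 • b3) with hρ
  have hρ0 : ρ ≠ 0 := by
    intro h
    apply hx0
    have h1 : ρ.eval (x 2 / x 1) = 0 := by rw [h, eval_zero]
    rw [hρ, eval_line] at h1
    have h2 : x 0 • e3 + x 1 • a3 + (x 2 / x 1) • x 1 • b3 = x := by
      funext i
      fin_cases i <;> simp [e3, a3, b3, hx1]
    rwa [h2] at h1
  refine ⟨ρ.roots.toFinset, fun u hu t h1 h2 => ?_⟩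
  apply hu
  rw [Multiset.mem_toFinset, mem_roots hρ0, IsRoot.def, hρ, eval_line]
  have h3 : (x 0 • e3 + x 1 • a3 + u • x 1 • b3) + (x 1 * t - x 0) • e3 =
      x 1 • (a3 + u • b3 + t • e3) := by
    funext i
    simp only [Pi.add_apply, Pi.smul_apply, smul_eq_mul]
    ring
  apply hr _ (x 1 * t - x 0)
  · rw [h3, eval_smul' hd, h1, mul_zero]
  · rw [h3, dd_smul' hd, h2, mul_zero]

/-- the coefficients -/
noncomputable def cc (p : MvPolynomial (Fin n) ℝ) (e a b : Fin n → ℝ) (j : ℕ) : ℂ[X] :=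
  C (((MvPolynomial.eval e p : ℝ) : ℂ)⁻¹) * (cpoly p a b e j).map (algebraMap ℝ ℂ)

theorem cj_cc (p : MvPolynomial (Fin n) ℝ) (e a b : Fin n → ℝ) (j : ℕ) :
    cj (cc p e a b j) = cc p e a b j := by
  rw [cc, map_mul, cj_C, map_inv₀, Complex.conj_ofReal]
  congr 1
  ext k
  rw [cj_coeff, coeff_map]
  exact Complex.conj_ofReal _

theorem natDegree_cc {p : MvPolynomial (Fin n) ℝ} {d : ℕ} (hp : p.IsHomogeneous d)
    (e a b : Fin n → ℝ) (j : ℕ) : (cc p e a b j).natDegree ≤ d - j :=
  (natDegree_C_mul_le _ _).trans (natDegree_map_le.trans (natDegree_cpoly hp a b e j))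

theorem eval_cc (p : MvPolynomial (Fin n) ℝ) (e a b : Fin n → ℝ) (j : ℕ) (u : ℝ) :
    (cc p e a b j).eval (u : ℂ) =
      (((MvPolynomial.eval e p)⁻¹ * (line p (a + u • b) e).coeff j : ℝ) : ℂ) := by
  rw [cc, eval_mul, eval_C, eval_map]
  have h1 : (u : ℂ) = algebraMap ℝ ℂ u := rfl
  rw [h1, eval₂_at_apply, eval_cpoly, Complex.ofReal_mul, Complex.ofReal_inv]
  rfl

theorem sum_cc {p : MvPolynomial (Fin n) ℝ} {d : ℕ} (hd : p.IsHomogeneous d)
    {e : Fin n → ℝ} (he : MvPolynomial.eval e p ≠ 0) (a b : Fin n → ℝ) (u t : ℝ) :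
    (t : ℂ) ^ d + ∑ i : Fin d, (cc p e a b i).eval (u : ℂ) * (t : ℂ) ^ (i : ℕ) =
      (((MvPolynomial.eval e p)⁻¹ * MvPolynomial.eval (a + u • b + t • e) p : ℝ) : ℂ) := by
  have h1 : (line p (a + u • b) e).eval t =
      ∑ i ∈ Finset.range (d + 1), (line p (a + u • b) e).coeff i * t ^ i := by
    apply eval_eq_sum_range'
    have := (line_top hd (a + u • b) e).1
    omega
  rw [Finset.sum_range_succ, (line_top hd (a + u • b) e).2, Finset.sum_range, eval_line] at h1
  rw [h1, mul_add, ← mul_assoc, inv_mul_cancel₀ he, one_mul, add_comm]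
  push_cast
  congr 1
  rw [Finset.mul_sum]
  refine Finset.sum_congr rfl fun i _ => ?_
  rw [eval_cc]
  push_cast
  ring

/-- pencil representation of a ternary polynomial -/
def Rep (p : MvPolynomial (Fin 3) ℝ) : Prop :=
  ∃ (d : ℕ) (c : ℝ) (A G : Matrix (Fin d) (Fin d) ℂ), A.IsHermitian ∧ G.IsHermitian ∧
    ∀ t s u : ℝ, ((MvPolynomial.eval (t • e3 + s • a3 + u • b3) p : ℝ) : ℂ) =
      c * ((t : ℂ) • (1 : Matrix (Fin d) (Fin d) ℂ) + (s : ℂ) • A + (u : ℂ) • G).det

theorem rep_irreducible {p : MvPolynomial (Fin 3) ℝ} (hp : IsHyperbolic p e3)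
    (hirr : Irreducible p) : Rep p := by
  classical
  obtain ⟨d, hd⟩ := hp.1
  obtain ⟨s, hs⟩ := good_line hp hirr
  have he := hp.2.1.ne'
  obtain ⟨A, G, hA, hG, hAG⟩ := hhv_affine (d := d) (fun i => cc p e3 a3 b3 i)
    (fun i => cj_cc _ _ _ _ _) (fun i => natDegree_cc hd _ _ _ _) (s.image fun u : ℝ => (u : ℂ)) (by
      intro u hu
      have hu' : u ∉ s := fun h => hu (Finset.mem_image_of_mem _ h)
      obtain ⟨r, hr1, hr2⟩ := roots_at hp hd (hs u hu')
      refine ⟨r, hr1, fun i => ?_⟩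
      rw [sum_cc hd he, hr2 i, mul_zero, Complex.ofReal_zero])
  have key : ∀ t u : ℝ, ((MvPolynomial.eval (t • e3 + (1 : ℝ) • a3 + u • b3) p : ℝ) : ℂ) =
      ((MvPolynomial.eval e3 p : ℝ) : ℂ) *
        ((t : ℂ) • (1 : Matrix (Fin d) (Fin d) ℂ) - A - (u : ℂ) • G).det := by
    intro t u
    rw [hAG, sum_cc hd he]
    have h1 : t • e3 + (1 : ℝ) • a3 + u • b3 = a3 + u • b3 + t • e3 := by
      rw [one_smul]; abel
    rw [h1]
    push_cast
    rw [← mul_assoc, mul_inv_cancel₀ (by exact_mod_cast he), one_mul]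
  refine ⟨d, MvPolynomial.eval e3 p, -A, -G, hA.neg, hG.neg, fun t s u => ?_⟩
  -- for `s ≠ 0` by homogeneity
  have hne : ∀ s : ℝ, s ≠ 0 →
      ((MvPolynomial.eval (t • e3 + s • a3 + u • b3) p : ℝ) : ℂ) =
      ((MvPolynomial.eval e3 p : ℝ) : ℂ) * ((t : ℂ) • (1 : Matrix (Fin d) (Fin d) ℂ) +
        (s : ℂ) • -A + (u : ℂ) • -G).det := by
    intro s hs
    have h1 : t • e3 + s • a3 + u • b3 =
        s • ((t / s) • e3 + (1 : ℝ) • a3 + (u / s) • b3) := by
      rw [smul_add, smul_add, smul_smul, smul_smul, smul_smul, mul_div_cancel₀ _ hs,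
        mul_div_cancel₀ _ hs, mul_one]
    have h2 : (t : ℂ) • (1 : Matrix (Fin d) (Fin d) ℂ) + (s : ℂ) • -A + (u : ℂ) • -G =
        (s : ℂ) • (((t / s : ℝ) : ℂ) • (1 : Matrix (Fin d) (Fin d) ℂ) - A -
          ((u / s : ℝ) : ℂ) • G) := by
      have hs' : (s : ℂ) ≠ 0 := by exact_mod_cast hs
      rw [smul_sub, smul_sub, smul_smul, smul_smul]
      push_cast
      rw [mul_div_cancel₀ _ hs', mul_div_cancel₀ _ hs', smul_neg, smul_neg]
      abel
    rw [h1, eval_smul' hd, h2, Matrix.det_smul, Fintype.card_fin, Complex.ofReal_mul, key]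
    push_cast
    ring
  by_cases hs : s = 0
  · -- continuity
    have hc1 : Continuous fun s : ℝ =>
        ((MvPolynomial.eval (t • e3 + s • a3 + u • b3) p : ℝ) : ℂ) :=
      Complex.continuous_ofReal.comp ((continuous_eval p).comp (by fun_prop))
    have hc2 : Continuous fun s : ℝ => ((MvPolynomial.eval e3 p : ℝ) : ℂ) *
        ((t : ℂ) • (1 : Matrix (Fin d) (Fin d) ℂ) + (s : ℂ) • -A + (u : ℂ) • -G).det := by
      refine continuous_const.mul (Continuous.matrix_det ?_)
      exact (continuous_const.add ((Complex.continuous_ofReal).smul continuous_const)).add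
        continuous_const
    have := Continuous.ext_on (dense_compl_singleton (0 : ℝ)) hc1 hc2 (fun s hs => hne s hs)
    exact congrFun this s
  · exact hne s hs

end Vale.Agent.P256.H909
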