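import Vale.Agent.P256.H909.HVN
import Vale.Agent.P256.H909.Tern

/-!
# P256, n = 4 (helper909): genericity for irreducible polynomials

For `p` irreducible and `e, f, g, k` spanning the space the genericity hypothesis of `hvn` holds.
-/

set_option linter.all false

namespace Vale.Agent.P256.H909

open Polynomial Matrix Filter Topology Vale.Agent.P256.H283

variable {n : ℕ}

/-- the pullback of a polynomial to the coordinates of four vectors -/
noncomputable def pb (q : MvPolynomial (Fin n) ℝ) (e f k g : Fin n → ℝ) :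
    MvPolynomial (Fin 4) ℝ :=
  MvPolynomial.aeval (fun i => MvPolynomial.X 0 * MvPolynomial.C (e i) +
    MvPolynomial.X 1 * MvPolynomial.C (f i) + MvPolynomial.X 2 * MvPolynomial.C (k i) +
    MvPolynomial.X 3 * MvPolynomial.C (g i)) q

theorem eval_pb (q : MvPolynomial (Fin n) ℝ) (e f k g : Fin n → ℝ) (y : Fin 4 → ℝ) :
    MvPolynomial.eval y (pb q e f k g) =
      MvPolynomial.eval (y 0 • e + y 1 • f + y 2 • k + y 3 • g) q := by
  have h1 : (MvPolynomial.eval y).comp (MvPolynomial.aeval (fun i => MvPolynomial.X 0 *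
    MvPolynomial.C (e i) + MvPolynomial.X 1 * MvPolynomial.C (f i) + MvPolynomial.X 2 *
    MvPolynomial.C (k i) + MvPolynomial.X 3 * MvPolynomial.C (g i)) :
      MvPolynomial (Fin n) ℝ →ₐ[ℝ] MvPolynomial (Fin 4) ℝ).toRingHom =
    MvPolynomial.eval (y 0 • e + y 1 • f + y 2 • k + y 3 • g) := by
    apply MvPolynomial.ringHom_ext
    · intro r
      simp
    · intro i
      simp
  exact congrArg (fun F : MvPolynomial (Fin n) ℝ →+* ℝ => F q) h1

/-- **Genericity.** -/
theorem exists_gen {p : MvPolynomial (Fin n) ℝ} {e f g k : Fin n → ℝ} (hp : IsHyperbolic p e)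
    (hirr : Irreducible p)
    (hspan : ∀ x : Fin n → ℝ, ∃ a b c c' : ℝ, x = a • e + b • f + c • k + c' • g) :
    ∃ s u : ℝ, ∀ t : ℝ, MvPolynomial.eval (f + u • (k + s • g) + t • e) p = 0 →
      dd p (f + u • (k + s • g) + t • e) e ≠ 0 := by
  classical
  obtain ⟨d, hd⟩ := hp.1
  obtain ⟨r, hr0, hr⟩ := Vale.Agent.P256.H387.exists_disc hp hirr
  have hpb : pb r e f k g ≠ 0 := by
    intro h
    apply hr0
    apply MvPolynomial.funext
    intro x
    obtain ⟨a, b, c, c', rfl⟩ := hspan x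
    have h1 := eval_pb r e f k g ![a, b, c, c']
    rw [h, map_zero] at h1
    rw [map_zero]
    exact h1.symm
  obtain ⟨y, hy⟩ : ∃ y : Fin 4 → ℝ,
      MvPolynomial.eval y (pb r e f k g * MvPolynomial.X 1 * MvPolynomial.X 2) ≠ 0 := by
    by_contra hcon
    push Not at hcon
    have h1 : pb r e f k g * MvPolynomial.X 1 * MvPolynomial.X 2 = 0 :=
      MvPolynomial.funext fun x => by rw [hcon x, map_zero]
    rcases mul_eq_zero.1 h1 with h | h
    · rcases mul_eq_zero.1 h with h | h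
      · exact hpb h
      · exact MvPolynomial.X_ne_zero _ h
    · exact MvPolynomial.X_ne_zero _ h
  rw [map_mul, map_mul, MvPolynomial.eval_X, MvPolynomial.eval_X, eval_pb] at hy
  have hy2 : y 2 ≠ 0 := right_ne_zero_of_mul hy
  have hy1 : y 1 ≠ 0 := right_ne_zero_of_mul (left_ne_zero_of_mul hy)
  have hy0 := left_ne_zero_of_mul (left_ne_zero_of_mul hy)
  refine ⟨y 3 / y 2, y 2 / y 1, fun t h1 h2 => hy0 ?_⟩
  have h3 : (y 0 • e + y 1 • f + y 2 • k + y 3 • g) + (y 1 * t - y 0) • e =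
      y 1 • (f + (y 2 / y 1) • (k + (y 3 / y 2) • g) + t • e) := by
    funext i
    simp only [Pi.add_apply, Pi.smul_apply, smul_eq_mul]
    field_simp
    ring
  apply hr _ (y 1 * t - y 0)
  · rw [h3, eval_smul' hd, h1, mul_zero]
  · rw [h3, dd_smul' hd, h2, mul_zero]

/-- **Helton–Vinnikov with a parameter, irreducible polynomials.** -/
theorem hvn_irr {p : MvPolynomial (Fin n) ℝ} {e f g k : Fin n → ℝ}
    (hp : IsHyperbolic p e) (hirr : Irreducible p) {d : ℕ} (hd : p.IsHomogeneous d)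
    (hspan : ∀ x : Fin n → ℝ, ∃ a b c c' : ℝ, x = a • e + b • f + c • k + c' • g) :
    ∃ (β : Fin d → ℝ) (G : ℝ → Matrix (Fin d) (Fin d) ℂ), NM 0 G ∧
      (∀ᶠ s in 𝓝 (0 : ℝ), (G s).IsHermitian) ∧
      ∀ᶠ s in 𝓝 (0 : ℝ), ∀ t x u : ℝ,
        ((MvPolynomial.eval (t • e + x • f + u • (s • g + k)) p : ℝ) : ℂ) =
        ((MvPolynomial.eval e p : ℝ) : ℂ) * ((t : ℂ) • (1 : Matrix (Fin d) (Fin d) ℂ) +
          (x : ℂ) • Matrix.diagonal (fun i => (β i : ℂ)) + (u : ℂ) • G s).det :=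
  hvn hp hd (exists_gen hp hirr hspan)

end Vale.Agent.P256.H909
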