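import Vale.Agent.P256.H909.Basic

/-! Matrix Fejér–Riesz factorization over the real line, with control of the zeros of the
determinant. -/

set_option linter.all false

namespace Vale.Agent.P256.H909

open Polynomial Matrix Filter Topology
open scoped ComplexOrder

variable {n : Type*} [Fintype n] [DecidableEq n]

/-- closedness: it is enough to test positive semidefiniteness outside one point -/
theorem psd_of_ne {B : Matrix n n ℂ[X]} (hs : sm B = B) (z : ℂ)
    (h : ∀ u : ℝ, (u : ℂ) ≠ z → (ev u B).PosSemidef) : Psd B := by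
  intro u
  have hH : (ev u B).IsHermitian := by
    rw [Matrix.IsHermitian, ← ev_sm, hs]
  refine Matrix.PosSemidef.of_dotProduct_mulVec_nonneg hH fun x => ?_
  -- the quadratic form as a function of `u`
  set φ : ℝ → ℂ := fun t => star x ⬝ᵥ ev t B *ᵥ x with hφ
  have hc : Continuous φ := by
    have : φ = fun t : ℝ => ∑ i, star x i * ∑ j, (B i j).eval (t : ℂ) * x j := by
      funext t
      simp [hφ, dotProduct, Matrix.mulVec]
    rw [this]
    refine continuous_finset_sum _ fun i _ => continuous_const.mul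
      (continuous_finset_sum _ fun j _ => Continuous.mul ?_ continuous_const)
    exact (Polynomial.continuous _).comp Complex.continuous_ofReal
  have hne : ∀ᶠ t in 𝓝[>] u, 0 ≤ φ t := by
    by_cases hz : ∃ r : ℝ, (r : ℂ) = z
    · obtain ⟨r, hr⟩ := hz
      rcases lt_or_ge u r with hur | hur
      · have : ∀ᶠ t in 𝓝[>] u, t < r := by
          filter_upwards [nhdsWithin_le_nhds (Iio_mem_nhds hur)] with t ht using ht
        filter_upwards [this] with t ht
        exact (h t (by rw [← hr]; exact_mod_cast ht.ne)).dotProduct_mulVec_nonneg x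
      · filter_upwards [self_mem_nhdsWithin] with t ht
        have ht' : u < t := ht
        exact (h t (by rw [← hr]; exact_mod_cast (hur.trans_lt ht').ne')).dotProduct_mulVec_nonneg x
    · refine Filter.Eventually.of_forall fun t => ?_
      exact (h t (fun h' => hz ⟨t, h'⟩)).dotProduct_mulVec_nonneg x
  exact ge_of_tendsto (hc.continuousWithinAt (s := Set.Ioi u)) hne

/-- a polynomial which is real and nonnegative on the real line, vanishing at `z`, is divisible
by `(X - z)(X - conj z)` -/
theorem dvd_of_nonneg {g : ℂ[X]} (hs : cj g = g) (hg : ∀ u : ℝ, 0 ≤ (g.eval (u : ℂ)).re)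
    {z : ℂ} (hz : g.eval z = 0) : (X - C z) * (X - C ((starRingEnd ℂ) z)) ∣ g := by
  have h0 : g.eval ((starRingEnd ℂ) z) = 0 := by
    rw [← hs, eval_cj, hz, map_zero]
  obtain ⟨h, hh⟩ := dvd_iff_isRoot.2 hz
  rw [hh]
  apply mul_dvd_mul_left
  rw [dvd_iff_isRoot, IsRoot.def]
  by_cases hzz : (starRingEnd ℂ) z = z
  · obtain ⟨r, hr⟩ := Complex.conj_eq_iff_real.1 hzz
    rw [hzz, hr]
    -- `h` is real
    have hhs : cj h = h := by
      have h1 : (X - C z) * cj h = (X - C z) * h := by
        rw [← hh]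
        conv_rhs => rw [← hs, hh]
        rw [map_mul, map_sub, cj_X, cj_C, hzz]
      exact mul_left_cancel₀ (X_sub_C_ne_zero z) h1
    have him : ∀ u : ℝ, (h.eval (u : ℂ)).im = 0 := by
      intro u
      have := eval_cj_real u h
      rw [hhs] at this
      exact Complex.conj_eq_iff_im.1 this.symm
    set φ : ℝ → ℝ := fun u => (h.eval (u : ℂ)).re with hφ
    have hφc : Continuous φ :=
      Complex.continuous_re.comp ((Polynomial.continuous _).comp Complex.continuous_ofReal)
    have key : ∀ u : ℝ, 0 ≤ (u - r) * φ u := by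
      intro u
      have h1 := hg u
      rw [hh, eval_mul, eval_sub, eval_X, eval_C, hr, ← Complex.ofReal_sub,
        Complex.re_ofReal_mul] at h1
      exact h1
    have h1 : 0 ≤ φ r := by
      refine ge_of_tendsto (hφc.continuousWithinAt (s := Set.Ioi r)) ?_
      filter_upwards [self_mem_nhdsWithin] with u hu
      have hu' : r < u := hu
      have := key u
      exact nonneg_of_mul_nonneg_right this (sub_pos.2 hu')
    have h2 : φ r ≤ 0 := by
      refine le_of_tendsto (hφc.continuousWithinAt (s := Set.Iio r)) ?_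
      filter_upwards [self_mem_nhdsWithin] with u hu
      have hu' : u < r := hu
      have := key u
      nlinarith
    apply Complex.ext
    · exact le_antisymm h2 h1
    · exact him r
  · have h1 : ((starRingEnd ℂ) z - z) * h.eval ((starRingEnd ℂ) z) = 0 := by
      rw [hh, eval_mul, eval_sub, eval_X, eval_C] at h0
      exact h0
    rcases mul_eq_zero.1 h1 with h2 | h2
    · exact absurd (sub_eq_zero.1 h2) hzz
    · exact h2

theorem eval_reflect {g : ℂ[X]} {N : ℕ} (hN : g.natDegree ≤ N) {u : ℂ} (hu : u ≠ 0) :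
    (g.reflect N).eval u = u ^ N * g.eval u⁻¹ := by
  letI : Invertible (u⁻¹) := invertibleOfNonzero (inv_ne_zero hu)
  have h3 := Polynomial.eval₂_reflect_mul_pow (RingHom.id ℂ) (u⁻¹) N g hN
  rw [Polynomial.eval₂_id, Polynomial.eval₂_id, invOf_eq_inv, inv_inv] at h3
  rw [← h3, mul_comm, mul_assoc, ← mul_pow, inv_mul_cancel₀ hu, one_pow, mul_one]

/-- a nonnegative real polynomial has even degree -/
theorem coeff_odd_eq_zero {g : ℂ[X]} (hs : cj g = g) (hg : ∀ u : ℝ, 0 ≤ (g.eval (u : ℂ)).re)
    {k : ℕ} (hk : g.natDegree ≤ 2 * k + 1) : g.coeff (2 * k + 1) = 0 := by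
  set h := g.reflect (2 * k + 1) with hh
  have he : ∀ u : ℝ, u ≠ 0 → h.eval (u : ℂ) = (u : ℂ) ^ (2 * k + 1) * g.eval ((u⁻¹ : ℝ) : ℂ) := by
    intro u hu
    rw [hh, eval_reflect hk (by exact_mod_cast hu)]
    push_cast
    rfl
  have h0 : h.eval (((0 : ℝ)) : ℂ) = g.coeff (2 * k + 1) := by
    rw [Complex.ofReal_zero, ← Polynomial.coeff_zero_eq_eval_zero, hh, Polynomial.coeff_reflect,
      Polynomial.revAt_le (Nat.zero_le _), Nat.sub_zero]
  set φ : ℝ → ℝ := fun u => (h.eval (u : ℂ)).re with hφ
  have hφc : Continuous φ :=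
    Complex.continuous_re.comp ((Polynomial.continuous _).comp Complex.continuous_ofReal)
  have hval : ∀ u : ℝ, u ≠ 0 → φ u = u ^ (2 * k + 1) * (g.eval ((u⁻¹ : ℝ) : ℂ)).re := by
    intro u hu
    rw [hφ]
    simp only
    rw [he u hu, ← Complex.ofReal_pow, Complex.re_ofReal_mul]
  have h1 : 0 ≤ φ 0 := by
    refine ge_of_tendsto (hφc.continuousWithinAt (s := Set.Ioi 0)) ?_
    filter_upwards [self_mem_nhdsWithin] with u hu
    have hu' : 0 < u := hu
    rw [hval u hu'.ne']
    exact mul_nonneg (pow_pos hu' _).le (hg _)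
  have h2 : φ 0 ≤ 0 := by
    refine le_of_tendsto (hφc.continuousWithinAt (s := Set.Iio 0)) ?_
    filter_upwards [self_mem_nhdsWithin] with u hu
    have hu' : u < 0 := hu
    rw [hval u hu'.ne]
    refine mul_nonpos_of_nonpos_of_nonneg ?_ (hg _)
    exact (Odd.pow_neg (by exact ⟨k, rfl⟩) hu').le
  have him : (g.coeff (2 * k + 1)).im = 0 := by
    have := cj_coeff g (2 * k + 1)
    rw [hs] at this
    exact Complex.conj_eq_iff_im.1 this.symm
  apply Complex.ext
  · rw [← h0]; exact le_antisymm h2 h1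
  · exact him

/-- the elementary transformation: column `i₀` of the identity replaced by `w` -/
noncomputable def upd (i₀ : n) (w : n → ℂ[X]) : Matrix n n ℂ[X] :=
  (1 : Matrix n n ℂ[X]).updateCol i₀ w

theorem upd_apply (i₀ : n) (w : n → ℂ[X]) (i j : n) :
    upd i₀ w i j = if j = i₀ then w i else (if i = j then 1 else 0) := by
  rw [upd, Matrix.updateCol_apply, Matrix.one_apply]

theorem exists_upd_inv {i₀ : n} {w : n → ℂ[X]} {c : ℂ} (hc : c ≠ 0) (hw : w i₀ = C c) :
    ∃ P : Matrix n n ℂ[X], upd i₀ w * P = 1 ∧ P * upd i₀ w = 1 := by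
  set w' : n → ℂ[X] := fun i => if i = i₀ then C c⁻¹ else - (C c⁻¹ * w i) with hw'
  have h1 : upd i₀ w * upd i₀ w' = 1 := by
    rw [upd, upd, Matrix.mul_updateCol, Matrix.mul_one]
    ext i j : 2
    rw [Matrix.updateCol_apply, Matrix.one_apply]
    by_cases hj : j = i₀
    · rw [if_pos hj]
      have : (((1 : Matrix n n ℂ[X]).updateCol i₀ w) *ᵥ w') i = w i * w' i₀ +
          ∑ k ∈ Finset.univ.erase i₀, (if i = k then w' k else 0) := by
        rw [Matrix.mulVec, dotProduct, ← Finset.add_sum_erase _ _ (Finset.mem_univ i₀)]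
        congr 1
        · rw [Matrix.updateCol_self]
        · refine Finset.sum_congr rfl fun k hk => ?_
          rw [Matrix.updateCol_ne (Finset.ne_of_mem_erase hk), Matrix.one_apply]
          split_ifs <;> simp
      rw [this, Finset.sum_ite_eq]
      have hcc : C c * C c⁻¹ = (1 : ℂ[X]) := by rw [← C_mul, mul_inv_cancel₀ hc, C_1]
      by_cases hi : i = i₀
      · rw [if_neg (by simp [hi]), hj, hi, if_pos rfl, hw, hw']
        simp [hcc]
      · rw [if_pos (by simp [hi]), hj, if_neg hi, hw']
        simp [hi]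
        ring
    · rw [if_neg hj, Matrix.updateCol_ne hj, Matrix.one_apply]
  exact ⟨upd i₀ w', h1, by rw [← mul_eq_one_comm]; exact h1⟩

/-- entries of the transformed matrix -/
theorem congr_apply {B : Matrix n n ℂ[X]} (hs : sm B = B) (i₀ : n) (w : n → ℂ[X]) (i j : n) :
    (sm (upd i₀ w) * B * upd i₀ w) i j =
      if i = i₀ then (if j = i₀ then ∑ k, cj (w k) * (B *ᵥ w) k else cj ((B *ᵥ w) j))
      else (if j = i₀ then (B *ᵥ w) i else B i j) := by
  have hBU : ∀ a b, (B * upd i₀ w) a b = if b = i₀ then (B *ᵥ w) a else B a b := by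
    intro a b
    rw [upd, Matrix.mul_updateCol, Matrix.mul_one, Matrix.updateCol_apply]
  rw [Matrix.mul_assoc, Matrix.mul_apply]
  by_cases hi : i = i₀
  · rw [if_pos hi]
    have h1 : ∀ k, sm (upd i₀ w) i k = cj (w k) := by
      intro k
      rw [sm_apply, upd_apply, if_pos hi]
    by_cases hj : j = i₀
    · rw [if_pos hj]
      exact Finset.sum_congr rfl fun k _ => by rw [h1, hBU, if_pos hj]
    · rw [if_neg hj, Matrix.mulVec, dotProduct, map_sum]
      refine Finset.sum_congr rfl fun k _ => ?_
      rw [h1, hBU, if_neg hj, map_mul]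
      conv_lhs => rw [← hs, sm_apply]
      rw [mul_comm]
  · rw [if_neg hi]
    have h1 : ∀ k, sm (upd i₀ w) i k = if k = i then 1 else 0 := by
      intro k
      rw [sm_apply, upd_apply, if_neg hi]
      split_ifs <;> simp
    rw [Finset.sum_eq_single i]
    · rw [h1, if_pos rfl, one_mul, hBU]
    · intro k _ hk
      rw [h1, if_neg hk, zero_mul]
    · intro h; exact absurd (Finset.mem_univ _) h

theorem psd_congr {B : Matrix n n ℂ[X]} (h : Psd B) (U : Matrix n n ℂ[X]) :
    Psd (sm U * B * U) := by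
  intro u
  rw [ev_mul, ev_mul, ev_sm]
  exact (h u).conjTranspose_mul_mul_same _

end Vale.Agent.P256.H909
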