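import Vale.Agent.P267.H823.Factor
import Vale.Agent.P256.H909.FR

/-! Nonnegative polynomials over analytic germs are norms: `P = W W^*`. -/

set_option linter.all false

namespace Vale.Agent.P256.H909.A2

open Filter Topology Polynomial Vale.Agent.P267.H823 Vale.Agent.P256.H909
open scoped ComplexOrder

/-! ### reflection -/

theorem tendsto_conj0 : Tendsto (fun z : ℂ => (starRingEnd ℂ) z) (𝓝 0) (𝓝 0) := by
  have := Complex.continuous_conj.tendsto (0 : ℂ)
  rwa [map_zero] at this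

theorem tendsto_conj0' :
    Tendsto (fun z : ℂ => (starRingEnd ℂ) z) (𝓝[≠] 0) (𝓝[≠] 0) := by
  refine tendsto_nhdsWithin_iff.2 ⟨tendsto_conj0.mono_left nhdsWithin_le_nhds, ?_⟩
  filter_upwards [self_mem_nhdsWithin] with z hz
  intro h
  exact hz (by simpa using h)

/-- reflected function -/
noncomputable def rf (f : ℂ → ℂ) : ℂ → ℂ := fun z => (starRingEnd ℂ) (f ((starRingEnd ℂ) z))

theorem rf_an {f : ℂ → ℂ} (hf : AnalyticAt ℂ f 0) : AnalyticAt ℂ (rf f) 0 := by
  rw [Complex.analyticAt_iff_eventually_differentiableAt] at hf ⊢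
  filter_upwards [tendsto_conj0.eventually hf] with z hz
  have := hz.conj_conj
  rw [Complex.conj_conj] at this
  exact this

/-- reflected family -/
noncomputable def st (P : ℂ → ℂ[X]) : ℂ → ℂ[X] := fun z => cj (P ((starRingEnd ℂ) z))

theorem st_coeff (P : ℂ → ℂ[X]) (z : ℂ) (i : ℕ) :
    (st P z).coeff i = rf (fun w => (P w).coeff i) z := by
  rw [st, cj_coeff, rf]

theorem st_st (P : ℂ → ℂ[X]) : st (st P) = P := by
  funext z
  rw [st, st, cj_cj, Complex.conj_conj]

theorem st_mul (P Q : ℂ → ℂ[X]) (z : ℂ) :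
    st (fun w => P w * Q w) z = st P z * st Q z := by
  rw [st, map_mul]; rfl

theorem st_prod {ι : Type*} (S : Finset ι) (Q : ι → ℂ → ℂ[X]) (z : ℂ) :
    st (fun w => ∏ i ∈ S, Q i w) z = ∏ i ∈ S, st (Q i) z := by
  rw [st, map_prod]; rfl

theorem MF.st {d : ℕ} {P : ℂ → ℂ[X]} (h : MF d P) : MF d (A2.st P) where
  monic z := by
    rw [A2.st, cj_apply]
    exact (h.monic _).map _
  deg z := by rw [A2.st, natDegree_cj, h.deg]
  an i := by
    have h1 : (fun z => (A2.st P z).coeff i) = rf (fun w => (P w).coeff i) := by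
      funext z; exact st_coeff P z i
    rw [h1]
    exact rf_an (h.an i)

theorem MF.mul {d d' : ℕ} {P Q : ℂ → ℂ[X]} (h : MF d P) (h' : MF d' Q) :
    MF (d + d') fun z => P z * Q z where
  monic z := (h.monic z).mul (h'.monic z)
  deg z := by rw [(h.monic z).natDegree_mul (h'.monic z), h.deg, h'.deg]
  an := h.an.mul h'.an

theorem MF.one : MF 0 fun _ => (1 : ℂ[X]) where
  monic _ := monic_one
  deg _ := natDegree_one
  an := AnC.one

theorem eval_st (P : ℂ → ℂ[X]) (s u : ℝ) :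
    (st P s).eval (u : ℂ) = (starRingEnd ℂ) ((P s).eval (u : ℂ)) := by
  rw [st, eval_cj_real, Complex.conj_ofReal]

theorem IsBranch.rf {k : ℕ} {h : ℂ → ℂ} (H : IsBranch k h) : IsBranch k (A2.rf h) where
  pos := H.pos
  an := rf_an H.an
  prim η hη hη1 := by
    have h1 := H.prim ((starRingEnd ℂ) η) (by rw [← map_pow, hη, map_one]) (by
      intro h
      apply hη1
      have := congrArg (starRingEnd ℂ) h
      rwa [Complex.conj_conj, map_one] at this)
    filter_upwards [tendsto_conj0'.eventually h1] with t ht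
    intro h2
    apply ht
    have := congrArg (starRingEnd ℂ) h2
    simp only [A2.rf, Complex.conj_conj, map_mul] at this
    exact this

theorem IsEqn.st {k : ℕ} {h : ℂ → ℂ} {Q : ℂ → ℂ[X]} (hk : 0 < k) (hQ : IsEqn k h Q) :
    IsEqn k (A2.rf h) (A2.st Q) where
  mf := MF.st hQ.mf
  eq := by
    filter_upwards [tendsto_conj0.eventually hQ.eq] with s hs
    rw [A2.st, map_pow, hs, map_prod]
    refine Finset.prod_nbij' (fun η => (starRingEnd ℂ) η) (fun η => (starRingEnd ℂ) η)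
      ?_ ?_ ?_ ?_ ?_
    · intro η hη
      rw [mem_μ hk] at hη ⊢
      rw [← map_pow, hη, map_one]
    · intro η hη
      rw [mem_μ hk] at hη ⊢
      rw [← map_pow, hη, map_one]
    · intro η _; exact Complex.conj_conj η
    · intro η _; exact Complex.conj_conj η
    · intro η _
      rw [map_sub, cj_X, cj_C, A2.rf, map_mul, Complex.conj_conj]

/-! ### nonnegative families -/

/-- nonnegative at the real points -/
def Nn (P : ℂ → ℂ[X]) : Prop :=
  ∀ᶠ s : ℝ in 𝓝[≠] 0, ∀ u : ℝ, 0 ≤ (P (s : ℂ)).eval (u : ℂ)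

theorem tendsto_ofReal_ne : Tendsto (fun s : ℝ => (s : ℂ)) (𝓝[≠] 0) (𝓝[≠] 0) := by
  refine tendsto_nhdsWithin_iff.2 ⟨?_, ?_⟩
  · have := Complex.continuous_ofReal.tendsto (0 : ℝ)
    rw [Complex.ofReal_zero] at this
    exact this.mono_left nhdsWithin_le_nhds
  · filter_upwards [self_mem_nhdsWithin] with s hs
    intro h
    exact hs (by simpa using h)

theorem tendsto_ofReal0 : Tendsto (fun s : ℝ => (s : ℂ)) (𝓝 0) (𝓝 0) := by
  have := Complex.continuous_ofReal.tendsto (0 : ℝ)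
  rwa [Complex.ofReal_zero] at this

/-- identity principle on the real line -/
theorem eq_of_real {f g : ℂ → ℂ} (hf : AnalyticAt ℂ f 0) (hg : AnalyticAt ℂ g 0)
    (h : ∀ᶠ s : ℝ in 𝓝[≠] 0, f s = g s) : ∀ᶠ z in 𝓝 (0 : ℂ), f z = g z := by
  rw [← hf.frequently_eq_iff_eventually_eq hg]
  exact tendsto_ofReal_ne.frequently h.frequently

theorem eq_of_real_MF {d d' : ℕ} {P Q : ℂ → ℂ[X]} (hP : MF d P) (hQ : MF d' Q)
    (h : ∀ᶠ s : ℝ in 𝓝[≠] 0, P s = Q s) : ∀ᶠ z in 𝓝 (0 : ℂ), P z = Q z := by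
  have h1 : ∀ i ∈ Finset.range (max d d' + 1), ∀ᶠ z in 𝓝 (0 : ℂ),
      (P z).coeff i = (Q z).coeff i := fun i _ =>
    eq_of_real (hP.an i) (hQ.an i) (h.mono fun s hs => by rw [hs])
  filter_upwards [(Finset.eventually_all _).2 h1] with z hz
  ext i
  by_cases hi : i ∈ Finset.range (max d d' + 1)
  · exact hz i hi
  · rw [Finset.mem_range] at hi
    rw [coeff_eq_zero_of_natDegree_lt, coeff_eq_zero_of_natDegree_lt]
    · rw [hQ.deg]; omega
    · rw [hP.deg]; omega

theorem cj_of_nonneg {g : ℂ[X]} (h : ∀ u : ℝ, 0 ≤ g.eval (u : ℂ)) : cj g = g := by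
  refine eq_of_eval_real' fun u => ?_
  rw [eval_cj_real]
  exact Complex.conj_eq_iff_im.2 (Complex.nonneg_iff.1 (h u)).2.symm

theorem Nn.st {d : ℕ} {P : ℂ → ℂ[X]} (hP : MF d P) (h : Nn P) :
    ∀ᶠ z in 𝓝 (0 : ℂ), A2.st P z = P z := by
  refine eq_of_real_MF (MF.st hP) hP ?_
  filter_upwards [h] with s hs
  rw [A2.st, Complex.conj_ofReal]
  exact cj_of_nonneg hs

/-- dividing a nonnegative polynomial by `|q|²` -/
theorem nonneg_of_mul {q g : ℂ[X]} (hq : q ≠ 0)
    (h : ∀ u : ℝ, 0 ≤ q.eval (u : ℂ) * (starRingEnd ℂ) (q.eval (u : ℂ)) * g.eval (u : ℂ)) (u : ℝ) :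
    0 ≤ g.eval (u : ℂ) := by
  have hc : Continuous fun t : ℝ => g.eval (t : ℂ) :=
    (Polynomial.continuous _).comp Complex.continuous_ofReal
  have hfin : {t : ℝ | q.eval (t : ℂ) = 0}.Finite := by
    have h1 : {z : ℂ | q.eval z = 0}.Finite := by
      refine (q.roots.toFinset.finite_toSet).subset fun z hz => ?_
      simpa [hq] using hz
    exact h1.preimage (Complex.ofReal_injective.injOn)
  have h2 : ∀ᶠ t in 𝓝[>] u, t ∉ ({t : ℝ | q.eval (t : ℂ) = 0} \ {u}) := by
    have h3 : IsClosed ({t : ℝ | q.eval (t : ℂ) = 0} \ {u}) :=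
      (hfin.subset Set.diff_subset).isClosed
    exact nhdsWithin_le_nhds (h3.isOpen_compl.mem_nhds (by simp))
  refine ge_of_tendsto (hc.continuousWithinAt (s := Set.Ioi u)) ?_
  filter_upwards [h2, self_mem_nhdsWithin] with t ht ht2
  have hqt : q.eval (t : ℂ) ≠ 0 := fun h3 => ht ⟨h3, ne_of_gt ht2⟩
  have h4 := h t
  rw [Complex.mul_conj] at h4
  have h5 : 0 < Complex.normSq (q.eval (t : ℂ)) := Complex.normSq_pos.2 hqt
  rw [Complex.nonneg_iff, Complex.re_ofReal_mul, Complex.im_ofReal_mul] at h4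
  rw [Complex.nonneg_iff]
  refine ⟨nonneg_of_mul_nonneg_right h4.1 h5, ?_⟩
  have := h4.2.symm
  rcases mul_eq_zero.1 this with h6 | h6
  · exact absurd h6 h5.ne'
  · exact h6.symm

/-- a real branch is real on one of the half lines `s > 0`, `s < 0` -/
theorem real_branch {k : ℕ} {h : ℂ → ℂ} {Q : ℂ → ℂ[X]} (H : IsBranch k h) (hQ : IsEqn k h Q)
    (hs : ∀ᶠ z in 𝓝 (0 : ℂ), st Q z = Q z) :
    ∃ η : ℂ, η ≠ 0 ∧ (η ^ k = 1 ∨ η ^ k = -1) ∧
      ∀ᶠ t : ℝ in 𝓝 0, (h (η * t)).im = 0 := by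
  classical
  have hQs := IsEqn.st H.pos hQ
  -- `h^*` is one of the `h (ζ t)`
  obtain ⟨ζ, hζ, hζe⟩ : ∃ ζ ∈ μ k, ∀ᶠ t in 𝓝 (0 : ℂ), rf h t - h (ζ * t) = 0 := by
    by_contra hcon
    have h1 : ∀ ζ ∈ μ k, ∀ᶠ t in 𝓝[≠] (0 : ℂ), rf h t - h (ζ * t) ≠ 0 := by
      intro ζ hζ
      have han : AnalyticAt ℂ (fun t => rf h t - h (ζ * t)) 0 :=
        (rf_an H.an).sub (analyticAt_comp_mul H.an ζ)
      rcases eventually_zero_or_ne han with h2 | h2
      · exact absurd ⟨ζ, hζ, h2⟩ hcon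
      · exact h2
    have h2 := ((μ k).eventually_all).2 h1
    have h3 : ∀ᶠ t in 𝓝[≠] (0 : ℂ), False := by
      filter_upwards [h2, nhdsWithin_le_nhds ((Puiseux.tendsto_pow H.pos).eventually hs),
        nhdsWithin_le_nhds hQs.eq, nhdsWithin_le_nhds hQ.eq] with t h4 h5 h6 h7
      rw [h6, h7] at h5
      have h8 := congrArg (fun g => g.eval (rf h t)) h5
      simp only [eval_prod, eval_sub, eval_X, eval_C] at h8
      have h9 : ∏ η ∈ μ k, (rf h t - rf h (η * t)) = 0 := by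
        apply Finset.prod_eq_zero (one_mem_μ H.pos)
        rw [one_mul, sub_self]
      rw [h9] at h8
      obtain ⟨ζ, hζ, h10⟩ := Finset.prod_eq_zero_iff.1 h8.symm
      exact h4 ζ hζ h10
    exact (h3.exists).elim fun _ h => h
  obtain ⟨η, hη⟩ : ∃ η : ℂ, η ^ 2 = ζ := IsAlgClosed.exists_pow_nat_eq ζ (by norm_num)
  have hζ1 : ζ ^ k = 1 := (mem_μ H.pos).1 hζ
  have hη2 : (η ^ k) ^ 2 = 1 := by rw [← pow_mul, mul_comm, pow_mul, hη, hζ1]
  have hηk : η ^ k = 1 ∨ η ^ k = -1 := sq_eq_sq_iff_eq_or_eq_neg.1 (by rw [hη2, one_pow])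
  have hηn : ‖η‖ = 1 := by
    have h1 : η ^ (k * 2) = 1 := by rw [pow_mul, hη2]
    exact Complex.norm_eq_one_of_pow_eq_one h1 (by have := H.pos; omega)
  have hη0 : η ≠ 0 := by
    rintro rfl
    rw [norm_zero] at hηn
    exact zero_ne_one hηn
  refine ⟨η, hη0, hηk, ?_⟩
  have h1 : ∀ᶠ t : ℝ in 𝓝 0, rf h ((starRingEnd ℂ) η * t) = h (ζ * ((starRingEnd ℂ) η * t)) := by
    have h2 : Tendsto (fun t : ℝ => (starRingEnd ℂ) η * (t : ℂ)) (𝓝 0) (𝓝 0) :=
      (tendsto_mul_zero _).comp tendsto_ofReal0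
    filter_upwards [h2.eventually hζe] with t ht
    exact sub_eq_zero.1 ht
  filter_upwards [h1] with t ht
  rw [rf, map_mul, Complex.conj_conj, Complex.conj_ofReal] at ht
  have h2 : ζ * ((starRingEnd ℂ) η * t) = η * t := by
    have h3 : η * (starRingEnd ℂ) η = 1 := by
      rw [Complex.mul_conj, Complex.normSq_eq_norm_sq, hηn]; simp
    rw [← hη]
    linear_combination (η * t) * h3
  rw [h2] at ht
  exact Complex.conj_eq_iff_im.1 ht

/-- a real branch occurs at least twice in a nonnegative family -/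
theorem real_branch_twice {k : ℕ} {h : ℂ → ℂ} {Q R P : ℂ → ℂ[X]} (H : IsBranch k h)
    (hQ : IsEqn k h Q) (hs : ∀ᶠ z in 𝓝 (0 : ℂ), st Q z = Q z)
    (hP : ∀ᶠ z in 𝓝 (0 : ℂ), P z = Q z * R z) (hN : Nn P)
    (hR : ∀ᶠ z in 𝓝[≠] (0 : ℂ), ∀ w, (Q z).eval w = 0 → (R z).eval w ≠ 0) : False := by
  classical
  obtain ⟨η, hη0, hηk, him⟩ := real_branch H hQ hs
  have t1 : Tendsto (fun t : ℝ => η * (t : ℂ)) (𝓝[≠] 0) (𝓝[≠] 0) :=
    (tendsto_mul_ne hη0).comp tendsto_ofReal_ne
  have t2 : Tendsto (fun t : ℝ => (η * (t : ℂ)) ^ k) (𝓝[≠] 0) (𝓝[≠] 0) :=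
    (tendsto_pow_ne H.pos).comp t1
  -- the real parameter
  have hreal : ∃ ε : ℝ, ε ≠ 0 ∧ ∀ t : ℝ, (η * (t : ℂ)) ^ k = ((ε * t ^ k : ℝ) : ℂ) := by
    rcases hηk with h1 | h1
    · exact ⟨1, one_ne_zero, fun t => by rw [mul_pow, h1]; push_cast; ring⟩
    · exact ⟨-1, by norm_num, fun t => by rw [mul_pow, h1]; push_cast; ring⟩
  obtain ⟨ε, hε, hεt⟩ := hreal
  have t3 : Tendsto (fun t : ℝ => ε * t ^ k) (𝓝[≠] 0) (𝓝[≠] 0) := by
    refine tendsto_nhdsWithin_iff.2 ⟨?_, ?_⟩
    · have hc : Continuous fun t : ℝ => ε * t ^ k := by fun_prop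
      have := hc.tendsto 0
      rw [zero_pow H.pos.ne', mul_zero] at this
      exact this.mono_left nhdsWithin_le_nhds
    · filter_upwards [self_mem_nhdsWithin] with t ht
      exact mul_ne_zero hε (pow_ne_zero _ ht)
  have hfalse : ∀ᶠ t : ℝ in 𝓝[≠] 0, False := by
    filter_upwards [t1.eventually H.injOn, t1.eventually (nhdsWithin_le_nhds hQ.eq),
      t2.eventually (nhdsWithin_le_nhds hP), t2.eventually hR, nhdsWithin_le_nhds him,
      t3.eventually hN] with t h1 h2 h3 h4 h5 h6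
    set z := (η * (t : ℂ)) ^ k with hz
    set u := h (η * t) with hu
    have hur : ((u.re : ℝ) : ℂ) = u := by
      apply Complex.ext <;> simp [h5]
    rw [← hεt t, ← hz] at h6
    have h7 : (Q z).eval u = 0 := by
      rw [h2, eval_prod]
      apply Finset.prod_eq_zero (one_mem_μ H.pos)
      rw [one_mul, eval_sub, eval_X, eval_C, hu, sub_self]
    have h8 := h4 u h7
    have h9 : (P z).eval u = 0 := by rw [h3, eval_mul, h7, zero_mul]
    have h10 := dvd_of_nonneg (cj_of_nonneg h6) (fun v => (Complex.nonneg_iff.1 (h6 v)).1) h9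
    have h11 : (starRingEnd ℂ) u = u := by rw [← hur, Complex.conj_ofReal]
    rw [h11, h3, h2, ← Finset.mul_prod_erase _ _ (one_mem_μ H.pos), one_mul, ← hu, mul_assoc] at h10
    have h12 := (mul_dvd_mul_iff_left (X_sub_C_ne_zero u)).1 h10
    have h13 := dvd_iff_isRoot.1 h12
    rw [IsRoot.def, eval_mul] at h13
    rcases mul_eq_zero.1 h13 with h14 | h14
    · rw [eval_prod, Finset.prod_eq_zero_iff] at h14
      obtain ⟨ξ, hξ, h15⟩ := h14
      rw [eval_sub, eval_X, eval_C, sub_eq_zero] at h15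
      have h16 := h1 (Finset.mem_of_mem_erase hξ) (one_mem_μ H.pos) (by
        simp only [one_mul]
        rw [← h15])
      exact Finset.ne_of_mem_erase hξ h16
    · exact h8 h14
  exact (hfalse.exists).elim fun _ h => h

theorem Nn.of_eq {P Q : ℂ → ℂ[X]} (h : Nn P) (hPQ : ∀ᶠ z in 𝓝 (0 : ℂ), P z = Q z) : Nn Q := by
  filter_upwards [h, tendsto_ofReal_ne.eventually (nhdsWithin_le_nhds hPQ)] with s h1 h2 u
  rw [← h2]; exact h1 u

/-- dividing by a norm -/
theorem Nn.of_mul {d : ℕ} {P Q R : ℂ → ℂ[X]} (hQ : MF d Q) (h : Nn P)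
    (hP : ∀ᶠ z in 𝓝 (0 : ℂ), P z = Q z * A2.st Q z * R z) : Nn R := by
  filter_upwards [h, tendsto_ofReal_ne.eventually (nhdsWithin_le_nhds hP)] with s h1 h2
  refine nonneg_of_mul (hQ.monic s).ne_zero fun u => ?_
  have := h1 u
  rw [h2, eval_mul, eval_mul, eval_st] at this
  exact this

/-- **Nonnegative families are norms.** -/
theorem norm_of_nonneg {ι : Type} (k : ι → ℕ) (h : ι → ℂ → ℂ) (Q : ι → ℂ → ℂ[X])
    (hb : ∀ i, IsBranch (k i) (h i)) (hq : ∀ i, IsEqn (k i) (h i) (Q i)) (S : Finset ι) :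
    Nn (fun z => ∏ i ∈ S, Q i z) →
      ∃ (m : ℕ) (W : ℂ → ℂ[X]), MF m W ∧ ∀ᶠ z in 𝓝 (0 : ℂ), ∏ i ∈ S, Q i z = W z * st W z := by
  classical
  induction S using Finset.strongInduction with
  | _ S ih =>
    intro hN
    rcases S.eq_empty_or_nonempty with rfl | ⟨i, hi⟩
    · refine ⟨0, fun _ => 1, MF.one, Filter.Eventually.of_forall fun z => ?_⟩
      rw [Finset.prod_empty, st, map_one, mul_one]
    · have hMF : MF (∑ i ∈ S, k i) fun z => ∏ i ∈ S, Q i z := by
        have : ∀ T : Finset ι, MF (∑ i ∈ T, k i) fun z => ∏ i ∈ T, Q i z := by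
          intro T
          induction T using Finset.induction_on with
          | empty => simpa using MF.one
          | insert a s ha ih =>
            simp only [Finset.prod_insert ha, Finset.sum_insert ha]
            exact MF.mul (hq a).mf ih
        exact this S
      -- the pair case
      have pair : ∀ j ∈ S, j ≠ i → (∀ᶠ z in 𝓝 (0 : ℂ), st (Q i) z = Q j z) →
          ∃ (m : ℕ) (W : ℂ → ℂ[X]), MF m W ∧
            ∀ᶠ z in 𝓝 (0 : ℂ), ∏ i ∈ S, Q i z = W z * st W z := by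
        intro j hj hji hst
        have hjS : j ∈ S.erase i := Finset.mem_erase.2 ⟨hji, hj⟩
        have h1 : ∀ᶠ z in 𝓝 (0 : ℂ), ∏ l ∈ S, Q l z =
            Q i z * st (Q i) z * ∏ l ∈ (S.erase i).erase j, Q l z := by
          filter_upwards [hst] with z hz
          rw [← Finset.mul_prod_erase _ _ hi, ← Finset.mul_prod_erase _ _ hjS, hz, mul_assoc]
        have h2 : Nn fun z => ∏ l ∈ (S.erase i).erase j, Q l z := Nn.of_mul (hq i).mf hN h1
        have h3 : (S.erase i).erase j ⊂ S :=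
          (Finset.erase_subset _ _).trans_ssubset (Finset.erase_ssubset hi)
        obtain ⟨m, W, hW, hWe⟩ := ih _ h3 h2
        refine ⟨k i + m, fun z => Q i z * W z, MF.mul (hq i).mf hW, ?_⟩
        filter_upwards [h1, hWe] with z h4 h5
        rw [h4, h5, st_mul]; ring
      -- the conjugate branch occurs
      obtain ⟨j, hj, hje⟩ : ∃ j ∈ S, ∀ᶠ z in 𝓝 (0 : ℂ), st (Q i) z = Q j z := by
        by_contra hcon
        have hbs := IsBranch.rf (hb i)
        have hqs := IsEqn.st (hb i).pos (hq i)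
        have h1 : ∀ j ∈ S, ∀ᶠ z in 𝓝[≠] (0 : ℂ), ∀ w, (st (Q i) z).eval w = 0 →
            (Q j z).eval w ≠ 0 := by
          intro j hj
          rcases eqn_dichotomy hbs (hb j) hqs (hq j) with h2 | h2
          · exact absurd ⟨j, hj, h2.2⟩ hcon
          · exact h2
        have h2 := (S.eventually_all).2 h1
        have h3 := Nn.st hMF hN
        have h4 : ∀ᶠ z in 𝓝[≠] (0 : ℂ), False := by
          filter_upwards [h2, nhdsWithin_le_nhds h3] with z h5 h6
          have h7 : 0 < (st (Q i) z).natDegree := by rw [hqs.mf.deg]; exact (hb i).pos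
          obtain ⟨w, hw⟩ := Complex.exists_root (natDegree_pos_iff_degree_pos.1 h7)
          have h8 : (st (fun z => ∏ l ∈ S, Q l z) z).eval w = (∏ l ∈ S, Q l z).eval w := by
            rw [h6]
          rw [st_prod, ← Finset.mul_prod_erase _ _ hi, eval_mul, hw.eq_zero, zero_mul,
            eval_prod] at h8
          obtain ⟨j, hj, h9⟩ := Finset.prod_eq_zero_iff.1 h8.symm
          exact h5 j hj w hw h9
        exact (h4.exists).elim fun _ h => h
      by_cases hji : j = i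
      · subst hji
        by_cases hex : ∃ l ∈ S, l ≠ j ∧ ∀ᶠ z in 𝓝 (0 : ℂ), Q j z = Q l z
        · obtain ⟨l, hl, hlj, hle⟩ := hex
          refine pair l hl hlj ?_
          filter_upwards [hje, hle] with z h1 h2
          rw [h1, h2]
        · exfalso
          refine real_branch_twice (R := fun z => ∏ l ∈ S.erase j, Q l z) (hb j) (hq j) hje
            (P := fun z => ∏ l ∈ S, Q l z) ?_ hN ?_
          · exact Filter.Eventually.of_forall fun z => (Finset.mul_prod_erase _ _ hi).symm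
          · have h1 : ∀ l ∈ S.erase j, ∀ᶠ z in 𝓝[≠] (0 : ℂ), ∀ w, (Q j z).eval w = 0 →
                (Q l z).eval w ≠ 0 := by
              intro l hl
              rcases eqn_dichotomy (hb j) (hb l) (hq j) (hq l) with h2 | h2
              · exact absurd ⟨l, Finset.mem_of_mem_erase hl, Finset.ne_of_mem_erase hl, h2.2⟩ hex
              · exact h2
            filter_upwards [((S.erase j).eventually_all).2 h1] with z hz w hw
            rw [eval_prod]
            exact Finset.prod_ne_zero_iff.2 fun l hl => hz l hl w hw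
      · exact pair j hj hji hje

/-- **Nonnegative monic polynomials over analytic germs are norms.** -/
theorem exists_norm {d : ℕ} {P : ℂ → ℂ[X]} (hP : MF d P) (hN : Nn P) :
    ∃ (m : ℕ) (W : ℂ → ℂ[X]), MF m W ∧ ∀ᶠ z in 𝓝 (0 : ℂ), P z = W z * st W z := by
  obtain ⟨n, k, h, Q, hb, hq, he⟩ := exists_factorization d P hP
  obtain ⟨m, W, hW, hWe⟩ := norm_of_nonneg k h Q hb hq Finset.univ (hN.of_eq he)
  refine ⟨m, W, hW, ?_⟩
  filter_upwards [he, hWe] with z h1 h2
  rw [h1, h2]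

end Vale.Agent.P256.H909.A2
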