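import Vale.Agent.P256.H909.M

/-! The affine Hermitian Helton–Vinnikov theorem for generically squarefree real rooted
families. -/

set_option linter.all false

namespace Vale.Agent.P256.H909

open Polynomial Matrix Filter Topology
open scoped ComplexOrder

/-- closedness: it is enough to test positive semidefiniteness outside a finite set -/
theorem psd_of_finset {n : Type*} [Fintype n] [DecidableEq n] {B : Matrix n n ℂ[X]}
    (hs : sm B = B) (s : Finset ℂ)
    (h : ∀ u : ℝ, (u : ℂ) ∉ s → (ev u B).PosSemidef) : Psd B := by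
  intro u
  have hH : (ev u B).IsHermitian := by
    rw [Matrix.IsHermitian, ← ev_sm, hs]
  refine Matrix.PosSemidef.of_dotProduct_mulVec_nonneg hH fun x => ?_
  set φ : ℝ → ℂ := fun t => star x ⬝ᵥ ev t B *ᵥ x with hφ
  have hc : Continuous φ := by
    have : φ = fun t : ℝ => ∑ i, star x i * ∑ j, (B i j).eval (t : ℂ) * x j := by
      funext t
      simp [hφ, dotProduct, Matrix.mulVec]
    rw [this]
    refine continuous_finset_sum _ fun i _ => continuous_const.mul
      (continuous_finset_sum _ fun j _ => Continuous.mul ?_ continuous_const)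
    exact (Polynomial.continuous _).comp Complex.continuous_ofReal
  have hfin : {t : ℝ | (t : ℂ) ∈ s}.Finite :=
    (s.finite_toSet).preimage (Complex.ofReal_injective.injOn)
  have hne : ∀ᶠ t in 𝓝[>] u, 0 ≤ φ t := by
    have h1 : ∀ᶠ t in 𝓝[≠] u, t ∉ ({t : ℝ | (t : ℂ) ∈ s} \ {u}) := by
      have h2 : IsClosed ({t : ℝ | (t : ℂ) ∈ s} \ {u}) := (hfin.subset Set.diff_subset).isClosed
      exact nhdsWithin_le_nhds (h2.isOpen_compl.mem_nhds (by simp))
    have h2 : ∀ᶠ t in 𝓝[>] u, t ∉ ({t : ℝ | (t : ℂ) ∈ s} \ {u}) :=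
      h1.filter_mono (nhdsWithin_mono _ fun t ht => ne_of_gt ht)
    filter_upwards [h2, self_mem_nhdsWithin] with t ht ht2
    refine (h t fun h3 => ht ⟨h3, ?_⟩).dotProduct_mulVec_nonneg x
    exact ne_of_gt ht2
  exact ge_of_tendsto (hc.continuousWithinAt (s := Set.Ioi u)) hne

variable {d : ℕ}

/-- companion matrix -/
noncomputable def cmp (c : Fin d → ℂ[X]) : Matrix (Fin d) (Fin d) ℂ[X] :=
  Matrix.of fun i j => if (j : ℕ) + 1 = d then - c i else if (i : ℕ) = j + 1 then 1 else 0

theorem cmp_apply (c : Fin d → ℂ[X]) (i j : Fin d) :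
    cmp c i j = if (j : ℕ) + 1 = d then - c i else if (i : ℕ) = j + 1 then 1 else 0 := rfl

/-- weighted degree -/
def Wt (k : ℕ) (M : Matrix (Fin d) (Fin d) ℂ[X]) : Prop :=
  ∀ (i j : Fin d) (N : ℕ), (j : ℕ) + k < N + i → (M i j).coeff N = 0

theorem Wt.mul {k l : ℕ} {M M' : Matrix (Fin d) (Fin d) ℂ[X]} (h : Wt k M) (h' : Wt l M') :
    Wt (k + l) (M * M') := by
  intro i j N hN
  rw [Matrix.mul_apply, finset_sum_coeff]
  refine Finset.sum_eq_zero fun a _ => ?_
  rw [coeff_mul]
  refine Finset.sum_eq_zero fun x hx => ?_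
  rw [Finset.mem_antidiagonal] at hx
  by_cases h1 : (a : ℕ) + k < x.1 + i
  · rw [h i a x.1 h1, zero_mul]
  · rw [h' a j x.2 (by omega), mul_zero]

theorem Wt.one : Wt 0 (1 : Matrix (Fin d) (Fin d) ℂ[X]) := by
  intro i j N hN
  rw [Matrix.one_apply]
  split_ifs with h
  · subst h
    rw [coeff_one, if_neg (by omega)]
  · exact coeff_zero _

theorem Wt.pow {M : Matrix (Fin d) (Fin d) ℂ[X]} (h : Wt 1 M) (k : ℕ) : Wt k (M ^ k) := by
  induction k with
  | zero => rw [pow_zero]; exact Wt.one
  | succ k ih => rw [pow_succ]; exact ih.mul h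

theorem Wt.trace {k : ℕ} {M : Matrix (Fin d) (Fin d) ℂ[X]} (h : Wt k M) :
    M.trace.natDegree ≤ k := by
  rw [natDegree_le_iff_coeff_eq_zero]
  intro N hN
  rw [Matrix.trace, finset_sum_coeff]
  refine Finset.sum_eq_zero fun i _ => h i i N (by omega)

theorem wt_cmp {c : Fin d → ℂ[X]} (hdeg : ∀ i, (c i).natDegree ≤ d - i) : Wt 1 (cmp c) := by
  intro i j N hN
  rw [cmp_apply]
  have := hdeg i
  split_ifs with h1 h2
  · rw [coeff_neg, coeff_eq_zero_of_natDegree_lt (by omega), neg_zero]
  · rw [coeff_one, if_neg (by omega)]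
  · exact coeff_zero _

/-- the trace (Hermite) matrix -/
noncomputable def hm (c : Fin d → ℂ[X]) : Matrix (Fin d) (Fin d) ℂ[X] :=
  Matrix.of fun i j => (cmp c ^ ((i : ℕ) + j)).trace

theorem hm_apply (c : Fin d → ℂ[X]) (i j : Fin d) :
    hm c i j = (cmp c ^ ((i : ℕ) + j)).trace := rfl

theorem cmp_map_cj {c : Fin d → ℂ[X]} (hc : ∀ i, cj (c i) = c i) : (cmp c).map cj = cmp c := by
  refine Matrix.ext fun i j => ?_
  rw [Matrix.map_apply, cmp_apply]
  split_ifs
  · rw [map_neg, hc]
  · rw [map_one]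
  · rw [map_zero]

theorem cj_trace_pow {c : Fin d → ℂ[X]} (hc : ∀ i, cj (c i) = c i) (k : ℕ) :
    cj ((cmp c ^ k).trace) = (cmp c ^ k).trace := by
  have h1 : (cmp c ^ k).map cj = cmp c ^ k := by
    have := map_pow (RingHom.mapMatrix (m := Fin d) cj) (cmp c) k
    rw [RingHom.mapMatrix_apply, RingHom.mapMatrix_apply, cmp_map_cj hc] at this
    exact this
  conv_rhs => rw [← h1]
  rw [Matrix.trace, Matrix.trace, map_sum]
  rfl

theorem sm_hm {c : Fin d → ℂ[X]} (hc : ∀ i, cj (c i) = c i) : sm (hm c) = hm c := by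
  refine Matrix.ext fun i j => ?_
  rw [sm_apply, hm_apply, hm_apply, cj_trace_pow hc, add_comm]

theorem ev_pow (u : ℂ) (A : Matrix (Fin d) (Fin d) ℂ[X]) (k : ℕ) :
    ev u (A ^ k) = ev u A ^ k := by
  induction k with
  | zero => rw [pow_zero, pow_zero, ev_one]
  | succ k ih => rw [pow_succ, pow_succ, ev_mul, ih]

theorem ev_trace (u : ℂ) (A : Matrix (Fin d) (Fin d) ℂ[X]) :
    A.trace.eval u = (ev u A).trace := by
  rw [Matrix.trace, Matrix.trace, Polynomial.eval_finset_sum]
  rfl

/-- the roots at `u` are `r` -/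
def Roots (c : Fin d → ℂ[X]) (u : ℂ) (r : Fin d → ℂ) : Prop :=
  ∀ a, r a ^ d + ∑ i, (c i).eval u * r a ^ (i : ℕ) = 0

theorem vand_cmp {c : Fin d → ℂ[X]} {u : ℂ} {r : Fin d → ℂ} (hr : Roots c u r) :
    Matrix.vandermonde r * ev u (cmp c) = Matrix.diagonal r * Matrix.vandermonde r := by
  refine Matrix.ext fun a j => ?_
  rw [Matrix.mul_apply, Matrix.diagonal_mul, Matrix.vandermonde_apply]
  have hd := j.2
  by_cases h1 : (j : ℕ) + 1 = d
  · have h2 : ∀ i, Matrix.vandermonde r a i * ev u (cmp c) i j =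
        - ((c i).eval u * r a ^ (i : ℕ)) := by
      intro i
      rw [ev_apply, cmp_apply, if_pos h1, Matrix.vandermonde_apply, eval_neg]; ring
    simp only [h2]
    rw [Finset.sum_neg_distrib, ← pow_succ', h1]
    linear_combination - hr a
  · rw [Finset.sum_eq_single (⟨j + 1, by omega⟩ : Fin d)]
    · rw [ev_apply, cmp_apply, if_neg h1, if_pos rfl, Matrix.vandermonde_apply, eval_one, mul_one,
        ← pow_succ']
    · intro i _ hi
      rw [ev_apply, cmp_apply, if_neg h1, if_neg, eval_zero, mul_zero]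
      intro h
      apply hi
      exact Fin.ext h
    · intro h; exact absurd (Finset.mem_univ _) h

theorem vand_pow {c : Fin d → ℂ[X]} {u : ℂ} {r : Fin d → ℂ} (hr : Roots c u r) (k : ℕ) :
    Matrix.vandermonde r * ev u (cmp c) ^ k =
      Matrix.diagonal (fun a => r a ^ k) * Matrix.vandermonde r := by
  have h1 : SemiconjBy (Matrix.vandermonde r) (ev u (cmp c)) (Matrix.diagonal r) := vand_cmp hr
  have h2 := h1.pow_right k
  rw [Matrix.diagonal_pow] at h2
  exact h2

theorem trace_pow_of_roots {c : Fin d → ℂ[X]} {u : ℂ} {r : Fin d → ℂ} (hr : Roots c u r)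
    (hi : Function.Injective r) (k : ℕ) :
    ((cmp c ^ k).trace).eval u = ∑ a, r a ^ k := by
  have hdet : IsUnit (Matrix.vandermonde r).det :=
    isUnit_iff_ne_zero.2 (Matrix.det_vandermonde_ne_zero_iff.2 hi)
  have h1 := vand_pow hr k
  have h2 : ev u (cmp c) ^ k =
      (Matrix.vandermonde r)⁻¹ * (Matrix.diagonal (fun a => r a ^ k) * Matrix.vandermonde r) := by
    rw [← h1, ← Matrix.mul_assoc, Matrix.nonsing_inv_mul _ hdet, Matrix.one_mul]
  rw [ev_trace, ev_pow, h2, Matrix.trace_mul_comm, Matrix.mul_assoc,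
    Matrix.mul_nonsing_inv _ hdet, Matrix.mul_one, Matrix.trace_diagonal]

theorem det_of_roots {c : Fin d → ℂ[X]} {u : ℂ} {r : Fin d → ℂ} (hr : Roots c u r)
    (hi : Function.Injective r) (t : ℂ) :
    (t • (1 : Matrix (Fin d) (Fin d) ℂ) - ev u (cmp c)).det =
      t ^ d + ∑ i, (c i).eval u * t ^ (i : ℕ) := by
  have hdet : (Matrix.vandermonde r).det ≠ 0 := Matrix.det_vandermonde_ne_zero_iff.2 hi
  have h1 : Matrix.vandermonde r * (t • (1 : Matrix (Fin d) (Fin d) ℂ) - ev u (cmp c)) =
      Matrix.diagonal (fun a => t - r a) * Matrix.vandermonde r := by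
    rw [Matrix.mul_sub, vand_cmp hr, Matrix.mul_smul, Matrix.mul_one]
    refine Matrix.ext fun i j => ?_
    rw [Matrix.sub_apply, Matrix.smul_apply, Matrix.diagonal_mul, Matrix.diagonal_mul,
      smul_eq_mul, sub_mul]
  have h2 := congrArg Matrix.det h1
  rw [Matrix.det_mul, Matrix.det_mul, Matrix.det_diagonal, mul_comm] at h2
  rw [mul_right_cancel₀ hdet h2]
  -- two monic polynomials with the same roots
  set F : ℂ[X] := X ^ d + ∑ i : Fin d, C ((c i).eval u) * X ^ (i : ℕ) with hF
  set G : ℂ[X] := ∏ a, (X - C (r a)) with hG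
  have hFm : F.Monic := monic_X_pow_add (degree_sum_fin_lt _)
  have hGm : G.Monic := monic_prod_of_monic _ _ fun a _ => monic_X_sub_C _
  have hFd : F.degree = d := by
    rw [hF, degree_add_eq_left_of_degree_lt (by rw [degree_X_pow]; exact degree_sum_fin_lt _),
      degree_X_pow]
  have hGd : G.degree = d := by
    rw [hG, degree_prod]
    simp
  have hFG : F = G := by
    refine Polynomial.eq_of_degree_sub_lt_of_eval_index_eq (s := Finset.univ) (v := r)
      hi.injOn ?_ ?_
    · rw [Finset.card_univ, Fintype.card_fin, ← hFd]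
      refine degree_sub_lt (by rw [hFd, hGd]) hFm.ne_zero ?_
      rw [hFm.leadingCoeff, hGm.leadingCoeff]
    · intro a _
      rw [hF, hG, eval_add, eval_pow, eval_X, Polynomial.eval_finset_sum, Polynomial.eval_prod]
      have h3 : ∀ i : Fin d, eval (r a) (C (eval u (c i)) * X ^ (i : ℕ)) =
          (c i).eval u * r a ^ (i : ℕ) := by
        intro i; simp
      simp only [h3]
      rw [hr a]
      symm
      apply Finset.prod_eq_zero (Finset.mem_univ a)
      simp
  have h4 := congrArg (fun g => g.eval t) hFG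
  rw [hF, hG] at h4
  simp only [eval_add, eval_pow, eval_X, Polynomial.eval_finset_sum, Polynomial.eval_prod,
    eval_mul, eval_C, eval_sub] at h4
  exact h4.symm

/-- **Affine Hermitian Helton–Vinnikov theorem.** -/
theorem hhv_affine (c : Fin d → ℂ[X]) (hc : ∀ i, cj (c i) = c i)
    (hdeg : ∀ i, (c i).natDegree ≤ d - i) (s : Finset ℂ)
    (hgood : ∀ u : ℝ, (u : ℂ) ∉ s → ∃ r : Fin d → ℝ, Function.Injective r ∧
      Roots c u (fun a => (r a : ℂ))) :
    ∃ A G : Matrix (Fin d) (Fin d) ℂ, A.IsHermitian ∧ G.IsHermitian ∧ ∀ t u : ℂ,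
      (t • (1 : Matrix (Fin d) (Fin d) ℂ) - A - u • G).det =
        t ^ d + ∑ i, (c i).eval u * t ^ (i : ℕ) := by
  have hev : ∀ u : ℝ, (u : ℂ) ∉ s → ∃ r : Fin d → ℝ, Function.Injective r ∧
      Roots c u (fun a => (r a : ℂ)) ∧
      ev u (hm c) = (Matrix.vandermonde fun a => (r a : ℂ))ᴴ *
        (Matrix.vandermonde fun a => (r a : ℂ)) := by
    intro u hu
    obtain ⟨r, hr1, hr2⟩ := hgood u hu
    refine ⟨r, hr1, hr2, ?_⟩
    have hinj : Function.Injective (fun a => (r a : ℂ)) := Complex.ofReal_injective.comp hr1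
    refine Matrix.ext fun i j => ?_
    rw [ev_apply, hm_apply, trace_pow_of_roots hr2 hinj, Matrix.mul_apply]
    refine Finset.sum_congr rfl fun a _ => ?_
    rw [Matrix.conjTranspose_apply, Matrix.vandermonde_apply, Matrix.vandermonde_apply, pow_add,
      star_pow]
    congr 2
    exact (Complex.conj_ofReal _).symm
  have hPsd : Psd (hm c) := by
    refine psd_of_finset (sm_hm hc) s fun u hu => ?_
    obtain ⟨r, _, _, h⟩ := hev u hu
    rw [h]
    exact Matrix.posSemidef_conjTranspose_mul_self _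
  have hdet : (hm c).det ≠ 0 := by
    obtain ⟨u, hu⟩ : ∃ u : ℝ, (u : ℂ) ∉ s := by
      by_contra hcon
      push Not at hcon
      have h1 : (Set.range (fun u : ℝ => (u : ℂ))).Infinite :=
        Set.infinite_range_of_injective Complex.ofReal_injective
      apply h1
      refine s.finite_toSet.subset ?_
      rintro _ ⟨u, rfl⟩
      exact hcon u
    obtain ⟨r, hr1, _, h⟩ := hev u hu
    intro h0
    have h1 := det_ev (u : ℂ) (hm c)
    rw [h0, eval_zero, h, Matrix.det_mul, Matrix.det_conjTranspose] at h1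
    have h2 : (Matrix.vandermonde fun a => (r a : ℂ)).det ≠ 0 :=
      Matrix.det_vandermonde_ne_zero_iff.2 (Complex.ofReal_injective.comp hr1)
    rcases mul_eq_zero.1 h1 with h3 | h3
    · exact h2 (star_eq_zero.1 h3)
    · exact h2 h3
  have hT : Typed (fun i : Fin d => (i : ℕ)) (hm c) := fun i j => ((wt_cmp hdeg).pow _).trace
  have hHC : hm c * cmp c = sm (cmp c) * hm c := by
    refine Matrix.ext fun i j => ?_
    refine eq_of_eval_real (s := s) fun u hu => ?_
    obtain ⟨r, hr1, hr2, h⟩ := hev u hu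
    have h1 : ev u (hm c * cmp c) = ev u (sm (cmp c) * hm c) := by
      rw [ev_mul, ev_mul, ev_sm, h, Matrix.mul_assoc, vand_cmp hr2, ← Matrix.mul_assoc,
        ← Matrix.mul_assoc, ← Matrix.conjTranspose_mul, vand_cmp hr2,
        Matrix.conjTranspose_mul, Matrix.diagonal_conjTranspose]
      congr 3
      funext a
      exact (Complex.conj_ofReal _).symm
    exact congrFun (congrFun h1 i) j
  have htr : (cmp c * cmp c).trace.natDegree ≤ 2 := by
    have := ((wt_cmp hdeg).pow 2).trace
    rwa [pow_two] at this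
  obtain ⟨Q, M, hQ, hQ0, hQM, hM, hM1⟩ := exists_pencil hPsd hdet hT hHC htr
  refine ⟨Matrix.of fun i j => (M i j).coeff 0, Matrix.of fun i j => (M i j).coeff 1, ?_, ?_, ?_⟩
  · refine Matrix.ext fun i j => ?_
    rw [Matrix.conjTranspose_apply, Matrix.of_apply, Matrix.of_apply]
    have := congrFun (congrFun hM i) j
    rw [sm_apply] at this
    rw [← this, cj_coeff]; rfl
  · refine Matrix.ext fun i j => ?_
    rw [Matrix.conjTranspose_apply, Matrix.of_apply, Matrix.of_apply]
    have := congrFun (congrFun hM i) j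
    rw [sm_apply] at this
    rw [← this, cj_coeff]; rfl
  · intro t u
    have h1 : ev u (C t • (1 : Matrix (Fin d) (Fin d) ℂ[X]) - M) =
        t • (1 : Matrix (Fin d) (Fin d) ℂ) - (Matrix.of fun i j => (M i j).coeff 0) -
          u • (Matrix.of fun i j => (M i j).coeff 1) := by
      refine Matrix.ext fun i j => ?_
      rw [ev_apply, Matrix.sub_apply, Matrix.sub_apply, Matrix.sub_apply, Matrix.smul_apply,
        Matrix.smul_apply, Matrix.smul_apply, Matrix.of_apply, Matrix.of_apply,
        Matrix.one_apply, Matrix.one_apply]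
      conv_lhs => rw [eq_X_add_C_of_natDegree_le_one (hM1 i j)]
      split_ifs
      · simp; ring
      · simp; ring
    rw [← h1, det_ev]
    have h2 : (C t • (1 : Matrix (Fin d) (Fin d) ℂ[X]) - M).det =
        (C t • (1 : Matrix (Fin d) (Fin d) ℂ[X]) - cmp c).det := by
      have h3 : Q * (C t • (1 : Matrix (Fin d) (Fin d) ℂ[X]) - cmp c) =
          (C t • (1 : Matrix (Fin d) (Fin d) ℂ[X]) - M) * Q := by
        rw [Matrix.mul_sub, Matrix.sub_mul, hQM, Matrix.mul_smul, Matrix.smul_mul,
          Matrix.mul_one, Matrix.one_mul]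
      have h4 := congrArg Matrix.det h3
      rw [Matrix.det_mul, Matrix.det_mul, mul_comm] at h4
      exact (mul_right_cancel₀ hQ0 h4).symm
    rw [h2]
    have h5 : (C t • (1 : Matrix (Fin d) (Fin d) ℂ[X]) - cmp c).det =
        C t ^ d + ∑ i, c i * C t ^ (i : ℕ) := by
      refine eq_of_eval_real (s := s) fun u hu => ?_
      obtain ⟨r, hr1, hr2⟩ := hgood u hu
      have h6 := det_of_roots hr2 (Complex.ofReal_injective.comp hr1) t
      have h7 : ev (u : ℂ) (C t • (1 : Matrix (Fin d) (Fin d) ℂ[X]) - cmp c) =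
          t • (1 : Matrix (Fin d) (Fin d) ℂ) - ev (u : ℂ) (cmp c) := by
        refine Matrix.ext fun i j => ?_
        rw [ev_apply, Matrix.sub_apply, Matrix.sub_apply, Matrix.smul_apply,
          Matrix.smul_apply, Matrix.one_apply, Matrix.one_apply, ev_apply]
        split_ifs <;> simp
      rw [← det_ev, h7, h6, eval_add, eval_pow, eval_C, Polynomial.eval_finset_sum]
      congr 1
      refine Finset.sum_congr rfl fun i _ => ?_
      simp
    rw [h5, eval_add, eval_pow, eval_C, Polynomial.eval_finset_sum]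
    congr 1
    refine Finset.sum_congr rfl fun i _ => ?_
    simp

end Vale.Agent.P256.H909
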