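import Vale.Agent.P256.H909.Cmp
import Vale.Agent.P256.H909.Tern
import Vale.Agent.P256.H230.Dict
import Vale.Agent.P256.H230.Fam

/-! The Hermite matrix of a hyperbolic polynomial over the field of germs in one parameter. -/

set_option linter.all false

namespace Vale.Agent.P256.H909

open Polynomial Matrix Filter Topology Vale.Agent.P256.H230
open scoped ComplexOrder

section deg

variable {A : Type*} [CommRing A] {n : ℕ}

/-- total degree at most `k` -/
def W3 (k : ℕ) (F : A[X][X]) : Prop := ∀ i N : ℕ, k < N + i → (F.coeff i).coeff N = 0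

theorem W3.mul {k l : ℕ} {F G : A[X][X]} (hF : W3 k F) (hG : W3 l G) : W3 (k + l) (F * G) := by
  intro i N hN
  rw [coeff_mul, finsetSum_coeff]
  refine Finset.sum_eq_zero fun x hx => ?_
  rw [coeff_mul]
  refine Finset.sum_eq_zero fun y hy => ?_
  rw [Finset.HasAntidiagonal.mem_antidiagonal] at hx hy
  by_cases h1 : k < y.1 + x.1
  · rw [hF _ _ h1, zero_mul]
  · rw [hG _ _ (by omega : l < y.2 + x.2), mul_zero]

theorem W3.one : W3 0 (1 : A[X][X]) := by
  intro i N hN
  rw [coeff_one]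
  split_ifs with h
  · rw [coeff_one, if_neg (by omega)]
  · exact coeff_zero _

theorem W3.pow {k : ℕ} {F : A[X][X]} (hF : W3 k F) (m : ℕ) : W3 (k * m) (F ^ m) := by
  induction m with
  | zero => rw [pow_zero, mul_zero]; exact W3.one
  | succ m ih => rw [pow_succ, mul_add, mul_one]; exact ih.mul hF

theorem W3.prod {ι : Type*} (s : Finset ι) (F : ι → A[X][X]) (k : ι → ℕ)
    (h : ∀ i ∈ s, W3 (k i) (F i)) : W3 (∑ i ∈ s, k i) (∏ i ∈ s, F i) := by
  classical
  induction s using Finset.induction_on with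
  | empty => rw [Finset.sum_empty, Finset.prod_empty]; exact W3.one
  | insert a s ha ih =>
    rw [Finset.prod_insert ha, Finset.sum_insert ha]
    exact (h a (Finset.mem_insert_self _ _)).mul (ih fun i hi => h i (Finset.mem_insert_of_mem hi))

theorem W3.sum {ι : Type*} (s : Finset ι) (F : ι → A[X][X]) (k : ℕ)
    (h : ∀ i ∈ s, W3 k (F i)) : W3 k (∑ i ∈ s, F i) := by
  intro i N hN
  rw [finsetSum_coeff, finsetSum_coeff]
  exact Finset.sum_eq_zero fun x hx => h x hx i N hN

theorem natDegree_gline_coeff [Algebra ℝ A] {p : MvPolynomial (Fin n) ℝ} {d : ℕ}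
    (hp : p.IsHomogeneous d) (a b e : Fin n → A) (j : ℕ) :
    ((gline p (fun i => (C (a i) + X * C (b i) : A[X])) (fun i => (C (e i) : A[X]))).coeff
      j).natDegree ≤ d - j := by
  have hlin : ∀ i, W3 1 (C (C (a i) + X * C (b i)) + X * C (C (e i)) : A[X][X]) := by
    intro i l N hN
    rw [coeff_add, mul_comm X (C (C (e i))), coeff_C_mul, coeff_X, coeff_C, coeff_add]
    split_ifs with h1 h2 h2
    · omega
    · simp only [mul_zero, coeff_zero, add_zero]
      rw [coeff_add, coeff_C, mul_comm X, coeff_C_mul, coeff_X, if_neg (by omega),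
        if_neg (by omega)]
      simp
    · simp only [mul_one, coeff_zero, zero_add]
      rw [coeff_C, if_neg (by omega)]
    · simp
  have hW : W3 d (gline p (fun i => (C (a i) + X * C (b i) : A[X]))
      (fun i => (C (e i) : A[X]))) := by
    unfold gline
    rw [MvPolynomial.aeval_def, MvPolynomial.eval₂_eq']
    apply W3.sum
    intro m hm
    have hdeg : ∑ i, m i = d := by
      have := hp (MvPolynomial.mem_support_iff.1 hm)
      rw [← this, Finsupp.weight_apply, Finsupp.sum_fintype]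
      · simp only [Pi.one_apply, smul_eq_mul, mul_one]
      · simp
    have h1 := W3.prod Finset.univ
      (fun i => (C (C (a i) + X * C (b i)) + X * C (C (e i)) : A[X][X]) ^ m i) (fun i => m i)
      (fun i _ => by
        have := (hlin i).pow (m i)
        rwa [one_mul] at this)
    rw [hdeg] at h1
    have h2 : W3 0 (algebraMap ℝ A[X][X] (MvPolynomial.coeff m p)) := by
      intro i N hN
      rw [Polynomial.algebraMap_apply, Polynomial.algebraMap_apply, coeff_C]
      split_ifs with h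
      · rw [coeff_C, if_neg (by omega)]
      · exact coeff_zero _
    have h3 := h2.mul h1
    rwa [zero_add] at h3
  rw [natDegree_le_iff_coeff_eq_zero]
  intro N hN
  exact hW j N (by omega)

end deg

variable {n : ℕ}

/-- the coefficients of `t ↦ p (t e + f + u (k + s g)) / p e` as polynomials in `s` (inner
variable) and `u` (outer variable) -/
noncomputable def cf (p : MvPolynomial (Fin n) ℝ) (e f g k : Fin n → ℝ) (j : ℕ) : ℝ[X][X] :=
  C (C (MvPolynomial.eval e p)⁻¹) * (gline p
    (fun i => (C (C (f i)) + X * C (C (k i) + X * C (g i)) : ℝ[X][X]))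
    (fun i => (C (C (e i)) : ℝ[X][X]))).coeff j

theorem natDegree_cf {p : MvPolynomial (Fin n) ℝ} {d : ℕ} (hp : p.IsHomogeneous d)
    (e f g k : Fin n → ℝ) (j : ℕ) : (cf p e f g k j).natDegree ≤ d - j :=
  (natDegree_C_mul_le _ _).trans (natDegree_gline_coeff hp (fun i => C (f i))
    (fun i => C (k i) + X * C (g i)) (fun i => C (e i)) j)

/-- evaluation at a real point `(s, u)` -/
noncomputable def ev2 (s u : ℝ) : ℝ[X][X] →ₐ[ℝ] ℝ :=
  (Polynomial.aeval u : ℝ[X] →ₐ[ℝ] ℝ).comp
    (Polynomial.mapAlgHom (Polynomial.aeval s : ℝ[X] →ₐ[ℝ] ℝ))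

theorem ev2_C (s u : ℝ) (q : ℝ[X]) : ev2 s u (C q) = q.eval s := by
  simp [ev2, Polynomial.coe_aeval_eq_eval]

theorem ev2_X (s u : ℝ) : ev2 s u X = u := by
  simp [ev2]

theorem ev2_cf (p : MvPolynomial (Fin n) ℝ) (e f g k : Fin n → ℝ) (j : ℕ) (s u : ℝ) :
    ev2 s u (cf p e f g k j) =
      (MvPolynomial.eval e p)⁻¹ * (line p (f + u • (k + s • g)) e).coeff j := by
  have h := map_gline (ev2 s u) p
    (fun i => (C (C (f i)) + X * C (C (k i) + X * C (g i)) : ℝ[X][X]))
    (fun i => (C (C (e i)) : ℝ[X][X]))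
  have h2 := congrArg (fun f => Polynomial.coeff f j) h
  simp only [Polynomial.coeff_map] at h2
  have h3 : (fun i => (ev2 s u) (C (C (f i)) + X * C (C (k i) + X * C (g i)) : ℝ[X][X])) =
      f + u • (k + s • g) := by
    funext i
    rw [map_add, map_mul, ev2_C, ev2_C, ev2_X]
    simp only [eval_add, eval_mul, eval_C, eval_X, Pi.add_apply, Pi.smul_apply, smul_eq_mul]
  have h4 : (fun i => (ev2 s u) (C (C (e i)) : ℝ[X][X])) = e := by
    funext i
    rw [ev2_C, eval_C]
  rw [h3, h4] at h2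
  rw [cf, map_mul, ev2_C, eval_C]
  congr 1

/-- the roots at a real point -/
theorem exists_roots {p : MvPolynomial (Fin n) ℝ} {e : Fin n → ℝ} (hp : IsHyperbolic p e) {d : ℕ}
    (hd : p.IsHomogeneous d) (x : Fin n → ℝ) :
    ∃ r : Fin d → ℝ, line p x e = C (MvPolynomial.eval e p) * ∏ a, (X - C (r a)) := by
  obtain ⟨h1, h2⟩ := line_leading hd x e hp.2.1.ne'
  have hs := hp.splits x
  have h3 := hs.eq_prod_roots
  have hcard : (line p x e).roots.card = d := by
    rw [← h1]; exact hs.natDegree_eq_card_roots.symm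
  obtain ⟨l, hl⟩ := Quot.exists_rep (line p x e).roots
  have hl' : (l : Multiset ℝ) = (line p x e).roots := hl
  have hlen : l.length = d := by rw [← hcard, ← hl', Multiset.coe_card]
  subst hlen
  refine ⟨fun i => l.get i, ?_⟩
  rw [h2] at h3
  rw [← hl', Multiset.map_coe, Multiset.prod_coe] at h3
  conv_lhs => rw [h3]
  congr 1
  rw [← List.prod_ofFn]
  congr 1
  apply List.ext_get
  · simp
  · intro i h4 h5
    simp

theorem ev2_cf_roots {p : MvPolynomial (Fin n) ℝ} {e f g k : Fin n → ℝ} (hp : IsHyperbolic p e)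
    {s u : ℝ} {d : ℕ} {r : Fin d → ℝ}
    (hr : line p (f + u • (k + s • g)) e = C (MvPolynomial.eval e p) * ∏ a, (X - C (r a)))
    (j : Fin d) : ev2 s u (cf p e f g k j) = Gen.cof r j := by
  rw [ev2_cf, hr, coeff_C_mul, ← mul_assoc, inv_mul_cancel₀ hp.2.1.ne', one_mul, Gen.cof]

theorem hm_ev2 {p : MvPolynomial (Fin n) ℝ} {e f g k : Fin n → ℝ} (hp : IsHyperbolic p e)
    {s u : ℝ} {d : ℕ} {r : Fin d → ℝ}
    (hr : line p (f + u • (k + s • g)) e = C (MvPolynomial.eval e p) * ∏ a, (X - C (r a))) :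
    (Gen.hm fun j : Fin d => cf p e f g k j).map (ev2 s u) =
      (Matrix.vandermonde r)ᵀ * Matrix.vandermonde r := by
  have h1 := Gen.hm_map ((ev2 s u : ℝ[X][X] →ₐ[ℝ] ℝ) : ℝ[X][X] →+* ℝ)
    fun j : Fin d => cf p e f g k j
  have h2 : (fun i : Fin d => ((ev2 s u : ℝ[X][X] →ₐ[ℝ] ℝ) : ℝ[X][X] →+* ℝ)
      (cf p e f g k i)) = Gen.cof r := by
    funext j
    exact ev2_cf_roots hp hr j
  rw [h2, Gen.hm_cof] at h1
  exact h1

/-- simple roots -/
theorem roots_inj {p : MvPolynomial (Fin n) ℝ} {e x : Fin n → ℝ} {d : ℕ} {r : Fin d → ℝ}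
    (hr : line p x e = C (MvPolynomial.eval e p) * ∏ a, (X - C (r a)))
    (hnd : ∀ t : ℝ, MvPolynomial.eval (x + t • e) p = 0 → dd p (x + t • e) e ≠ 0) :
    Function.Injective r := by
  classical
  intro a b hab
  by_contra hne
  have h1 : line p x e = (X - C (r a)) * ((X - C (r a)) * (C (MvPolynomial.eval e p) *
      ∏ c ∈ (Finset.univ.erase a).erase b, (X - C (r c)))) := by
    rw [hr, ← Finset.mul_prod_erase _ _ (Finset.mem_univ a), ← Finset.mul_prod_erase _ _
      (Finset.mem_erase.2 ⟨fun h => hne h.symm, Finset.mem_univ b⟩), ← hab]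
    ring
  have h2 : (line p x e).eval (r a) = 0 := by rw [h1]; simp
  have h3 : (derivative (line p x e)).eval (r a) = 0 := by
    rw [h1, derivative_mul]; simp
  rw [eval_line] at h2
  rw [eval_derivative_line] at h3
  exact hnd _ h2 h3

theorem det_hm_ne_zero {p : MvPolynomial (Fin n) ℝ} {e f g k : Fin n → ℝ}
    (hp : IsHyperbolic p e) {d : ℕ} (hd : p.IsHomogeneous d)
    (hgen : ∃ s u : ℝ, ∀ t : ℝ, MvPolynomial.eval (f + u • (k + s • g) + t • e) p = 0 →
      dd p (f + u • (k + s • g) + t • e) e ≠ 0) :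
    (Gen.hm fun j : Fin d => cf p e f g k j).det ≠ 0 := by
  obtain ⟨s, u, hsu⟩ := hgen
  obtain ⟨r, hr⟩ := exists_roots hp hd (f + u • (k + s • g))
  have hinj := roots_inj hr hsu
  intro h0
  have h1 := hm_ev2 hp hr
  have h2 := congrArg Matrix.det h1
  rw [Matrix.det_mul, Matrix.det_transpose] at h2
  have h3 : ((Gen.hm fun j : Fin d => cf p e f g k j).map (ev2 s u)).det = 0 := by
    have := RingHom.map_det ((ev2 s u : ℝ[X][X] →ₐ[ℝ] ℝ) : ℝ[X][X] →+* ℝ)
      (Gen.hm fun j : Fin d => cf p e f g k j)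
    rw [h0, map_zero] at this
    exact this.symm
  rw [h3] at h2
  have h4 := Matrix.det_vandermonde_ne_zero_iff.2 hinj
  exact h4 (mul_self_eq_zero.1 h2.symm)

end Vale.Agent.P256.H909
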