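import Vale.Agent.P256.H909.Asm

/-! The Hermite matrix over the field of germs. -/

set_option linter.all false

namespace Vale.Agent.P256.H909

open Polynomial Matrix Filter Topology Vale.Agent.P256.H230
open scoped ComplexOrder

/-- evaluation of a real polynomial at a complex number -/
noncomputable def evC (z : ℂ) : ℝ[X] →+* ℂ := Polynomial.eval₂RingHom (algebraMap ℝ ℂ) z

theorem evC_eq (z : ℂ) (q : ℝ[X]) : evC z q = (q.map (algebraMap ℝ ℂ)).eval z := by
  rw [evC, Polynomial.coe_eval₂RingHom, eval_map]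

theorem evC_real (s : ℝ) (q : ℝ[X]) : evC s q = ((q.eval s : ℝ) : ℂ) := by
  rw [evC, Polynomial.coe_eval₂RingHom]
  exact eval₂_at_apply (algebraMap ℝ ℂ) s

theorem evC_star (z : ℂ) (q : ℝ[X]) : star (evC (star z) q) = evC z q := by
  have h1 : (starRingEnd ℂ).comp (evC (star z)) = evC z := by
    apply Polynomial.ringHom_ext
    · intro a
      simp [evC]
    · simp [evC]
  exact congrArg (fun f : ℝ[X] →+* ℂ => f q) h1

theorem evC_mer (q : ℝ[X]) : MeromorphicAt (fun z => evC z q) 0 := by
  simp only [evC_eq]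
  exact ((q.map (algebraMap ℝ ℂ)).differentiable.analyticAt 0).meromorphicAt

/-- real polynomials in the coordinate as germs -/
noncomputable def io : ℝ[X] →+* MG where
  toFun q := MG.mk (fun z => evC z q) (evC_mer q)
  map_one' := Subtype.ext (by
    change (((fun z => evC z 1) : ℂ → ℂ) : Germ l0 ℂ) = _
    simp only [map_one]; rfl)
  map_mul' a b := Subtype.ext (by
    change (((fun z => evC z (a * b)) : ℂ → ℂ) : Germ l0 ℂ) = _
    simp only [map_mul]; rfl)
  map_zero' := Subtype.ext (by
    change (((fun z => evC z 0) : ℂ → ℂ) : Germ l0 ℂ) = _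
    simp only [map_zero]; rfl)
  map_add' a b := Subtype.ext (by
    change (((fun z => evC z (a + b)) : ℂ → ℂ) : Germ l0 ℂ) = _
    simp only [map_add]; rfl)

theorem io_rep (q : ℝ[X]) : (io q).rep =ᶠ[l0] fun z => evC z q := MG.rep_mk (evC_mer q)

theorem star_io (q : ℝ[X]) : star (io q) = io q := by
  refine MG.ext_rep ?_
  filter_upwards [MG.rep_star (io q), tendsto_star_l0.eventually (io_rep q), io_rep q]
    with z h1 h2 h3
  rw [h1, cstar, h2, h3, evC_star]

theorem io_injective : Function.Injective io := by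
  rw [injective_iff_map_eq_zero]
  intro q hq
  have h1 : ∀ᶠ z in l0, evC z q = 0 := by
    filter_upwards [io_rep q, MG.rep_zero] with z h2 h3
    rw [← h2, hq, h3]; rfl
  have h2 : q.map (algebraMap ℝ ℂ) = 0 := by
    by_contra hne
    have hfin : {z : ℂ | (q.map (algebraMap ℝ ℂ)).eval z = 0}.Finite := by
      refine ((q.map (algebraMap ℝ ℂ)).roots.toFinset.finite_toSet).subset fun z hz => ?_
      rw [Finset.mem_coe, Multiset.mem_toFinset, mem_roots hne]
      exact hz
    have hcl : IsClosed ({z : ℂ | (q.map (algebraMap ℝ ℂ)).eval z = 0} \ {0}) :=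
      (hfin.subset Set.diff_subset).isClosed
    have h3 : ∀ᶠ z in l0, z ∉ ({z : ℂ | (q.map (algebraMap ℝ ℂ)).eval z = 0} \ {0}) :=
      nhdsWithin_le_nhds (hcl.isOpen_compl.mem_nhds (by simp))
    obtain ⟨z, hz1, hz2, hz3⟩ := (h1.and (h3.and self_mem_nhdsWithin)).exists
    rw [evC_eq] at hz1
    exact hz2 ⟨hz1, hz3⟩
  exact (Polynomial.map_eq_zero _).1 h2

/-- real polynomials in two variables as polynomials over the field of germs -/
noncomputable def Io : ℝ[X][X] →+* MG[X] := Polynomial.mapRingHom io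

theorem star_Io (q : ℝ[X][X]) : star (Io q) = Io q := by
  ext i
  rw [coeff_star, Io, coe_mapRingHom, coeff_map, star_io]

theorem Io_injective : Function.Injective Io := by
  rw [Io, coe_mapRingHom]
  exact Polynomial.map_injective io io_injective

/-- the representing family -/
noncomputable def fm (q : ℝ[X][X]) : ℂ → ℂ[X] := fun z => q.map (evC z)

theorem rep_Io (q : ℝ[X][X]) : H230.Rep (Io q) (fm q) := by
  have h1 : ∀ᶠ z in l0, ∀ i ∈ Finset.range (q.natDegree + 1), (io (q.coeff i)).rep z =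
      evC z (q.coeff i) := (Finset.eventually_all _).2 fun i _ => io_rep _
  filter_upwards [h1, MG.rep_zero] with z h2 h3 i
  rw [fm, coeff_map, Io, coe_mapRingHom, coeff_map]
  by_cases hi : i < q.natDegree + 1
  · rw [h2 i (Finset.mem_range.2 hi)]
  · rw [coeff_eq_zero_of_natDegree_lt (by omega : q.natDegree < i), map_zero, map_zero, h3]
    rfl

theorem eval_fm (q : ℝ[X][X]) (s u : ℝ) : (fm q s).eval (u : ℂ) = ((ev2 s u q : ℝ) : ℂ) := by
  have h1 : (Polynomial.evalRingHom (u : ℂ)).comp (Polynomial.mapRingHom (evC s)) =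
      (algebraMap ℝ ℂ).comp ((ev2 s u : ℝ[X][X] →ₐ[ℝ] ℝ) : ℝ[X][X] →+* ℝ) := by
    apply Polynomial.ringHom_ext
    · intro a
      rw [RingHom.comp_apply, RingHom.comp_apply, coe_mapRingHom, map_C, coe_evalRingHom, eval_C,
        evC_real]
      have := ev2_C s u a
      exact congrArg _ this.symm
    · rw [RingHom.comp_apply, RingHom.comp_apply, coe_mapRingHom, map_X, coe_evalRingHom, eval_X]
      have := ev2_X s u
      exact congrArg _ this.symm
  exact congrArg (fun f : ℝ[X][X] →+* ℂ => f q) h1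

theorem rep_zero' : H230.Rep (0 : MG[X]) (fun _ => 0) := by
  filter_upwards [MG.rep_zero] with z hz i
  rw [coeff_zero, coeff_zero, hz]; rfl

theorem rep_sum' {ι : Type*} (s : Finset ι) {P : ι → MG[X]} {W : ι → ℂ → ℂ[X]}
    (h : ∀ i ∈ s, H230.Rep (P i) (W i)) : H230.Rep (∑ i ∈ s, P i) (fun z => ∑ i ∈ s, W i z) := by
  classical
  induction s using Finset.induction_on with
  | empty => simpa using rep_zero'
  | insert a s ha ih =>
    simp only [Finset.sum_insert ha]
    exact (h a (Finset.mem_insert_self _ _)).add (ih fun i hi => h i (Finset.mem_insert_of_mem hi))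

variable {n : ℕ}

/-- the companion matrix over the field of germs -/
noncomputable def Cm (p : MvPolynomial (Fin n) ℝ) (e f g k : Fin n → ℝ) (d : ℕ) :
    Matrix (Fin d) (Fin d) MG[X] := Gen.cmp fun j => Io (cf p e f g k j)

/-- the Hermite matrix over the field of germs -/
noncomputable def Hm (p : MvPolynomial (Fin n) ℝ) (e f g k : Fin n → ℝ) (d : ℕ) :
    Matrix (Fin d) (Fin d) MG[X] := Gen.hm fun j => Io (cf p e f g k j)

theorem Hm_eq (p : MvPolynomial (Fin n) ℝ) (e f g k : Fin n → ℝ) (d : ℕ) (i j : Fin d) :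
    Hm p e f g k d i j = Io (Gen.hm (fun j : Fin d => cf p e f g k j) i j) := by
  rw [Hm, ← Gen.hm_map]; rfl

theorem Hm_star (p : MvPolynomial (Fin n) ℝ) (e f g k : Fin n → ℝ) (d : ℕ) :
    (Hm p e f g k d)ᴴ = Hm p e f g k d := by
  refine Matrix.ext fun i j => ?_
  rw [conjTranspose_apply, Hm_eq, Hm_eq, star_Io]
  have := congrFun (congrFun (Gen.hm_transpose fun j : Fin d => cf p e f g k j) i) j
  rw [Matrix.transpose_apply] at this
  rw [this]

theorem Cm_star (p : MvPolynomial (Fin n) ℝ) (e f g k : Fin n → ℝ) (d : ℕ) :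
    (Cm p e f g k d)ᴴ = (Cm p e f g k d)ᵀ := by
  refine Matrix.ext fun i j => ?_
  rw [conjTranspose_apply, Matrix.transpose_apply, Cm, ← Gen.cmp_map, Matrix.map_apply]
  exact star_Io _

theorem Hm_comm (p : MvPolynomial (Fin n) ℝ) (e f g k : Fin n → ℝ) (d : ℕ) :
    Hm p e f g k d * Cm p e f g k d = (Cm p e f g k d)ᴴ * Hm p e f g k d := by
  rw [Cm_star]
  exact Gen.hm_comm _

theorem Cm_trace {p : MvPolynomial (Fin n) ℝ} {d : ℕ} (hp : p.IsHomogeneous d)
    (e f g k : Fin n → ℝ) : (Cm p e f g k d * Cm p e f g k d).trace.natDegree ≤ 2 := by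
  refine Gen.natDegree_trace_cmp_sq fun i => ?_
  rw [Io, coe_mapRingHom]
  exact natDegree_map_le.trans (natDegree_cf hp e f g k i)

theorem Hm_det {p : MvPolynomial (Fin n) ℝ} {e f g k : Fin n → ℝ}
    (hp : IsHyperbolic p e) {d : ℕ} (hd : p.IsHomogeneous d)
    (hgen : ∃ s u : ℝ, ∀ t : ℝ, MvPolynomial.eval (f + u • (k + s • g) + t • e) p = 0 →
      dd p (f + u • (k + s • g) + t • e) e ≠ 0) : (Hm p e f g k d).det ≠ 0 := by
  have h1 := det_hm_ne_zero hp hd hgen
  have h2 := RingHom.map_det Io (Gen.hm fun j : Fin d => cf p e f g k j)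
  have h3 : Io.mapMatrix (Gen.hm fun j : Fin d => cf p e f g k j) = Hm p e f g k d := by
    rw [RingHom.mapMatrix_apply, Gen.hm_map]; rfl
  rw [h3] at h2
  rw [← h2]
  intro h4
  apply h1
  apply Io_injective
  rw [h4, map_zero]

/-- positivity at the real points -/
theorem Hm_pos {p : MvPolynomial (Fin n) ℝ} {e f g k : Fin n → ℝ}
    (hp : IsHyperbolic p e) {d : ℕ} (hd : p.IsHomogeneous d) (v : Fin d → MG[X]) :
    ∃ W, H230.Rep (star v ⬝ᵥ (Hm p e f g k d *ᵥ v)) W ∧ RealPos W := by
  have hV : ∀ i, H230.Rep (v i) (sp (v i)) := fun i => rep_sp _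
  refine ⟨fun z => ∑ i, ((sp (v i) (star z)).map (starRingEnd ℂ)) * ∑ j,
    fm (Gen.hm (fun j : Fin d => cf p e f g k j) i j) z * sp (v j) z, ?_, ?_⟩
  · rw [dotProduct]
    refine rep_sum' _ fun i _ => ?_
    refine Rep.mul (hV i).star ?_
    rw [Matrix.mulVec, dotProduct]
    refine rep_sum' _ fun j _ => ?_
    rw [Hm_eq]
    exact (rep_Io _).mul (hV j)
  · refine Filter.Eventually.of_forall fun s u => ?_
    obtain ⟨r, hr⟩ := exists_roots hp hd (f + u • (k + s • g))
    have h1 := hm_ev2 hp hr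
    set x : Fin d → ℂ := fun i => (sp (v i) s).eval (u : ℂ) with hx
    set V : Matrix (Fin d) (Fin d) ℂ := (Matrix.vandermonde r).map (algebraMap ℝ ℂ) with hV'
    have h2 : ∀ i j, (((ev2 s u (Gen.hm (fun j : Fin d => cf p e f g k j) i j)) : ℝ) : ℂ) =
        (Vᴴ * V) i j := by
      intro i j
      have h3 := congrFun (congrFun h1 i) j
      rw [Matrix.map_apply] at h3
      rw [h3, Matrix.mul_apply, Matrix.mul_apply]
      push_cast
      refine Finset.sum_congr rfl fun a _ => ?_
      rw [Matrix.conjTranspose_apply, Matrix.transpose_apply, hV', Matrix.map_apply,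
        Matrix.map_apply]
      congr 1
      exact (Complex.conj_ofReal _).symm
    have h4 : (∑ i, ((sp (v i) (star (s : ℂ))).map (starRingEnd ℂ)) * ∑ j,
        fm (Gen.hm (fun j : Fin d => cf p e f g k j) i j) s * sp (v j) s).eval (u : ℂ) =
        star x ⬝ᵥ ((Vᴴ * V) *ᵥ x) := by
      have hs : star (s : ℂ) = s := Complex.conj_ofReal s
      rw [dotProduct, Polynomial.eval_finset_sum]
      refine Finset.sum_congr rfl fun i _ => ?_
      rw [eval_mul, hs]
      congr 1
      · have h5 := eval_map_star (sp (v i) s) (u : ℂ)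
        have hu : star (u : ℂ) = u := Complex.conj_ofReal u
        rw [hu] at h5
        exact h5
      · rw [Matrix.mulVec, dotProduct, Polynomial.eval_finset_sum]
        refine Finset.sum_congr rfl fun j _ => ?_
        rw [eval_mul, eval_fm, h2]
    have h6 := (Matrix.posSemidef_conjTranspose_mul_self V).dotProduct_mulVec_nonneg x
    rw [← h4] at h6
    have h7 := Complex.nonneg_iff.1 h6
    exact ⟨h7.1, h7.2.symm⟩

/-- the characteristic polynomial of the companion matrix -/
theorem Cm_charpoly (p : MvPolynomial (Fin n) ℝ) (e f g k : Fin n → ℝ) (d : ℕ) :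
    (Cm p e f g k d).charpoly = X ^ d + ∑ i : Fin d, C (Io (cf p e f g k i)) * X ^ (i : ℕ) :=
  Gen.charpoly_cmp _

/-- values of the coefficients at the real points -/
theorem sum_cf {p : MvPolynomial (Fin n) ℝ} {d : ℕ} (hd : p.IsHomogeneous d)
    {e : Fin n → ℝ} (he : MvPolynomial.eval e p ≠ 0) (f g k : Fin n → ℝ) (s u t : ℝ) :
    t ^ d + ∑ i : Fin d, ev2 s u (cf p e f g k i) * t ^ (i : ℕ) =
      (MvPolynomial.eval e p)⁻¹ * MvPolynomial.eval (t • e + f + u • (k + s • g)) p := by
  have h1 : (line p (f + u • (k + s • g)) e).eval t =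
      ∑ i ∈ Finset.range (d + 1), (line p (f + u • (k + s • g)) e).coeff i * t ^ i := by
    apply eval_eq_sum_range'
    have := (line_top hd (f + u • (k + s • g)) e).1
    omega
  rw [Finset.sum_range_succ, (line_top hd (f + u • (k + s • g)) e).2, Finset.sum_range,
    eval_line] at h1
  have h2 : t • e + f + u • (k + s • g) = f + u • (k + s • g) + t • e := by abel
  rw [h2, h1, mul_add, ← mul_assoc, inv_mul_cancel₀ he, one_mul, add_comm]
  congr 1
  rw [Finset.mul_sum]
  refine Finset.sum_congr rfl fun i _ => ?_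
  rw [ev2_cf]; ring

end Vale.Agent.P256.H909
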