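import Vale.Agent.P256.MathlibUsed
import Mathlib.Algebra.Polynomial.Reverse

/-! Hermitian matrices over `ℂ[X]`: formal adjoint, evaluation at real points. -/

set_option linter.all false

namespace Vale.Agent.P256.H909

open Polynomial Matrix
open scoped ComplexOrder

variable {n : Type*} [Fintype n] [DecidableEq n]

/-- conjugate the coefficients -/
noncomputable def cj : ℂ[X] →+* ℂ[X] := Polynomial.mapRingHom (starRingEnd ℂ)

/-- formal adjoint of a matrix of polynomials -/
noncomputable def sm (B : Matrix n n ℂ[X]) : Matrix n n ℂ[X] := (B.map cj)ᵀ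

/-- evaluation of a matrix of polynomials -/
noncomputable def ev (u : ℂ) (B : Matrix n n ℂ[X]) : Matrix n n ℂ := B.map (Polynomial.eval u)

theorem cj_apply (g : ℂ[X]) : cj g = g.map (starRingEnd ℂ) := rfl

@[simp] theorem cj_coeff (g : ℂ[X]) (k : ℕ) : (cj g).coeff k = (starRingEnd ℂ) (g.coeff k) := by
  rw [cj_apply, coeff_map]

@[simp] theorem cj_cj (g : ℂ[X]) : cj (cj g) = g := by
  ext k; simp

@[simp] theorem cj_C (a : ℂ) : cj (C a) = C ((starRingEnd ℂ) a) := by
  rw [cj_apply, map_C]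

@[simp] theorem cj_X : cj X = X := by
  rw [cj_apply, map_X]

theorem natDegree_cj (g : ℂ[X]) : (cj g).natDegree = g.natDegree := by
  rw [cj_apply]
  exact natDegree_map_eq_of_injective (RingHom.injective _) g

theorem cj_ne_zero {g : ℂ[X]} (h : g ≠ 0) : cj g ≠ 0 := by
  intro h'
  apply h
  rw [← cj_cj g, h', map_zero]

theorem eval_cj (z : ℂ) (g : ℂ[X]) :
    (cj g).eval ((starRingEnd ℂ) z) = (starRingEnd ℂ) (g.eval z) := by
  rw [cj_apply, eval_map, eval₂_at_apply]

theorem eval_cj' (z : ℂ) (g : ℂ[X]) :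
    (cj g).eval z = (starRingEnd ℂ) (g.eval ((starRingEnd ℂ) z)) := by
  rw [← eval_cj, Complex.conj_conj]

theorem eval_cj_real (u : ℝ) (g : ℂ[X]) :
    (cj g).eval (u : ℂ) = (starRingEnd ℂ) (g.eval (u : ℂ)) := by
  rw [eval_cj', Complex.conj_ofReal]

/-- two polynomials which agree at all real points but finitely many are equal -/
theorem eq_of_eval_real {f g : ℂ[X]} {s : Finset ℂ}
    (h : ∀ u : ℝ, (u : ℂ) ∉ s → f.eval (u : ℂ) = g.eval (u : ℂ)) : f = g := by
  apply Polynomial.eq_of_infinite_eval_eq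
  have h1 : (Set.range (fun u : ℝ => (u : ℂ))).Infinite :=
    Set.infinite_range_of_injective Complex.ofReal_injective
  have h2 := h1.diff s.finite_toSet
  refine h2.mono ?_
  rintro _ ⟨⟨u, rfl⟩, hu⟩
  exact h u (by simpa using hu)

theorem eq_of_eval_real' {f g : ℂ[X]}
    (h : ∀ u : ℝ, f.eval (u : ℂ) = g.eval (u : ℂ)) : f = g :=
  eq_of_eval_real (s := ∅) fun u _ => h u

@[simp] theorem sm_apply (B : Matrix n n ℂ[X]) (i j : n) : sm B i j = cj (B j i) := rfl

@[simp] theorem ev_apply (u : ℂ) (B : Matrix n n ℂ[X]) (i j : n) :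
    ev u B i j = (B i j).eval u := rfl

@[simp] theorem sm_sm (B : Matrix n n ℂ[X]) : sm (sm B) = B := by
  ext i j : 2; simp

theorem sm_mul (A B : Matrix n n ℂ[X]) : sm (A * B) = sm B * sm A := by
  rw [sm, sm, sm, Matrix.map_mul, Matrix.transpose_mul]

theorem sm_one : sm (1 : Matrix n n ℂ[X]) = 1 := by
  ext i j : 2
  rw [sm_apply, Matrix.one_apply, Matrix.one_apply]
  by_cases h : j = i <;> by_cases h' : i = j <;> simp_all

theorem det_sm (B : Matrix n n ℂ[X]) : (sm B).det = cj B.det := by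
  rw [sm, Matrix.det_transpose, RingHom.map_det]; rfl

theorem adjugate_sm (B : Matrix n n ℂ[X]) : (sm B).adjugate = sm B.adjugate := by
  rw [sm, ← Matrix.adjugate_transpose, sm, ← RingHom.mapMatrix_apply, ← RingHom.map_adjugate]
  rfl

theorem ev_mul (u : ℂ) (A B : Matrix n n ℂ[X]) : ev u (A * B) = ev u A * ev u B := by
  rw [ev, ev, ev]
  exact Matrix.map_mul (f := Polynomial.evalRingHom u)

theorem ev_one (u : ℂ) : ev u (1 : Matrix n n ℂ[X]) = 1 := by
  ext i j
  rw [ev_apply, Matrix.one_apply, Matrix.one_apply]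
  split_ifs <;> simp

theorem det_ev (u : ℂ) (B : Matrix n n ℂ[X]) : (ev u B).det = B.det.eval u := by
  have := RingHom.map_det (Polynomial.evalRingHom u) B
  rw [Polynomial.coe_evalRingHom] at this
  rw [this]; rfl

theorem ev_sm (u : ℝ) (B : Matrix n n ℂ[X]) : ev u (sm B) = (ev u B)ᴴ := by
  ext i j
  rw [ev_apply, sm_apply, eval_cj_real, Matrix.conjTranspose_apply, ev_apply]; rfl

theorem ext_real {A B : Matrix n n ℂ[X]} (h : ∀ u : ℝ, ev u A = ev u B) : A = B :=
  Matrix.ext fun i j => eq_of_eval_real' fun u => congrFun (congrFun (h u) i) j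

/-- positive semidefinite at all real points -/
def Psd (B : Matrix n n ℂ[X]) : Prop := ∀ u : ℝ, (ev u B).PosSemidef

theorem Psd.sm {B : Matrix n n ℂ[X]} (h : Psd B) : H909.sm B = B := by
  apply ext_real
  intro u
  rw [ev_sm]
  exact (h u).isHermitian

end Vale.Agent.P256.H909
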