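import Mathlib

/-! Companion matrices and Hermite (trace) matrices over commutative rings. -/

set_option linter.all false

namespace Vale.Agent.P256.H909.Gen

open Polynomial Matrix

variable {R : Type*} [CommRing R] {d : ℕ}

/-- companion matrix -/
def cmp (c : Fin d → R) : Matrix (Fin d) (Fin d) R :=
  Matrix.of fun i j => if (j : ℕ) + 1 = d then - c i else if (i : ℕ) = j + 1 then 1 else 0

theorem cmp_apply (c : Fin d → R) (i j : Fin d) :
    cmp c i j = if (j : ℕ) + 1 = d then - c i else if (i : ℕ) = j + 1 then 1 else 0 := rfl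

theorem cmp_map {S : Type*} [CommRing S] (φ : R →+* S) (c : Fin d → R) :
    (cmp c).map φ = cmp fun i => φ (c i) := by
  refine Matrix.ext fun i j => ?_
  rw [Matrix.map_apply, cmp_apply, cmp_apply]
  split_ifs
  · rw [map_neg]
  · rw [map_one]
  · rw [map_zero]

/-- the determinant of `t - C` -/
theorem det_sub_cmp (d : ℕ) : ∀ (t : R) (c : Fin d → R),
    (t • (1 : Matrix (Fin d) (Fin d) R) - cmp c).det = t ^ d + ∑ i, c i * t ^ (i : ℕ) := by
  induction d with
  | zero => intro t c; simp
  | succ d ih =>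
    intro t c
    have hA : ∀ i j : Fin (d + 1), (t • (1 : Matrix (Fin (d + 1)) (Fin (d + 1)) R) - cmp c) i j =
        (if i = j then t else 0) - cmp c i j := by
      intro i j
      rw [Matrix.sub_apply, Matrix.smul_apply, Matrix.one_apply]
      split_ifs <;> simp
    have hrow : ∀ j : Fin (d + 1), (t • (1 : Matrix (Fin (d + 1)) (Fin (d + 1)) R) - cmp c) 0 j =
        (if j = 0 then t else 0) + (if j = Fin.last d then c 0 else 0) := by
      intro j
      rw [hA, cmp_apply]
      have h1 : ((j : ℕ) + 1 = d + 1) ↔ j = Fin.last d := by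
        rw [Fin.ext_iff, Fin.val_last]; omega
      have h2 : ((0 : Fin (d + 1)) = j) ↔ j = 0 := eq_comm
      have h3 : ¬ (((0 : Fin (d + 1)) : ℕ) = (j : ℕ) + 1) := by
        rw [Fin.val_zero]; omega
      simp only [h1, h2, h3, if_false]
      split_ifs <;> ring
    have hs0 : (t • (1 : Matrix (Fin (d + 1)) (Fin (d + 1)) R) - cmp c).submatrix Fin.succ
        (Fin.succAbove 0) = t • (1 : Matrix (Fin d) (Fin d) R) - cmp fun i => c i.succ := by
      refine Matrix.ext fun i j => ?_
      rw [Matrix.submatrix_apply, hA, Fin.succAbove_zero, Matrix.sub_apply, Matrix.smul_apply,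
        Matrix.one_apply, cmp_apply, cmp_apply]
      simp only [Fin.succ_inj, Fin.val_succ, add_left_inj]
      split_ifs <;> simp
    have hsl : ((t • (1 : Matrix (Fin (d + 1)) (Fin (d + 1)) R) - cmp c).submatrix Fin.succ
        (Fin.succAbove (Fin.last d))).det = (-1) ^ d := by
      rw [Matrix.det_of_upperTriangular]
      · have : ∀ i : Fin d, (t • (1 : Matrix (Fin (d + 1)) (Fin (d + 1)) R) - cmp c).submatrix
            Fin.succ (Fin.succAbove (Fin.last d)) i i = -1 := by
          intro i
          rw [Matrix.submatrix_apply, hA, Fin.succAbove_last, cmp_apply]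
          have h1 : ¬ (i.succ = i.castSucc) := by
            rw [Fin.ext_iff, Fin.val_succ, Fin.val_castSucc]; omega
          have h2 : ¬ (((i.castSucc : Fin (d + 1)) : ℕ) + 1 = d + 1) := by
            rw [Fin.val_castSucc]; have := i.2; omega
          have h3 : ((i.succ : Fin (d + 1)) : ℕ) = ((i.castSucc : Fin (d + 1)) : ℕ) + 1 := by
            rw [Fin.val_castSucc, Fin.val_succ]
          rw [if_neg h1, if_neg h2, if_pos h3, zero_sub]
        simp only [this]
        rw [Finset.prod_const, Finset.card_univ, Fintype.card_fin]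
      · intro i j hij
        have hij' : j < i := hij
        rw [Matrix.submatrix_apply, hA, Fin.succAbove_last, cmp_apply]
        have h0 : (j : ℕ) < i := hij'
        have h1 : ¬ (i.succ = j.castSucc) := by
          rw [Fin.ext_iff, Fin.val_succ, Fin.val_castSucc]; omega
        have h2 : ¬ (((j.castSucc : Fin (d + 1)) : ℕ) + 1 = d + 1) := by
          rw [Fin.val_castSucc]; have := j.2; omega
        have h3 : ¬ (((i.succ : Fin (d + 1)) : ℕ) = ((j.castSucc : Fin (d + 1)) : ℕ) + 1) := by
          rw [Fin.val_castSucc, Fin.val_succ]; omega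
        rw [if_neg h1, if_neg h2, if_neg h3, sub_zero]
    rw [Matrix.det_succ_row_zero]
    simp only [hrow]
    have hsplit : ∀ j : Fin (d + 1), (-1 : R) ^ (j : ℕ) *
        ((if j = 0 then t else 0) + (if j = Fin.last d then c 0 else 0)) *
        ((t • (1 : Matrix (Fin (d + 1)) (Fin (d + 1)) R) - cmp c).submatrix Fin.succ
          (Fin.succAbove j)).det =
        (if j = 0 then t * (t ^ d + ∑ i : Fin d, c i.succ * t ^ (i : ℕ)) else 0) +
        (if j = Fin.last d then c 0 else 0) := by
      intro j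
      have e1 : j = 0 → (-1 : R) ^ (j : ℕ) * t *
          ((t • (1 : Matrix (Fin (d + 1)) (Fin (d + 1)) R) - cmp c).submatrix Fin.succ
          (Fin.succAbove j)).det = t * (t ^ d + ∑ i : Fin d, c i.succ * t ^ (i : ℕ)) := by
        rintro rfl
        rw [hs0, ih, Fin.val_zero, pow_zero, one_mul]
      have e2 : j = Fin.last d → (-1 : R) ^ (j : ℕ) * c 0 *
          ((t • (1 : Matrix (Fin (d + 1)) (Fin (d + 1)) R) - cmp c).submatrix Fin.succ
          (Fin.succAbove j)).det = c 0 := by
        rintro rfl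
        rw [hsl, Fin.val_last, mul_comm, ← mul_assoc, ← mul_pow]
        simp
      rw [mul_add, add_mul]
      congr 1
      · split_ifs with h
        · exact e1 h
        · simp
      · split_ifs with h
        · exact e2 h
        · simp
    rw [Finset.sum_congr rfl fun j _ => hsplit j, Finset.sum_add_distrib, Finset.sum_ite_eq',
      Finset.sum_ite_eq', if_pos (Finset.mem_univ _), if_pos (Finset.mem_univ _),
      Fin.sum_univ_succ]
    simp only [Fin.val_zero, pow_zero, mul_one, Fin.val_succ]
    rw [mul_add, Finset.mul_sum, ← pow_succ']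
    have : ∀ i : Fin d, t * (c i.succ * t ^ (i : ℕ)) = c i.succ * t ^ ((i : ℕ) + 1) := by
      intro i; ring
    simp only [this]
    ring

theorem charpoly_cmp (c : Fin d → R) :
    (cmp c).charpoly = X ^ d + ∑ i : Fin d, C (c i) * X ^ (i : ℕ) := by
  rw [Matrix.charpoly, Matrix.charmatrix]
  have h1 : Matrix.scalar (Fin d) (X : R[X]) - (C : R →+* R[X]).mapMatrix (cmp c) =
      (X : R[X]) • (1 : Matrix (Fin d) (Fin d) R[X]) - cmp fun i => C (c i) := by
    rw [RingHom.mapMatrix_apply, cmp_map, Matrix.smul_one_eq_diagonal]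
    rfl
  rw [h1, det_sub_cmp]

/-- powers of the companion matrix and its columns -/
theorem sum_cmp_pow (c : Fin d → R) (j : Fin d) :
    ∑ l, cmp c l j • cmp c ^ (l : ℕ) = cmp c ^ ((j : ℕ) + 1) := by
  by_cases h : (j : ℕ) + 1 = d
  · have h1 := Matrix.aeval_self_charpoly (cmp c)
    rw [charpoly_cmp] at h1
    simp only [map_add, map_sum, map_mul, map_pow, aeval_X, aeval_C] at h1
    rw [h]
    have h2 : ∀ l : Fin d, cmp c l j • cmp c ^ (l : ℕ) =
        - (algebraMap R (Matrix (Fin d) (Fin d) R) (c l) * cmp c ^ (l : ℕ)) := by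
      intro l
      rw [cmp_apply, if_pos h, neg_smul, Algebra.smul_def]
    simp only [h2]
    rw [Finset.sum_neg_distrib, ← eq_neg_iff_add_eq_zero.2 h1]
  · have hj := j.2
    rw [Finset.sum_eq_single (⟨j + 1, by omega⟩ : Fin d)]
    · rw [cmp_apply, if_neg h, if_pos rfl, one_smul]
    · intro l _ hl
      rw [cmp_apply, if_neg h, if_neg, zero_smul]
      intro h'
      exact hl (Fin.ext h')
    · intro h'; exact absurd (Finset.mem_univ _) h'

/-- the trace (Hermite) matrix -/
def hm (c : Fin d → R) : Matrix (Fin d) (Fin d) R :=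
  Matrix.of fun i j => (cmp c ^ ((i : ℕ) + j)).trace

theorem hm_apply (c : Fin d → R) (i j : Fin d) :
    hm c i j = (cmp c ^ ((i : ℕ) + j)).trace := rfl

theorem hm_map {S : Type*} [CommRing S] (φ : R →+* S) (c : Fin d → R) :
    (hm c).map φ = hm fun i => φ (c i) := by
  refine Matrix.ext fun i j => ?_
  rw [Matrix.map_apply, hm_apply, hm_apply, ← cmp_map, ← RingHom.mapMatrix_apply, ← map_pow,
    RingHom.mapMatrix_apply, Matrix.trace, Matrix.trace, map_sum]
  rfl

theorem hm_transpose (c : Fin d → R) : (hm c)ᵀ = hm c := by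
  refine Matrix.ext fun i j => ?_
  rw [Matrix.transpose_apply, hm_apply, hm_apply, add_comm]

theorem hm_mul_cmp (c : Fin d → R) (i j : Fin d) :
    (hm c * cmp c) i j = (cmp c ^ ((i : ℕ) + j + 1)).trace := by
  rw [Matrix.mul_apply]
  have h1 : ∀ l : Fin d, hm c i l * cmp c l j =
      (cmp c ^ (i : ℕ) * (cmp c l j • cmp c ^ (l : ℕ))).trace := by
    intro l
    rw [hm_apply, Matrix.mul_smul, Matrix.trace_smul, ← pow_add, smul_eq_mul, mul_comm]
  simp only [h1]
  rw [← Matrix.trace_sum, ← Finset.mul_sum, sum_cmp_pow, ← pow_add]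
  rfl

theorem hm_comm (c : Fin d → R) : hm c * cmp c = (cmp c)ᵀ * hm c := by
  have h1 : (hm c * cmp c)ᵀ = (cmp c)ᵀ * hm c := by
    rw [Matrix.transpose_mul, hm_transpose]
  rw [← h1]
  refine Matrix.ext fun i j => ?_
  rw [Matrix.transpose_apply, hm_mul_cmp, hm_mul_cmp, add_comm (i : ℕ)]

/-! ### in terms of roots -/

/-- coefficients of `∏ (X - r a)` -/
noncomputable def cof (r : Fin d → R) (i : Fin d) : R := (∏ a, (X - C (r a))).coeff i

theorem cof_map {S : Type*} [CommRing S] (φ : R →+* S) (r : Fin d → R) (i : Fin d) :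
    φ (cof r i) = cof (fun a => φ (r a)) i := by
  rw [cof, cof, ← coeff_map, Polynomial.map_prod]
  simp

theorem cof_root (r : Fin d → R) (a : Fin d) :
    r a ^ d + ∑ i, cof r i * r a ^ (i : ℕ) = 0 := by
  nontriviality R
  have hm : (∏ a, (X - C (r a))).Monic := monic_prod_of_monic _ _ fun a _ => monic_X_sub_C _
  have hd : (∏ a, (X - C (r a))).natDegree = d := by
    rw [natDegree_prod_of_monic _ _ fun a _ => monic_X_sub_C _]
    simp
  have h0 : (∏ a, (X - C (r a))).eval (r a) = 0 := by
    rw [eval_prod]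
    exact Finset.prod_eq_zero (Finset.mem_univ a) (by simp)
  rw [eval_eq_sum_range, hd, Finset.sum_range_succ, Finset.sum_range] at h0
  have h1 : (∏ a, (X - C (r a))).coeff d = 1 := by
    have := hm.coeff_natDegree
    rwa [hd] at this
  rw [h1, one_mul, add_comm] at h0
  exact h0

theorem vand_cmp {c : Fin d → R} {r : Fin d → R}
    (hr : ∀ a, r a ^ d + ∑ i, c i * r a ^ (i : ℕ) = 0) :
    Matrix.vandermonde r * cmp c = Matrix.diagonal r * Matrix.vandermonde r := by
  refine Matrix.ext fun a j => ?_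
  rw [Matrix.mul_apply, Matrix.diagonal_mul, Matrix.vandermonde_apply]
  have hd := j.2
  by_cases h1 : (j : ℕ) + 1 = d
  · have h2 : ∀ i, Matrix.vandermonde r a i * cmp c i j = - (c i * r a ^ (i : ℕ)) := by
      intro i
      rw [cmp_apply, if_pos h1, Matrix.vandermonde_apply]; ring
    simp only [h2]
    rw [Finset.sum_neg_distrib, ← pow_succ', h1]
    linear_combination - hr a
  · rw [Finset.sum_eq_single (⟨j + 1, by omega⟩ : Fin d)]
    · rw [cmp_apply, if_neg h1, if_pos rfl, Matrix.vandermonde_apply, mul_one, ← pow_succ']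
    · intro i _ hi
      rw [cmp_apply, if_neg h1, if_neg, mul_zero]
      intro h
      exact hi (Fin.ext h)
    · intro h; exact absurd (Finset.mem_univ _) h

theorem trace_pow_aux {F : Type*} [Field F] {c : Fin d → F} {r : Fin d → F}
    (hr : ∀ a, r a ^ d + ∑ i, c i * r a ^ (i : ℕ) = 0) (hi : Function.Injective r) (k : ℕ) :
    (cmp c ^ k).trace = ∑ a, r a ^ k := by
  have hdet : IsUnit (Matrix.vandermonde r).det :=
    isUnit_iff_ne_zero.2 (Matrix.det_vandermonde_ne_zero_iff.2 hi)
  have h1 : SemiconjBy (Matrix.vandermonde r) (cmp c) (Matrix.diagonal r) := vand_cmp hr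
  have h1 := h1.pow_right k
  rw [Matrix.diagonal_pow] at h1
  have h1 : Matrix.vandermonde r * cmp c ^ k =
    Matrix.diagonal (fun a => r a ^ k) * Matrix.vandermonde r := h1
  have h2 : cmp c ^ k =
      (Matrix.vandermonde r)⁻¹ * (Matrix.diagonal (fun a => r a ^ k) * Matrix.vandermonde r) := by
    rw [← h1, ← Matrix.mul_assoc, Matrix.nonsing_inv_mul _ hdet, Matrix.one_mul]
  rw [h2, Matrix.trace_mul_comm, Matrix.mul_assoc,
    Matrix.mul_nonsing_inv _ hdet, Matrix.mul_one, Matrix.trace_diagonal]

theorem trace_pow (r : Fin d → R) (k : ℕ) : (cmp (cof r) ^ k).trace = ∑ a, r a ^ k := by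
  -- the universal case
  have huniv : (cmp (cof (MvPolynomial.X : Fin d → MvPolynomial (Fin d) ℤ)) ^ k).trace =
      ∑ a, (MvPolynomial.X a : MvPolynomial (Fin d) ℤ) ^ k := by
    apply IsFractionRing.injective (MvPolynomial (Fin d) ℤ)
      (FractionRing (MvPolynomial (Fin d) ℤ))
    set ψ := algebraMap (MvPolynomial (Fin d) ℤ) (FractionRing (MvPolynomial (Fin d) ℤ)) with hψ
    have hinj : Function.Injective fun a : Fin d => ψ (MvPolynomial.X a) :=
      (IsFractionRing.injective (MvPolynomial (Fin d) ℤ)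
        (FractionRing (MvPolynomial (Fin d) ℤ))).comp (MvPolynomial.X_injective)
    have h1 := trace_pow_aux (cof_root fun a => ψ (MvPolynomial.X a)) hinj k
    rw [map_sum]
    simp only [map_pow]
    rw [← h1]
    have h2 : (cmp fun i => cof (fun a => ψ (MvPolynomial.X a)) i) =
        (cmp (cof MvPolynomial.X)).map ψ := by
      rw [cmp_map]
      congr 1
      funext i
      exact (cof_map ψ _ i).symm
    rw [h2, ← RingHom.mapMatrix_apply, ← map_pow, RingHom.mapMatrix_apply, Matrix.trace,
      Matrix.trace, map_sum]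
    rfl
  set φ : MvPolynomial (Fin d) ℤ →+* R := (MvPolynomial.aeval r).toRingHom with hφ
  have hX : ∀ a, φ (MvPolynomial.X a) = r a := by
    intro a
    rw [hφ]
    simp
  have h3 := congrArg φ huniv
  rw [map_sum] at h3
  simp only [map_pow, hX] at h3
  rw [← h3]
  have h2 : (cmp fun i => cof r i) = (cmp (cof MvPolynomial.X)).map φ := by
    rw [cmp_map]
    congr 1
    funext i
    rw [cof_map]
    simp only [hX]
  rw [h2, ← RingHom.mapMatrix_apply, ← map_pow, RingHom.mapMatrix_apply, Matrix.trace,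
    Matrix.trace, map_sum]
  rfl

theorem hm_cof (r : Fin d → R) :
    hm (cof r) = (Matrix.vandermonde r)ᵀ * Matrix.vandermonde r := by
  refine Matrix.ext fun i j => ?_
  rw [hm_apply, trace_pow, Matrix.mul_apply]
  refine Finset.sum_congr rfl fun a _ => ?_
  rw [Matrix.transpose_apply, Matrix.vandermonde_apply, Matrix.vandermonde_apply, pow_add]

/-! ### weighted degrees -/

/-- weighted degree -/
def Wt (k : ℕ) (M : Matrix (Fin d) (Fin d) R[X]) : Prop :=
  ∀ (i j : Fin d) (N : ℕ), (j : ℕ) + k < N + i → (M i j).coeff N = 0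

theorem Wt.mul {k l : ℕ} {M M' : Matrix (Fin d) (Fin d) R[X]} (h : Wt k M) (h' : Wt l M') :
    Wt (k + l) (M * M') := by
  intro i j N hN
  rw [Matrix.mul_apply, finsetSum_coeff]
  refine Finset.sum_eq_zero fun a _ => ?_
  rw [coeff_mul]
  refine Finset.sum_eq_zero fun x hx => ?_
  rw [Finset.HasAntidiagonal.mem_antidiagonal] at hx
  by_cases h1 : (a : ℕ) + k < x.1 + i
  · rw [h i a x.1 h1, zero_mul]
  · rw [h' a j x.2 (by omega), mul_zero]

theorem Wt.trace {k : ℕ} {M : Matrix (Fin d) (Fin d) R[X]} (h : Wt k M) :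
    M.trace.natDegree ≤ k := by
  rw [natDegree_le_iff_coeff_eq_zero]
  intro N hN
  rw [Matrix.trace, finsetSum_coeff]
  refine Finset.sum_eq_zero fun i _ => h i i N (by omega)

theorem wt_cmp {c : Fin d → R[X]} (hdeg : ∀ i, (c i).natDegree ≤ d - i) : Wt 1 (cmp c) := by
  intro i j N hN
  rw [cmp_apply]
  have := hdeg i
  split_ifs with h1 h2
  · rw [coeff_neg, coeff_eq_zero_of_natDegree_lt (by omega), neg_zero]
  · rw [coeff_one, if_neg (by omega)]
  · exact coeff_zero _

theorem natDegree_trace_cmp_sq {c : Fin d → R[X]} (hdeg : ∀ i, (c i).natDegree ≤ d - i) :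
    (cmp c * cmp c).trace.natDegree ≤ 2 :=
  ((wt_cmp hdeg).mul (wt_cmp hdeg)).trace

end Vale.Agent.P256.H909.Gen
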