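import Vale.Agent.P256.H909.FR

/-! The reduction step of the matrix Fejér–Riesz theorem. -/

set_option linter.all false

namespace Vale.Agent.P256.H909

open Polynomial Matrix Filter Topology
open scoped ComplexOrder

variable {n : Type*} [Fintype n] [DecidableEq n]

/-- degrees of the entries bounded by `m i + m j` -/
def Typed (m : n → ℕ) (B : Matrix n n ℂ[X]) : Prop := ∀ i j, (B i j).natDegree ≤ m i + m j

/-- the corner of the transformed matrix -/
noncomputable def crn (B : Matrix n n ℂ[X]) (w : n → ℂ[X]) : ℂ[X] :=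
  ∑ k, cj (w k) * (B *ᵥ w) k

theorem eval_mulVec (u : ℂ) (B : Matrix n n ℂ[X]) (w : n → ℂ[X]) (k : n) :
    ((B *ᵥ w) k).eval u = (ev u B *ᵥ fun j => (w j).eval u) k := by
  rw [Matrix.mulVec, Matrix.mulVec, dotProduct, dotProduct, Polynomial.eval_finset_sum]
  exact Finset.sum_congr rfl fun j _ => by rw [eval_mul]; rfl

theorem eval_crn (u : ℝ) (B : Matrix n n ℂ[X]) (w : n → ℂ[X]) :
    (crn B w).eval (u : ℂ) =
      star (fun j => (w j).eval (u : ℂ)) ⬝ᵥ (ev u B *ᵥ fun j => (w j).eval (u : ℂ)) := by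
  rw [crn, dotProduct, Polynomial.eval_finset_sum]
  refine Finset.sum_congr rfl fun k _ => ?_
  rw [eval_mul, eval_mulVec, eval_cj_real]
  rfl

theorem crn_nonneg {B : Matrix n n ℂ[X]} (hB : Psd B) (w : n → ℂ[X]) (u : ℝ) :
    0 ≤ ((crn B w).eval (u : ℂ)).re := by
  rw [eval_crn]
  exact (Complex.nonneg_iff.1 ((hB u).dotProduct_mulVec_nonneg _)).1

theorem cj_crn {B : Matrix n n ℂ[X]} (hB : Psd B) (i₀ : n) (w : n → ℂ[X]) :
    cj (crn B w) = crn B w := by
  have h1 := (psd_congr hB (upd i₀ w)).sm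
  have h2 := congrFun (congrFun h1 i₀) i₀
  rw [sm_apply, congr_apply hB.sm, if_pos rfl, if_pos rfl] at h2
  exact h2

theorem crn_ne_zero {B : Matrix n n ℂ[X]} (hB : Psd B) (hd : B.det ≠ 0) {i₀ : n}
    {w : n → ℂ[X]} {c : ℂ} (hc : c ≠ 0) (hw : w i₀ = C c) : crn B w ≠ 0 := by
  intro h0
  apply hd
  apply eq_of_eval_real'
  intro u
  rw [← det_ev, eval_zero]
  apply Matrix.exists_mulVec_eq_zero_iff.1
  refine ⟨fun j => (w j).eval (u : ℂ), ?_, ?_⟩
  · intro h
    have := congrFun h i₀
    simp only [hw, eval_C, Pi.zero_apply] at this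
    exact hc this
  · rw [← (hB u).dotProduct_mulVec_zero_iff, ← eval_crn, h0, eval_zero]

theorem natDegree_mulVec {B : Matrix n n ℂ[X]} {m : n → ℕ} (hT : Typed m B) {w : n → ℂ[X]}
    {M : ℕ} (hw : ∀ j, w j ≠ 0 → (w j).natDegree + m j ≤ M) (k : n) :
    ((B *ᵥ w) k).natDegree ≤ m k + M := by
  rw [Matrix.mulVec, dotProduct]
  apply natDegree_sum_le_of_forall_le
  intro j _
  by_cases h : w j = 0
  · rw [h, mul_zero, natDegree_zero]; exact Nat.zero_le _
  · have h1 := hT k j
    have h2 := hw j h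
    have h3 := natDegree_mul_le (p := B k j) (q := w j)
    omega

theorem natDegree_crn {B : Matrix n n ℂ[X]} {m : n → ℕ} (hT : Typed m B) {w : n → ℂ[X]}
    {M : ℕ} (hw : ∀ j, w j ≠ 0 → (w j).natDegree + m j ≤ M) :
    (crn B w).natDegree ≤ 2 * M := by
  rw [crn]
  apply natDegree_sum_le_of_forall_le
  intro j _
  by_cases h : w j = 0
  · rw [h, map_zero, zero_mul, natDegree_zero]; exact Nat.zero_le _
  · have h1 := natDegree_mulVec hT hw j
    have h2 := hw j h
    have h3 := natDegree_mul_le (p := cj (w j)) (q := (B *ᵥ w) j)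
    rw [natDegree_cj] at h3
    omega

/-- undoing the elementary transformation -/
theorem eq_of_inv {B U P : Matrix n n ℂ[X]} (h : U * P = 1) :
    B = sm P * (sm U * B * U) * P := by
  have h' : sm P * sm U = 1 := by rw [← sm_mul, h, sm_one]
  calc B = (sm P * sm U) * B * (U * P) := by rw [h, h', Matrix.one_mul, Matrix.mul_one]
    _ = _ := by simp only [Matrix.mul_assoc]

theorem det_ne_of_inv {U P : Matrix n n ℂ[X]} (h : U * P = 1) (y : ℂ) : P.det.eval y ≠ 0 := by
  intro h0
  have := congrArg (fun g => g.eval y) (congrArg Matrix.det h)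
  simp only [Matrix.det_mul, Matrix.det_one, eval_mul, h0, mul_zero, eval_one] at this
  exact zero_ne_one this

theorem reduce_root {B : Matrix n n ℂ[X]} (hB : Psd B) (hd : B.det ≠ 0) {m : n → ℕ}
    (hT : Typed m B) {z : ℂ} (hz : 0 ≤ z.im) (hroot : B.det.eval z = 0) :
    ∃ (P B' : Matrix n n ℂ[X]) (m' : n → ℕ), B = sm P * B' * P ∧ Psd B' ∧ B'.det ≠ 0 ∧
      Typed m' B' ∧ ∑ i, m' i < ∑ i, m i ∧ ∀ y : ℂ, y.im < 0 → P.det.eval y ≠ 0 := by
  classical
  rw [← det_ev] at hroot
  obtain ⟨v, hv0, hv⟩ := Matrix.exists_mulVec_eq_zero_iff.2 hroot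
  obtain ⟨i₀, hi₀, hmax⟩ : ∃ i₀, v i₀ ≠ 0 ∧ ∀ j, v j ≠ 0 → m j ≤ m i₀ := by
    have hne : (Finset.univ.filter fun i => v i ≠ 0).Nonempty := by
      obtain ⟨i, hi⟩ := Function.ne_iff.1 hv0
      exact ⟨i, by simpa using hi⟩
    obtain ⟨i, hi, h⟩ := Finset.exists_max_image _ m hne
    exact ⟨i, by simpa using hi, fun j hj => h j (by simpa using hj)⟩
  set w : n → ℂ[X] := fun i => C (v i) with hw
  have hwd : ∀ j, w j ≠ 0 → (w j).natDegree + m j ≤ m i₀ := by
    intro j hj
    rw [hw]
    simp only [natDegree_C, zero_add]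
    apply hmax
    intro h
    apply hj
    rw [hw]; simp [h]
  have hcol : ∀ i, (X - C z) ∣ (B *ᵥ w) i := by
    intro i
    rw [dvd_iff_isRoot, IsRoot.def, eval_mulVec]
    have : (fun j => (w j).eval z) = v := by funext j; simp [hw]
    rw [this, hv]; rfl
  choose c hc using hcol
  have hg0 : (crn B w).eval z = 0 := by
    rw [crn, Polynomial.eval_finset_sum]
    refine Finset.sum_eq_zero fun k _ => ?_
    rw [hc k, eval_mul, eval_mul, eval_sub, eval_X, eval_C, sub_self, zero_mul, mul_zero]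
  obtain ⟨g, hg⟩ := dvd_of_nonneg (cj_crn hB i₀ w) (crn_nonneg hB w) hg0
  have hgne : crn B w ≠ 0 := crn_ne_zero hB hd hi₀ (w := w) (i₀ := i₀) rfl
  have hgg : g ≠ 0 := by rintro rfl; exact hgne (by rw [hg, mul_zero])
  have hm0 : 2 + g.natDegree ≤ 2 * m i₀ := by
    have h1 := natDegree_crn hT hwd
    rw [hg, natDegree_mul (mul_ne_zero (X_sub_C_ne_zero _) (X_sub_C_ne_zero _)) hgg,
      natDegree_mul (X_sub_C_ne_zero _) (X_sub_C_ne_zero _), natDegree_X_sub_C,
      natDegree_X_sub_C] at h1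
    omega
  have hcd : ∀ i, (c i).natDegree ≤ m i + (m i₀ - 1) := by
    intro i
    by_cases h : c i = 0
    · rw [h, natDegree_zero]; exact Nat.zero_le _
    · have h1 := natDegree_mulVec hT hwd i
      rw [hc i, natDegree_mul (X_sub_C_ne_zero _) h, natDegree_X_sub_C] at h1
      omega
  set z' : ℂ := (starRingEnd ℂ) z with hz'
  have hgs : cj g = g := by
    have h1 := cj_crn hB i₀ w
    rw [hg, map_mul, map_mul, map_sub, map_sub, cj_X, cj_C, cj_C, hz', Complex.conj_conj] at h1
    have h2 : ((X - C z) * (X - C z')) * cj g = ((X - C z) * (X - C z')) * g := by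
      rw [← h1, hz']; ring
    exact mul_left_cancel₀ (mul_ne_zero (X_sub_C_ne_zero _) (X_sub_C_ne_zero _)) h2
  set B' : Matrix n n ℂ[X] := Matrix.of fun i j =>
    if i = i₀ then (if j = i₀ then g else cj (c j)) else (if j = i₀ then c i else B i j) with hB'
  have hB'a : ∀ i j, B' i j =
    if i = i₀ then (if j = i₀ then g else cj (c j)) else (if j = i₀ then c i else B i j) :=
    fun i j => rfl
  set D : Matrix n n ℂ[X] := Matrix.diagonal fun i => if i = i₀ then X - C z else 1 with hD
  have hsD : sm D = Matrix.diagonal fun i => if i = i₀ then X - C z' else 1 := by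
    ext i j : 2
    rw [sm_apply, hD, Matrix.diagonal_apply, Matrix.diagonal_apply]
    by_cases hij : i = j
    · subst hij
      rw [if_pos rfl, if_pos rfl]
      split_ifs
      · rw [map_sub, cj_X, cj_C]
      · rw [map_one]
    · rw [if_neg hij, if_neg (fun h => hij h.symm), map_zero]
  have hB1 : sm D * B' * D = sm (upd i₀ w) * B * upd i₀ w := by
    refine Matrix.ext fun i j => ?_
    rw [congr_apply hB.sm, hsD, Matrix.mul_diagonal, Matrix.diagonal_mul, hB'a]
    by_cases hi : i = i₀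
    · by_cases hj : j = i₀
      · simp only [hi, hj, if_true]
        change (X - C z') * g * (X - C z) = crn B w
        rw [hg]; ring
      · simp only [hi, hj, if_true, if_false]
        rw [hc j, map_mul, map_sub, cj_X, cj_C, mul_one]
    · by_cases hj : j = i₀
      · simp only [hi, hj, if_true, if_false]
        rw [hc i, one_mul, mul_comm]
      · simp only [hi, hj, if_false, one_mul, mul_one]
  have hB's : sm B' = B' := by
    ext i j : 2
    rw [sm_apply, hB'a, hB'a]
    by_cases hi : i = i₀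
    · by_cases hj : j = i₀
      · simp only [hi, hj, if_true, hgs]
      · simp only [hi, hj, if_true, if_false]
    · by_cases hj : j = i₀
      · simp only [hi, hj, if_true, if_false, cj_cj]
      · simp only [hi, hj, if_false]
        conv_rhs => rw [← hB.sm, sm_apply]
  have hB'P : Psd B' := by
    refine psd_of_ne hB's z fun u hu => ?_
    have h1 := psd_congr hB (upd i₀ w) u
    rw [← hB1, ev_mul, ev_mul, ev_sm] at h1
    have hunit : IsUnit (ev (u : ℂ) D) := by
      rw [Matrix.isUnit_iff_isUnit_det, det_ev, hD, Matrix.det_diagonal, isUnit_iff_ne_zero,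
        Polynomial.eval_prod, Finset.prod_ne_zero_iff]
      intro i _
      split_ifs
      · rw [eval_sub, eval_X, eval_C]; exact sub_ne_zero.2 hu
      · rw [eval_one]; exact one_ne_zero
    exact hunit.posSemidef_star_left_conjugate_iff.1 h1
  obtain ⟨P₀, hP1, hP2⟩ := exists_upd_inv (i₀ := i₀) (w := w) hi₀ rfl
  have hmain : B = sm (D * P₀) * B' * (D * P₀) := by
    rw [sm_mul]
    calc B = sm P₀ * (sm D * B' * D) * P₀ := by rw [hB1]; exact eq_of_inv hP1
      _ = _ := by simp only [Matrix.mul_assoc]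
  refine ⟨D * P₀, B', Function.update m i₀ (m i₀ - 1), hmain, hB'P, ?_, ?_, ?_, ?_⟩
  · intro h
    apply hd
    rw [hmain, Matrix.det_mul, Matrix.det_mul, h, mul_zero, zero_mul]
  · intro i j
    rw [hB'a]
    by_cases hi : i = i₀
    · by_cases hj : j = i₀
      · rw [if_pos hi, if_pos hj, hi, hj, Function.update_self]
        omega
      · rw [if_pos hi, if_neg hj, hi, Function.update_self, Function.update_of_ne hj,
          natDegree_cj, add_comm]
        exact hcd j
    · by_cases hj : j = i₀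
      · rw [if_neg hi, if_pos hj, hj, Function.update_self, Function.update_of_ne hi]
        exact hcd i
      · rw [if_neg hi, if_neg hj, Function.update_of_ne hi, Function.update_of_ne hj]
        exact hT i j
  · apply Finset.sum_lt_sum
    · intro i _
      by_cases hi : i = i₀
      · rw [hi, Function.update_self]; omega
      · rw [Function.update_of_ne hi]
    · refine ⟨i₀, Finset.mem_univ _, ?_⟩
      rw [Function.update_self]; omega
  · intro y hy
    rw [Matrix.det_mul, eval_mul]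
    refine mul_ne_zero ?_ (det_ne_of_inv hP1 y)
    rw [hD, Matrix.det_diagonal, Polynomial.eval_prod, Finset.prod_ne_zero_iff]
    intro i _
    split_ifs
    · rw [eval_sub, eval_X, eval_C]
      intro h
      rw [sub_eq_zero.1 h] at hy
      exact absurd hz (not_le.2 hy)
    · rw [eval_one]; exact one_ne_zero

theorem coeff_prod_le {ι : Type*} (s : Finset ι) (f : ι → ℂ[X]) (d : ι → ℕ)
    (h : ∀ i ∈ s, (f i).natDegree ≤ d i) :
    (∏ i ∈ s, f i).coeff (∑ i ∈ s, d i) = ∏ i ∈ s, (f i).coeff (d i) := by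
  classical
  induction s using Finset.induction_on with
  | empty => simp
  | insert a s ha ih =>
    rw [Finset.prod_insert ha, Finset.sum_insert ha, Finset.prod_insert ha]
    have h1 : (∏ i ∈ s, f i).natDegree ≤ ∑ i ∈ s, d i := by
      refine (natDegree_prod_le _ _).trans (Finset.sum_le_sum fun i hi => ?_)
      exact h i (Finset.mem_insert_of_mem hi)
    rw [coeff_mul_add_eq_of_natDegree_le (h a (Finset.mem_insert_self _ _)) h1,
      ih fun i hi => h i (Finset.mem_insert_of_mem hi)]

/-- the matrix of the top coefficients -/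
theorem coeff_det {B : Matrix n n ℂ[X]} {m : n → ℕ} (hT : Typed m B) :
    B.det.coeff (2 * ∑ i, m i) =
      (Matrix.of fun i j => (B i j).coeff (m i + m j) : Matrix n n ℂ).det := by
  rw [Matrix.det_apply, Matrix.det_apply, Polynomial.finset_sum_coeff]
  refine Finset.sum_congr rfl fun σ _ => ?_
  rw [Polynomial.coeff_smul]
  congr 1
  have h1 : 2 * ∑ i, m i = ∑ i, (m (σ i) + m i) := by
    rw [Finset.sum_add_distrib, Equiv.sum_comp σ m, two_mul]
  rw [h1, coeff_prod_le _ _ _ fun i _ => hT (σ i) i]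
  rfl

theorem reduce_const {B : Matrix n n ℂ[X]} (hB : Psd B) (hd : B.det ≠ 0) {m : n → ℕ}
    (hT : Typed m B) (hm : B.det.natDegree < 2 * ∑ i, m i) :
    ∃ (P B' : Matrix n n ℂ[X]) (m' : n → ℕ), B = sm P * B' * P ∧ Psd B' ∧ B'.det ≠ 0 ∧
      Typed m' B' ∧ ∑ i, m' i < ∑ i, m i ∧ ∀ y : ℂ, y.im < 0 → P.det.eval y ≠ 0 := by
  classical
  have hroot : (Matrix.of fun i j => (B i j).coeff (m i + m j) : Matrix n n ℂ).det = 0 := by
    rw [← coeff_det hT]
    exact coeff_eq_zero_of_natDegree_lt hm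
  obtain ⟨v, hv0, hv⟩ := Matrix.exists_mulVec_eq_zero_iff.2 hroot
  obtain ⟨i₀, hi₀, hmax⟩ : ∃ i₀, v i₀ ≠ 0 ∧ ∀ j, v j ≠ 0 → m j ≤ m i₀ := by
    have hne : (Finset.univ.filter fun i => v i ≠ 0).Nonempty := by
      obtain ⟨i, hi⟩ := Function.ne_iff.1 hv0
      exact ⟨i, by simpa using hi⟩
    obtain ⟨i, hi, h⟩ := Finset.exists_max_image _ m hne
    exact ⟨i, by simpa using hi, fun j hj => h j (by simpa using hj)⟩
  set w : n → ℂ[X] := fun i => C (v i) * X ^ (m i₀ - m i) with hw
  have hwi : w i₀ = C (v i₀) := by rw [hw]; simp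
  have hwd : ∀ j, w j ≠ 0 → (w j).natDegree + m j ≤ m i₀ := by
    intro j hj
    have hvj : v j ≠ 0 := by
      intro h; apply hj; rw [hw]; simp [h]
    have h1 := hmax j hvj
    have h2 : (w j).natDegree ≤ m i₀ - m j := by
      rw [hw]; exact natDegree_C_mul_X_pow_le _ _
    omega
  have hcoeff : ∀ i, ((B *ᵥ w) i).coeff (m i + m i₀) = 0 := by
    intro i
    rw [Matrix.mulVec, dotProduct, finset_sum_coeff]
    have h1 := congrFun hv i
    rw [Matrix.mulVec, dotProduct] at h1
    rw [Pi.zero_apply] at h1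
    rw [← h1]
    refine Finset.sum_congr rfl fun j _ => ?_
    by_cases hvj : v j = 0
    · rw [hw]; simp [hvj]
    · have h2 := hmax j hvj
      have h3 : m i + m i₀ = (m i + m j) + (m i₀ - m j) := by omega
      rw [hw]
      simp only
      rw [h3, coeff_mul_add_eq_of_natDegree_le (hT i j) (natDegree_C_mul_X_pow_le _ _),
        coeff_C_mul_X_pow, if_pos rfl]
      rfl
  have hgd : (crn B w).natDegree ≤ 2 * m i₀ := natDegree_crn hT hwd
  have hgc : (crn B w).coeff (2 * m i₀) = 0 := by
    rw [crn, finset_sum_coeff]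
    refine Finset.sum_eq_zero fun j _ => ?_
    by_cases hvj : v j = 0
    · rw [hw]; simp [hvj]
    · have h2 := hmax j hvj
      have h3 : 2 * m i₀ = (m i₀ - m j) + (m j + m i₀) := by omega
      have h4 : (cj (w j)).natDegree ≤ m i₀ - m j := by
        rw [natDegree_cj, hw]; exact natDegree_C_mul_X_pow_le _ _
      rw [h3, coeff_mul_add_eq_of_natDegree_le h4 (natDegree_mulVec hT hwd j), hcoeff, mul_zero]
  have hgne : crn B w ≠ 0 := crn_ne_zero hB hd hi₀ hwi
  have hm0 : 1 ≤ m i₀ := by
    by_contra h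
    have h0 : m i₀ = 0 := by omega
    rw [h0] at hgd hgc
    apply hgne
    rw [eq_C_of_natDegree_le_zero hgd]
    rw [mul_zero] at hgc
    rw [hgc, C_0]
  have hgd1 : (crn B w).natDegree ≤ 2 * (m i₀ - 1) + 1 := by
    rw [natDegree_le_iff_coeff_eq_zero]
    intro N hN
    rcases Nat.lt_or_ge (2 * m i₀) N with h | h
    · exact coeff_eq_zero_of_natDegree_lt (lt_of_le_of_lt hgd h)
    · have : N = 2 * m i₀ := by omega
      rw [this]; exact hgc
  have hgd2 : (crn B w).natDegree ≤ 2 * (m i₀ - 1) := by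
    have h1 := coeff_odd_eq_zero (cj_crn hB i₀ w) (crn_nonneg hB w) hgd1
    rw [natDegree_le_iff_coeff_eq_zero]
    intro N hN
    rcases Nat.lt_or_ge (2 * (m i₀ - 1) + 1) N with h | h
    · exact coeff_eq_zero_of_natDegree_lt (lt_of_le_of_lt hgd1 h)
    · have : N = 2 * (m i₀ - 1) + 1 := by omega
      rw [this]; exact h1
  have hcd : ∀ i, ((B *ᵥ w) i).natDegree ≤ m i + (m i₀ - 1) := by
    intro i
    rw [natDegree_le_iff_coeff_eq_zero]
    intro N hN
    rcases Nat.lt_or_ge (m i + m i₀) N with h | h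
    · exact coeff_eq_zero_of_natDegree_lt (lt_of_le_of_lt (natDegree_mulVec hT hwd i) h)
    · have : N = m i + m i₀ := by omega
      rw [this]; exact hcoeff i
  obtain ⟨P₀, hP1, hP2⟩ := exists_upd_inv (i₀ := i₀) (w := w) hi₀ hwi
  have hmain := eq_of_inv (B := B) hP1
  refine ⟨P₀, sm (upd i₀ w) * B * upd i₀ w, Function.update m i₀ (m i₀ - 1), hmain,
    psd_congr hB _, ?_, ?_, ?_, ?_⟩
  · intro h
    apply hd
    rw [hmain, Matrix.det_mul, Matrix.det_mul, h, mul_zero, zero_mul]
  · intro i j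
    rw [congr_apply hB.sm]
    by_cases hi : i = i₀
    · by_cases hj : j = i₀
      · rw [if_pos hi, if_pos hj, hi, hj, Function.update_self]
        have : (crn B w).natDegree ≤ m i₀ - 1 + (m i₀ - 1) := by omega
        exact this
      · rw [if_pos hi, if_neg hj, hi, Function.update_self, Function.update_of_ne hj,
          natDegree_cj, add_comm]
        exact hcd j
    · by_cases hj : j = i₀
      · rw [if_neg hi, if_pos hj, hj, Function.update_self, Function.update_of_ne hi]
        exact hcd i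
      · rw [if_neg hi, if_neg hj, Function.update_of_ne hi, Function.update_of_ne hj]
        exact hT i j
  · apply Finset.sum_lt_sum
    · intro i _
      by_cases hi : i = i₀
      · rw [hi, Function.update_self]; omega
      · rw [Function.update_of_ne hi]
    · refine ⟨i₀, Finset.mem_univ _, ?_⟩
      rw [Function.update_self]; omega
  · intro y hy
    exact det_ne_of_inv hP1 y

open scoped MatrixOrder in
theorem fejer_riesz_const {B : Matrix n n ℂ[X]} (hB : Psd B) (hd : B.det ≠ 0) {m : n → ℕ}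
    (hT : Typed m B) (hm : ∑ i, m i = 0) :
    ∃ Q : Matrix n n ℂ[X], B = sm Q * Q ∧ ∀ y : ℂ, y.im < 0 → Q.det.eval y ≠ 0 := by
  have hm0 : ∀ i, m i = 0 := fun i => (Finset.sum_eq_zero_iff.1 hm) i (Finset.mem_univ i)
  have hBc : B = (ev ((0 : ℝ) : ℂ) B).map C := by
    refine Matrix.ext fun i j => ?_
    have h1 := hT i j
    rw [hm0, hm0] at h1
    rw [Matrix.map_apply, ev_apply, eq_C_of_natDegree_le_zero h1, eval_C]
  obtain ⟨Q₀, hQ₀⟩ := CStarAlgebra.nonneg_iff_eq_star_mul_self.mp (hB 0).nonneg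
  have hQ : B = sm (Q₀.map C) * (Q₀.map C) := by
    rw [hBc, hQ₀, Matrix.star_eq_conjTranspose, Matrix.map_mul (f := (C : ℂ →+* ℂ[X]))]
    congr 1
    refine Matrix.ext fun i j => ?_
    rw [sm_apply, Matrix.map_apply, Matrix.map_apply, cj_C]
    rfl
  refine ⟨Q₀.map C, hQ, fun y _ => ?_⟩
  have h1 : (Q₀.map C).det = C Q₀.det := by
    have := RingHom.map_det (C : ℂ →+* ℂ[X]) Q₀
    rw [this]; rfl
  have h2 : (Q₀.map C).det ≠ 0 := by
    intro h
    apply hd
    rw [hQ, Matrix.det_mul, h, mul_zero]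
  rw [h1, eval_C]
  intro h
  apply h2
  rw [h1, h, C_0]

/-- **Matrix Fejér–Riesz**, typed version: a matrix polynomial which is positive semidefinite on
the real line, with nonzero determinant, is `Q^* Q` with `det Q` zero free in the open lower half
plane. -/
theorem fejer_riesz {B : Matrix n n ℂ[X]} (hB : Psd B) (hd : B.det ≠ 0) {m : n → ℕ}
    (hT : Typed m B) :
    ∃ Q : Matrix n n ℂ[X], B = sm Q * Q ∧ ∀ y : ℂ, y.im < 0 → Q.det.eval y ≠ 0 := by
  have key : ∀ (k : ℕ) (B : Matrix n n ℂ[X]) (m : n → ℕ), Psd B → B.det ≠ 0 → Typed m B →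
      ∑ i, m i = k →
      ∃ Q : Matrix n n ℂ[X], B = sm Q * Q ∧ ∀ y : ℂ, y.im < 0 → Q.det.eval y ≠ 0 := by
    intro k
    induction k using Nat.strong_induction_on with
    | _ k ih =>
      intro B m hB hd hT hk
      have fin : (∃ (P B' : Matrix n n ℂ[X]) (m' : n → ℕ), B = sm P * B' * P ∧ Psd B' ∧
          B'.det ≠ 0 ∧ Typed m' B' ∧ ∑ i, m' i < ∑ i, m i ∧
          ∀ y : ℂ, y.im < 0 → P.det.eval y ≠ 0) →
          ∃ Q : Matrix n n ℂ[X], B = sm Q * Q ∧ ∀ y : ℂ, y.im < 0 → Q.det.eval y ≠ 0 := by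
        rintro ⟨P, B', m', h1, h2, h3, h4, h5, h6⟩
        obtain ⟨Q, hQ1, hQ2⟩ := ih _ (hk ▸ h5) B' m' h2 h3 h4 rfl
        refine ⟨Q * P, ?_, fun y hy => ?_⟩
        · rw [sm_mul, h1, hQ1]
          simp only [Matrix.mul_assoc]
        · rw [Matrix.det_mul, eval_mul]
          exact mul_ne_zero (hQ2 y hy) (h6 y hy)
      by_cases hroot : ∃ z : ℂ, B.det.eval z = 0
      · obtain ⟨z, hz⟩ := hroot
        apply fin
        rcases le_total 0 z.im with h | h
        · exact reduce_root hB hd hT h hz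
        · refine reduce_root hB hd hT (z := (starRingEnd ℂ) z) ?_ ?_
          · rw [Complex.conj_im]; linarith
          · have h1 : cj B.det = B.det := by rw [← det_sm, hB.sm]
            rw [← h1, eval_cj, hz, map_zero]
      · have hdeg : B.det.natDegree = 0 := by
          by_contra h
          apply hroot
          obtain ⟨z, hz⟩ := Complex.exists_root (f := B.det) (natDegree_pos_iff_degree_pos.1
            (Nat.pos_of_ne_zero h))
          exact ⟨z, hz⟩
        rcases Nat.eq_zero_or_pos (∑ i, m i) with h0 | h0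
        · exact fejer_riesz_const hB hd hT h0
        · apply fin
          refine reduce_const hB hd hT ?_
          rw [hdeg]; omega
  exact key _ B m hB hd hT rfl

end Vale.Agent.P256.H909
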