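import Vale.Agent.P256.H909.Tern

/-! **The Hermitian Helton–Vinnikov theorem**: on every subspace `span (e, a, b)` a polynomial
which is hyperbolic with respect to `e` is a definite Hermitian determinant. -/

set_option linter.all false

namespace Vale.Agent.P256.H909

open Polynomial Matrix Filter Topology
open scoped ComplexOrder

theorem Rep.mul {p q : MvPolynomial (Fin 3) ℝ} (hp : Rep p) (hq : Rep q) : Rep (p * q) := by
  obtain ⟨d₁, c₁, A₁, G₁, hA₁, hG₁, h₁⟩ := hp
  obtain ⟨d₂, c₂, A₂, G₂, hA₂, hG₂, h₂⟩ := hq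
  refine ⟨d₁ + d₂, c₁ * c₂,
    (Matrix.fromBlocks A₁ 0 0 A₂).submatrix finSumFinEquiv.symm finSumFinEquiv.symm,
    (Matrix.fromBlocks G₁ 0 0 G₂).submatrix finSumFinEquiv.symm finSumFinEquiv.symm,
    ?_, ?_, ?_⟩
  · exact (Matrix.IsHermitian.fromBlocks hA₁ (by simp) hA₂).submatrix _
  · exact (Matrix.IsHermitian.fromBlocks hG₁ (by simp) hG₂).submatrix _
  · intro t s u
    have h3 : (t : ℂ) • (1 : Matrix (Fin (d₁ + d₂)) (Fin (d₁ + d₂)) ℂ) +
        (s : ℂ) • (Matrix.fromBlocks A₁ 0 0 A₂).submatrix finSumFinEquiv.symm finSumFinEquiv.symm +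
        (u : ℂ) • (Matrix.fromBlocks G₁ 0 0 G₂).submatrix finSumFinEquiv.symm
          finSumFinEquiv.symm =
        (Matrix.fromBlocks ((t : ℂ) • (1 : Matrix (Fin d₁) (Fin d₁) ℂ) + (s : ℂ) • A₁ +
          (u : ℂ) • G₁) 0 0 ((t : ℂ) • (1 : Matrix (Fin d₂) (Fin d₂) ℂ) + (s : ℂ) • A₂ +
          (u : ℂ) • G₂)).submatrix finSumFinEquiv.symm finSumFinEquiv.symm := by
      rw [← Matrix.submatrix_one_equiv finSumFinEquiv.symm, ← Matrix.fromBlocks_one]
      have h4 : ∀ (M₁ M₂ M₃ : Matrix (Fin d₁ ⊕ Fin d₂) (Fin d₁ ⊕ Fin d₂) ℂ) (x y z : ℂ)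
          (f : Fin (d₁ + d₂) → Fin d₁ ⊕ Fin d₂),
          x • M₁.submatrix f f + y • M₂.submatrix f f + z • M₃.submatrix f f =
            (x • M₁ + y • M₂ + z • M₃).submatrix f f := fun _ _ _ _ _ _ _ => rfl
      rw [h4, Matrix.fromBlocks_smul, Matrix.fromBlocks_smul, Matrix.fromBlocks_smul,
        Matrix.fromBlocks_add, Matrix.fromBlocks_add]
      simp only [smul_zero, add_zero]
    rw [h3, Matrix.det_submatrix_equiv_self, Matrix.det_fromBlocks_zero₂₁, map_mul,
      Complex.ofReal_mul, h₁, h₂]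
    push_cast
    ring

theorem Rep.neg {p : MvPolynomial (Fin 3) ℝ} (hp : Rep (-p)) : Rep p := by
  obtain ⟨d, c, A, G, hA, hG, h⟩ := hp
  refine ⟨d, -c, A, G, hA, hG, fun t s u => ?_⟩
  have := h t s u
  rw [map_neg, Complex.ofReal_neg] at this
  rw [← neg_neg ((MvPolynomial.eval (t • e3 + s • a3 + u • b3) p : ℝ) : ℂ), this]
  push_cast
  ring

theorem Rep.const (a : ℝ) : Rep (MvPolynomial.C a) := by
  refine ⟨0, a, 0, 0, by simp [Matrix.IsHermitian], by simp [Matrix.IsHermitian], fun t s u => ?_⟩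
  rw [MvPolynomial.eval_C, Matrix.det_isEmpty, mul_one]

theorem rep_of_hyp {p : MvPolynomial (Fin 3) ℝ} (hp : IsHyperbolic p e3) : Rep p := by
  have key : ∀ a : MvPolynomial (Fin 3) ℝ, ∀ b, p = a * b → Rep a := by
    intro a
    refine WfDvdMonoid.induction_on_irreducible a ?_ ?_ ?_
    · intro b hb
      exfalso
      have := hp.2.1
      rw [hb, zero_mul, map_zero] at this
      exact lt_irrefl _ this
    · intro u hu b hb
      obtain ⟨r, hr, rfl⟩ := MvPolynomial.isUnit_iff_eq_C_of_isReduced.1 hu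
      exact Rep.const r
    · intro a i ha hi ih b hb
      refine Rep.mul ?_ (ih (i * b) (by rw [hb]; ring))
      have h1 : p = i * (a * b) := by rw [hb]; ring
      have h2 : IsHyperbolic (i * (a * b)) e3 := h1 ▸ hp
      rcases Vale.Agent.P256.H387.hyp_of_mul h2 with h | h
      · exact rep_irreducible h hi
      · exact (rep_irreducible h
          ((Associated.neg_left (Associated.refl i)).symm.irreducible hi)).neg
  exact key p 1 (mul_one p).symm

/-- the restriction of a polynomial to `span (e, a, b)` -/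
noncomputable def restr {n : ℕ} (p : MvPolynomial (Fin n) ℝ) (e a b : Fin n → ℝ) :
    MvPolynomial (Fin 3) ℝ :=
  MvPolynomial.aeval (fun i => MvPolynomial.C (e i) * MvPolynomial.X 0 +
    MvPolynomial.C (a i) * MvPolynomial.X 1 + MvPolynomial.C (b i) * MvPolynomial.X 2) p

theorem aeval_restr {n : ℕ} {A : Type*} [CommRing A] [Algebra ℝ A] (p : MvPolynomial (Fin n) ℝ)
    (e a b : Fin n → ℝ) (y : Fin 3 → A) :
    MvPolynomial.aeval y (restr p e a b) = MvPolynomial.aeval (fun i =>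
      algebraMap ℝ A (e i) * y 0 + algebraMap ℝ A (a i) * y 1 + algebraMap ℝ A (b i) * y 2) p := by
  unfold restr
  induction p using MvPolynomial.induction_on with
  | C c => simp
  | add p q hp hq => simp only [map_add, hp, hq]
  | mul_X p i hp =>
    rw [map_mul, map_mul, hp, map_mul, MvPolynomial.aeval_X, MvPolynomial.aeval_X]
    congr 1
    simp

theorem eval_restr {n : ℕ} (p : MvPolynomial (Fin n) ℝ) (e a b : Fin n → ℝ) (t s u : ℝ) :
    MvPolynomial.eval (t • e3 + s • a3 + u • b3) (restr p e a b) =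
      MvPolynomial.eval (t • e + s • a + u • b) p := by
  have h := aeval_restr (A := ℝ) p e a b (t • e3 + s • a3 + u • b3)
  rw [MvPolynomial.aeval_eq_eval, MvPolynomial.aeval_eq_eval] at h
  have h' : MvPolynomial.eval (t • e3 + s • a3 + u • b3) (restr p e a b) =
      MvPolynomial.eval (fun i => algebraMap ℝ ℝ (e i) * (t • e3 + s • a3 + u • b3) 0 +
        algebraMap ℝ ℝ (a i) * (t • e3 + s • a3 + u • b3) 1 +
        algebraMap ℝ ℝ (b i) * (t • e3 + s • a3 + u • b3) 2) p := h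
  rw [h']
  congr 1
  congr 1
  funext i
  simp [e3, a3, b3]
  ring

theorem restr_homog {n : ℕ} {p : MvPolynomial (Fin n) ℝ} {d : ℕ} (hp : p.IsHomogeneous d)
    (e a b : Fin n → ℝ) : (restr p e a b).IsHomogeneous d := by
  have h := MvPolynomial.IsHomogeneous.aeval hp (fun i => MvPolynomial.C (e i) *
    MvPolynomial.X 0 + MvPolynomial.C (a i) * MvPolynomial.X 1 + MvPolynomial.C (b i) *
    MvPolynomial.X 2 : Fin n → MvPolynomial (Fin 3) ℝ) (n := 1) ?_
  · rwa [one_mul] at h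
  · intro i
    have h1 : ∀ (c : ℝ) (j : Fin 3), (MvPolynomial.C c * MvPolynomial.X j).IsHomogeneous 1 := by
      intro c j
      have := (MvPolynomial.isHomogeneous_C (Fin 3) c).mul (MvPolynomial.isHomogeneous_X ℝ j)
      rwa [zero_add] at this
    exact ((h1 _ _).add (h1 _ _)).add (h1 _ _)

theorem restr_hyp {n : ℕ} {p : MvPolynomial (Fin n) ℝ} {e : Fin n → ℝ} (hp : IsHyperbolic p e)
    (a b : Fin n → ℝ) : IsHyperbolic (restr p e a b) e3 := by
  obtain ⟨⟨d, hd⟩, h1, h2⟩ := hp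
  refine ⟨⟨d, restr_homog hd e a b⟩, ?_, ?_⟩
  · have := eval_restr p e a b 1 0 0
    simp only [one_smul, zero_smul, add_zero] at this
    rw [this]; exact h1
  · intro x t h
    rw [aeval_restr] at h
    apply h2 (x 0 • e + x 1 • a + x 2 • b) t
    rw [← h]
    congr 2
    funext i
    simp [e3]
    ring

/-- **The Hermitian Helton–Vinnikov theorem.** -/
theorem helton_vinnikov {n : ℕ} {p : MvPolynomial (Fin n) ℝ} {e : Fin n → ℝ}
    (hp : IsHyperbolic p e) {d : ℕ} (hd : p.IsHomogeneous d) (a b : Fin n → ℝ) :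
    ∃ A G : Matrix (Fin d) (Fin d) ℂ, A.IsHermitian ∧ G.IsHermitian ∧
      ∀ t s u : ℝ, ((MvPolynomial.eval (t • e + s • a + u • b) p : ℝ) : ℂ) =
        ((MvPolynomial.eval e p : ℝ) : ℂ) *
          ((t : ℂ) • (1 : Matrix (Fin d) (Fin d) ℂ) + (s : ℂ) • A + (u : ℂ) • G).det := by
  obtain ⟨D, c, A, G, hA, hG, h⟩ := rep_of_hyp (restr_hyp hp a b)
  have h1 : ∀ t : ℝ, ((MvPolynomial.eval (t • e) p : ℝ) : ℂ) = c * (t : ℂ) ^ D := by
    intro t
    have := h t 0 0
    rw [eval_restr] at this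
    simpa [Matrix.det_smul] using this
  have hc : ((MvPolynomial.eval e p : ℝ) : ℂ) = c := by
    have := h1 1
    simpa using this
  have hDd : D = d := by
    have h2 := h1 2
    rw [eval_smul' hd, ← hc] at h2
    have h3 : (2 : ℝ) ^ d * MvPolynomial.eval e p = MvPolynomial.eval e p * 2 ^ D := by
      exact_mod_cast h2
    have h4 : (2 : ℝ) ^ d = 2 ^ D := by
      have he := hp.2.1.ne'
      apply mul_right_cancel₀ he
      rw [h3, mul_comm]
    exact (pow_right_injective₀ (by norm_num : (0 : ℝ) < 2) (by norm_num) h4).symm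
  subst hDd
  refine ⟨A, G, hA, hG, fun t s u => ?_⟩
  rw [← eval_restr, h, hc]

end Vale.Agent.P256.H909
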