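import Vale.Agent.P256.H909.PencilN
import Vale.Agent.P256.H283.Gauge

/-!
# P256, n = 4 (helper909): Nash Hermitian pencils along a pencil of planes

Glue of `pencil_fun` (meromorphic algebraic Hermitian pencils) and `H283.pencil_gauge`.
-/

set_option linter.all false

namespace Vale.Agent.P256.H909

open Polynomial Matrix Filter Topology Vale.Agent.P256.H283

variable {n : ℕ}

/-- **Helton–Vinnikov with a parameter.** `p` hyperbolic with respect to `e`, homogeneous of degree
`d`; `f, g, k` arbitrary vectors such that on some plane of the family the polynomial has only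
simple roots in direction `e` at some point with `f`-coordinate `1`. Then near the parameter
`0` there is a Hermitian pencil of size `d` with constant diagonal matrix at `f` and an analytic
algebraic matrix at `s g + k`. -/
theorem hvn {p : MvPolynomial (Fin n) ℝ} {e f g k : Fin n → ℝ}
    (hp : IsHyperbolic p e) {d : ℕ} (hd : p.IsHomogeneous d)
    (hgen : ∃ s u : ℝ, ∀ t : ℝ, MvPolynomial.eval (f + u • (k + s • g) + t • e) p = 0 →
      dd p (f + u • (k + s • g) + t • e) e ≠ 0) :
    ∃ (β : Fin d → ℝ) (G : ℝ → Matrix (Fin d) (Fin d) ℂ), NM 0 G ∧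
      (∀ᶠ s in 𝓝 (0 : ℝ), (G s).IsHermitian) ∧
      ∀ᶠ s in 𝓝 (0 : ℝ), ∀ t x u : ℝ,
        ((MvPolynomial.eval (t • e + x • f + u • (s • g + k)) p : ℝ) : ℂ) =
        ((MvPolynomial.eval e p : ℝ) : ℂ) * ((t : ℂ) • (1 : Matrix (Fin d) (Fin d) ℂ) +
          (x : ℂ) • Matrix.diagonal (fun i => (β i : ℂ)) + (u : ℂ) • G s).det := by
  obtain ⟨A, G, hA, hG, hA2, hG2, h⟩ := pencil_fun hp hd hgen
  have hAm : MMe 0 (fun s : ℝ => A s) := fun i j =>
    NMe.of_mer (s₀ := 0) (F := fun z => A z i j) (by rw [Complex.ofReal_zero]; exact hA i j)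
      (by rw [Complex.ofReal_zero]; exact hA2 i j)
  have hGm : MMe 0 (fun s : ℝ => G s) := fun i j =>
    NMe.of_mer (s₀ := 0) (F := fun z => G z i j) (by rw [Complex.ofReal_zero]; exact hG i j)
      (by rw [Complex.ofReal_zero]; exact hG2 i j)
  refine pencil_gauge (s₀ := 0) (p := p) (e := e) (f := f) (g := g) (k := k) hd hp.2.1.ne'
    (A := fun s : ℝ => -A s) (G := fun s : ℝ => -G s) hAm.neg hGm.neg
    (h.mono fun s hs => hs.1.neg) (h.mono fun s hs => hs.2.1.neg) ?_
  filter_upwards [h] with s hs t u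
  have h1 := hs.2.2 t u
  have h2 : t • e + (1 : ℝ) • f + u • (s • g + k) = t • e + f + u • (k + s • g) := by
    rw [one_smul, add_comm (s • g) k]
  rw [qe, h2, h1, sub_eq_add_neg, sub_eq_add_neg, smul_neg]

end Vale.Agent.P256.H909
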