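import Vale.Agent.P256.H909.Nash

/-! The field of germs of algebraic (Nash) meromorphic functions. -/

set_option linter.all false

namespace Vale.Agent.P256.H909

open Polynomial Matrix Filter Topology Vale.Agent.P256.H230
open scoped ComplexOrder

/-- complex polynomials in the coordinate as germs -/
noncomputable def ic : ℂ[X] →+* MG where
  toFun q := MG.mk (fun z => q.eval z) (q.differentiable.analyticAt 0).meromorphicAt
  map_one' := Subtype.ext (by
    change (((fun z => (1 : ℂ[X]).eval z) : ℂ → ℂ) : Germ l0 ℂ) = _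
    simp only [eval_one]; rfl)
  map_mul' a b := Subtype.ext (by
    change (((fun z => (a * b).eval z) : ℂ → ℂ) : Germ l0 ℂ) = _
    simp only [eval_mul]; rfl)
  map_zero' := Subtype.ext (by
    change (((fun z => (0 : ℂ[X]).eval z) : ℂ → ℂ) : Germ l0 ℂ) = _
    simp only [eval_zero]; rfl)
  map_add' a b := Subtype.ext (by
    change (((fun z => (a + b).eval z) : ℂ → ℂ) : Germ l0 ℂ) = _
    simp only [eval_add]; rfl)

theorem ic_rep (q : ℂ[X]) : (ic q).rep =ᶠ[l0] fun z => q.eval z :=
  MG.rep_mk (q.differentiable.analyticAt 0).meromorphicAt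

theorem ic_map (q : ℝ[X]) : ic (q.map (algebraMap ℝ ℂ)) = io q := by
  refine MG.ext_rep ?_
  filter_upwards [ic_rep (q.map (algebraMap ℝ ℂ)), io_rep q] with z h1 h2
  rw [h1, h2, evC_eq]

theorem ic_injective : Function.Injective ic := by
  rw [injective_iff_map_eq_zero]
  intro q hq
  have h1 : ∀ᶠ z in l0, q.eval z = 0 := by
    filter_upwards [ic_rep q, MG.rep_zero] with z h2 h3
    rw [← h2, hq, h3]; rfl
  by_contra hne
  have hfin : {z : ℂ | q.eval z = 0}.Finite := by
    refine (q.roots.toFinset.finite_toSet).subset fun z hz => ?_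
    rw [Finset.mem_coe, Multiset.mem_toFinset, mem_roots hne]
    exact hz
  have hcl : IsClosed ({z : ℂ | q.eval z = 0} \ {0}) :=
    (hfin.subset Set.diff_subset).isClosed
  have h3 : ∀ᶠ z in l0, z ∉ ({z : ℂ | q.eval z = 0} \ {0}) :=
    nhdsWithin_le_nhds (hcl.isOpen_compl.mem_nhds (by simp))
  obtain ⟨z, hz1, hz2, hz3⟩ := (h1.and (h3.and self_mem_nhdsWithin)).exists
  exact hz2 ⟨hz1, hz3⟩

/-- germs as an algebra over polynomials -/
noncomputable scoped instance algMG : Algebra ℂ[X] MG := ic.toAlgebra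

theorem algMG_eq : algebraMap ℂ[X] MG = ic := rfl

noncomputable scoped instance faithMG : FaithfulSMul ℂ[X] MG :=
  (faithfulSMul_iff_algebraMap_injective ℂ[X] MG).2 ic_injective

theorem isAlg_zero : IsAlgebraic ℂ[X] (0 : MG) := isAlgebraic_zero

/-- the field of germs of algebraic functions -/
noncomputable def KN : Subfield MG where
  carrier := {φ | IsAlgebraic ℂ[X] φ}
  mul_mem' := fun ha hb => IsAlgebraic.mul ha hb
  one_mem' := isAlgebraic_one
  add_mem' := fun ha hb => IsAlgebraic.add ha hb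
  zero_mem' := isAlgebraic_zero
  neg_mem' := fun ha => IsAlgebraic.neg ha
  inv_mem' := fun _ ha => IsAlgebraic.inv ha

theorem mem_KN {φ : MG} : φ ∈ KN ↔ IsAlgebraic ℂ[X] φ := Iff.rfl

theorem ic_mem (q : ℂ[X]) : ic q ∈ KN := isAlgebraic_algebraMap q

theorem star_ic (q : ℂ[X]) : star (ic q) = ic (q.map (starRingEnd ℂ)) := by
  refine MG.ext_rep ?_
  filter_upwards [MG.rep_star (ic q), tendsto_star_l0.eventually (ic_rep q),
    ic_rep (q.map (starRingEnd ℂ))] with z h1 h2 h3
  rw [h1, cstar, h2, h3]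
  have := eval_map_star q (star z)
  rw [star_star] at this
  exact this.symm

theorem star_mem {φ : MG} (h : φ ∈ KN) : star φ ∈ KN := by
  obtain ⟨P, hP, hP0⟩ := h
  refine ⟨P.map (mapRingHom (starRingEnd ℂ)), ?_, ?_⟩
  · intro h0
    apply hP
    have hinj : Function.Injective (mapRingHom (starRingEnd ℂ) : ℂ[X] →+* ℂ[X]) := by
      rw [coe_mapRingHom]
      exact Polynomial.map_injective _ (starRingEnd ℂ).injective
    exact (Polynomial.map_eq_zero_iff hinj).1 h0
  · rw [aeval_def, eval₂_map]
    have h1 : (algebraMap ℂ[X] MG).comp (mapRingHom (starRingEnd ℂ)) =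
        (starRingEnd MG).comp (algebraMap ℂ[X] MG) := by
      refine RingHom.ext fun q => ?_
      rw [RingHom.comp_apply, RingHom.comp_apply, coe_mapRingHom, algMG_eq]
      exact (star_ic _).symm
    rw [h1]
    have h2 : star φ = (starRingEnd MG) φ := rfl
    rw [h2, ← hom_eval₂, ← aeval_def, hP0, map_zero]

noncomputable instance starKN : StarRing KN where
  star φ := ⟨star φ.1, star_mem φ.2⟩
  star_involutive φ := Subtype.ext (star_star φ.1)
  star_mul φ ψ := Subtype.ext (star_mul φ.1 ψ.1)
  star_add φ ψ := Subtype.ext (star_add φ.1 ψ.1)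

theorem star_KN (a : KN) : algebraMap KN MG (star a) = star (algebraMap KN MG a) := rfl

/-- polynomials as algebraic germs -/
noncomputable def icN : ℂ[X] →+* KN := ic.codRestrict KN ic_mem

noncomputable scoped instance algKN : Algebra ℂ[X] KN := icN.toAlgebra

scoped instance towerKN : IsScalarTower ℂ[X] KN MG := IsScalarTower.of_algebraMap_eq fun _ => rfl

theorem isAlg_KN (a : KN) : IsAlgebraic ℂ[X] a := by
  have h : IsAlgebraic ℂ[X] (algebraMap KN MG a) := a.2
  exact (isAlgebraic_algebraMap_iff (algebraMap KN MG).injective).1 h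

scoped instance algebraicKN : Algebra.IsAlgebraic ℂ[X] KN := ⟨isAlg_KN⟩

theorem KN_closed (x : MG) (h : IsIntegral KN x) : x ∈ Set.range (algebraMap KN MG) := by
  have h1 : IsAlgebraic ℂ[X] x := h.isAlgebraic.restrictScalars ℂ[X]
  exact ⟨⟨x, h1⟩, rfl⟩

theorem aniso_KN : Aniso KN := aniso_descent star_KN MG.aniso

theorem sumNorm_KN (hS : SumNorm MG[X]) : SumNorm KN[X] := sumNorm_descent star_KN KN_closed hS

end Vale.Agent.P256.H909
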