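import Vale.Agent.P256.H909.FR2

/-! From `H C = C^* H`, `H = Q^* Q`, to a Hermitian pencil `M = Q C Q⁻¹`. -/

set_option linter.all false

namespace Vale.Agent.P256.H909

open Polynomial Matrix Filter Topology
open scoped ComplexOrder

variable {n : Type*} [Fintype n] [DecidableEq n]

theorem sm_smul (g : ℂ[X]) (B : Matrix n n ℂ[X]) : sm (g • B) = cj g • sm B := by
  refine Matrix.ext fun i j => ?_
  rw [sm_apply, Matrix.smul_apply, Matrix.smul_apply, sm_apply, smul_eq_mul, map_mul, smul_eq_mul]

/-- clearing the poles -/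
theorem dvd_of_identities (k : ℕ) : ∀ (δ : ℂ[X]) (N : Matrix n n ℂ[X]) (T : ℂ[X]),
    δ.natDegree = k → δ ≠ 0 → (∀ y : ℂ, y.im < 0 → δ.eval y ≠ 0) →
    (∀ i j, cj δ * N i j = δ * cj (N j i)) →
    (∑ i, ∑ j, N i j * cj (N i j) = δ * cj δ * T) → ∀ i j, δ ∣ N i j := by
  induction k with
  | zero =>
    intro δ N T hk h0 hδ h1 h2 i j
    have := eq_C_of_natDegree_le_zero hk.le
    rw [this] at h0 ⊢
    have hc : δ.coeff 0 ≠ 0 := fun h => h0 (by rw [h, C_0])
    exact ⟨C (δ.coeff 0)⁻¹ * N i j, by
      rw [← mul_assoc, ← C_mul, mul_inv_cancel₀ hc, C_1, one_mul]⟩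
  | succ k ih =>
    intro δ N T hk h0 hδ h1 h2
    obtain ⟨z, hz⟩ := Complex.exists_root (f := δ) (natDegree_pos_iff_degree_pos.1
      (by omega))
    obtain ⟨δ', hδ'⟩ := dvd_iff_isRoot.2 hz
    have hzim : 0 ≤ z.im := by
      by_contra h
      exact hδ z (not_le.1 h) hz
    have hN0 : ∀ i j, (N i j).eval z = 0 := by
      intro i j
      rcases hzim.lt_or_eq with h | h
      · have h3 : (cj δ).eval z ≠ 0 := by
          rw [eval_cj']
          intro h4
          apply hδ ((starRingEnd ℂ) z)
          · rw [Complex.conj_im]; linarith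
          · have := congrArg (starRingEnd ℂ) h4
            rwa [Complex.conj_conj, map_zero] at this
        have h4 := congrArg (fun g => g.eval z) (h1 i j)
        simp only [eval_mul] at h4
        rw [show δ.eval z = 0 from hz, zero_mul] at h4
        exact (mul_eq_zero.1 h4).resolve_left h3
      · have hzr : ((z.re : ℝ) : ℂ) = z := by
          apply Complex.ext
          · simp
          · simp [← h]
        have h4 := congrArg (fun g => (g.eval z).re) h2
        simp only [Polynomial.eval_finset_sum, eval_mul] at h4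
        rw [show δ.eval z = 0 from hz, zero_mul, zero_mul, Complex.zero_re, Complex.re_sum] at h4
        have h5 : ∀ i j, ((N i j).eval z * (cj (N i j)).eval z).re =
            Complex.normSq ((N i j).eval z) := by
          intro i j
          conv_lhs => rw [← hzr, eval_cj_real, Complex.mul_conj, Complex.ofReal_re]
          rw [hzr]
        simp only [Complex.re_sum, h5] at h4
        have h6 := (Finset.sum_eq_zero_iff_of_nonneg (fun i _ => Finset.sum_nonneg fun j _ =>
          Complex.normSq_nonneg _)).1 h4 i (Finset.mem_univ i)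
        have h7 := (Finset.sum_eq_zero_iff_of_nonneg (fun j _ =>
          Complex.normSq_nonneg _)).1 h6 j (Finset.mem_univ j)
        exact Complex.normSq_eq_zero.1 h7
    have hN1 : ∀ i j, ∃ g, N i j = (X - C z) * g := fun i j => dvd_iff_isRoot.2 (hN0 i j)
    choose N' hN' using hN1
    have hX : (X - C z : ℂ[X]) ≠ 0 := X_sub_C_ne_zero z
    have hX' : (X - C ((starRingEnd ℂ) z) : ℂ[X]) ≠ 0 := X_sub_C_ne_zero _
    have hcX : cj (X - C z) = X - C ((starRingEnd ℂ) z) := by rw [map_sub, cj_X, cj_C]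
    have hδ'0 : δ' ≠ 0 := by rintro rfl; exact h0 (by rw [hδ', mul_zero])
    have hdeg : δ'.natDegree = k := by
      rw [hδ', natDegree_mul hX hδ'0, natDegree_X_sub_C] at hk
      omega
    have hfin := ih δ' (Matrix.of N') T hdeg hδ'0 ?_ ?_ ?_
    · intro i j
      rw [hδ', hN']
      exact mul_dvd_mul_left _ (hfin i j)
    · intro y hy h
      apply hδ y hy
      rw [hδ', eval_mul, h, mul_zero]
    · intro i j
      have h3 := h1 i j
      rw [hδ', hN' i j, hN' j i, map_mul, map_mul, hcX] at h3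
      apply mul_left_cancel₀ (mul_ne_zero hX hX')
      rw [Matrix.of_apply, Matrix.of_apply]
      linear_combination h3
    · have h3 : (X - C z) * (X - C ((starRingEnd ℂ) z)) * ∑ i, ∑ j, N' i j * cj (N' i j) =
          (X - C z) * (X - C ((starRingEnd ℂ) z)) * (δ' * cj δ' * T) := by
        have h4 : (X - C z) * (X - C ((starRingEnd ℂ) z)) * ∑ i, ∑ j, N' i j * cj (N' i j) =
            ∑ i, ∑ j, N i j * cj (N i j) := by
          rw [Finset.mul_sum]
          refine Finset.sum_congr rfl fun i _ => ?_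
          rw [Finset.mul_sum]
          refine Finset.sum_congr rfl fun j _ => ?_
          rw [hN' i j, map_mul, hcX]; ring
        rw [h4, h2, hδ', map_mul, hcX]; ring
      exact mul_left_cancel₀ (mul_ne_zero hX hX') h3

/-- coefficients of a matrix in terms of a sum of squares -/
theorem natDegree_of_sum {N : Matrix n n ℂ[X]} {D : ℕ}
    (h : (∑ i, ∑ j, N i j * cj (N i j)).natDegree ≤ 2 * D) : ∀ i j, (N i j).natDegree ≤ D := by
  by_contra hcon
  push Not at hcon
  obtain ⟨i₁, j₁, hij⟩ := hcon
  obtain ⟨p, _, hp⟩ := Finset.exists_max_image (Finset.univ : Finset (n × n))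
    (fun p => (N p.1 p.2).natDegree) ⟨(i₁, j₁), Finset.mem_univ _⟩
  set E := (N p.1 p.2).natDegree with hE
  have hDE : D < E := lt_of_lt_of_le hij (hp (i₁, j₁) (Finset.mem_univ _))
  have hle : ∀ i j, (N i j).natDegree ≤ E := fun i j => hp (i, j) (Finset.mem_univ _)
  have h1 : (∑ i, ∑ j, N i j * cj (N i j)).coeff (E + E) = 0 :=
    coeff_eq_zero_of_natDegree_lt (by omega)
  rw [finset_sum_coeff] at h1
  have h2 : ∀ i, (∑ j, N i j * cj (N i j)).coeff (E + E) =
      ∑ j, ((Complex.normSq ((N i j).coeff E) : ℝ) : ℂ) := by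
    intro i
    rw [finset_sum_coeff]
    refine Finset.sum_congr rfl fun j _ => ?_
    rw [coeff_mul_add_eq_of_natDegree_le (hle i j) (by rw [natDegree_cj]; exact hle i j),
      cj_coeff, Complex.mul_conj]
  simp only [h2] at h1
  have h3 : ∑ i, ∑ j, Complex.normSq ((N i j).coeff E) = 0 := by exact_mod_cast h1
  have h6 := (Finset.sum_eq_zero_iff_of_nonneg (fun i _ => Finset.sum_nonneg fun j _ =>
    Complex.normSq_nonneg _)).1 h3 p.1 (Finset.mem_univ _)
  have h7 := (Finset.sum_eq_zero_iff_of_nonneg (fun j _ =>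
    Complex.normSq_nonneg _)).1 h6 p.2 (Finset.mem_univ _)
  have h8 : (N p.1 p.2).coeff E = 0 := Complex.normSq_eq_zero.1 h7
  have h9 : N p.1 p.2 = 0 := by
    rw [hE, coeff_natDegree, leadingCoeff_eq_zero] at h8
    exact h8
  rw [hE, h9, natDegree_zero] at hDE
  omega

/-- **Hermitian pencil** -/
theorem exists_pencil {H C' : Matrix n n ℂ[X]} (hH : Psd H) (hd : H.det ≠ 0) {m : n → ℕ}
    (hT : Typed m H) (hHC : H * C' = sm C' * H) (htr : (C' * C').trace.natDegree ≤ 2) :
    ∃ Q M : Matrix n n ℂ[X], H = sm Q * Q ∧ Q.det ≠ 0 ∧ Q * C' = M * Q ∧ sm M = M ∧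
      ∀ i j, (M i j).natDegree ≤ 1 := by
  obtain ⟨Q, hQ, hQ0⟩ := fejer_riesz hH hd hT
  set δ := Q.det with hδ
  have hδ0 : δ ≠ 0 := by
    intro h
    apply hd
    rw [hQ, Matrix.det_mul, ← hδ, h, mul_zero]
  set N := Q * C' * Q.adjugate with hN
  have hadj : Q * Q.adjugate = δ • (1 : Matrix n n ℂ[X]) := Matrix.mul_adjugate Q
  have hadj' : Q.adjugate * Q = δ • (1 : Matrix n n ℂ[X]) := Matrix.adjugate_mul Q
  have hsadj : (sm Q).adjugate * sm Q = cj δ • (1 : Matrix n n ℂ[X]) := by
    rw [Matrix.adjugate_mul, det_sm]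
  have hI : cj δ • N = δ • sm N := by
    have h1 : sm Q * N = δ • (sm C' * sm Q) := by
      calc sm Q * N = (sm Q * Q * C') * Q.adjugate := by
            rw [hN]; simp only [Matrix.mul_assoc]
        _ = sm C' * (sm Q * (Q * Q.adjugate)) := by
            rw [← hQ, hHC, hQ]; simp only [Matrix.mul_assoc]
        _ = _ := by rw [hadj, Matrix.mul_smul, Matrix.mul_one, Matrix.mul_smul]
    have h2 : (sm Q).adjugate * (sm Q * N) = cj δ • N := by
      rw [← Matrix.mul_assoc, hsadj, Matrix.smul_mul, Matrix.one_mul]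
    rw [← h2, h1, Matrix.mul_smul, adjugate_sm, ← sm_mul, ← sm_mul]
  have hI' : ∀ i j, cj δ * N i j = δ * cj (N j i) := by
    intro i j
    have := congrFun (congrFun hI i) j
    rwa [Matrix.smul_apply, Matrix.smul_apply, smul_eq_mul, smul_eq_mul, sm_apply] at this
  have hNN : (N * N).trace = δ * δ * (C' * C').trace := by
    have h1 : N * N = δ • (Q * (C' * C') * Q.adjugate) := by
      calc N * N = Q * C' * (Q.adjugate * Q) * C' * Q.adjugate := by
            rw [hN]; simp only [Matrix.mul_assoc]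
        _ = _ := by
            rw [hadj', Matrix.mul_smul, Matrix.mul_one, Matrix.smul_mul, Matrix.smul_mul]
            simp only [Matrix.mul_assoc]
    rw [h1, Matrix.trace_smul, Matrix.trace_mul_comm, ← Matrix.mul_assoc, hadj',
      Matrix.smul_mul, Matrix.one_mul, Matrix.trace_smul, smul_eq_mul, smul_eq_mul, mul_assoc]
  have hII : ∑ i, ∑ j, N i j * cj (N i j) = δ * cj δ * (C' * C').trace := by
    have h1 : δ * ∑ i, ∑ j, N i j * cj (N i j) = cj δ * (N * N).trace := by
      rw [Matrix.trace, Finset.mul_sum, Finset.mul_sum]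
      refine Finset.sum_congr rfl fun i _ => ?_
      rw [Matrix.diag_apply, Matrix.mul_apply, Finset.mul_sum, Finset.mul_sum]
      refine Finset.sum_congr rfl fun j _ => ?_
      have := hI' j i
      linear_combination (- N i j) * this
    apply mul_left_cancel₀ hδ0
    rw [h1, hNN]; ring
  have hdvd := dvd_of_identities _ δ N _ rfl hδ0 hQ0 hI' hII
  choose M hM using hdvd
  have hNM : N = δ • Matrix.of M := by
    refine Matrix.ext fun i j => ?_
    rw [Matrix.smul_apply, Matrix.of_apply, smul_eq_mul]; exact hM i j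
  have hcδ0 : cj δ ≠ 0 := cj_ne_zero hδ0
  refine ⟨Q, Matrix.of M, hQ, hδ0, ?_, ?_, ?_⟩
  · have h1 : δ • (Q * C') = δ • (Matrix.of M * Q) := by
      have h2 : N * Q = δ • (Q * C') := by
        rw [hN, Matrix.mul_assoc, hadj', Matrix.mul_smul, Matrix.mul_one]
      have h3 : N * Q = δ • (Matrix.of M * Q) := by
        rw [hNM, Matrix.smul_mul]
      rw [← h2, h3]
    refine Matrix.ext fun i j => ?_
    have h2 := congrFun (congrFun h1 i) j
    rw [Matrix.smul_apply, Matrix.smul_apply, smul_eq_mul, smul_eq_mul] at h2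
    exact mul_left_cancel₀ hδ0 h2
  · refine Matrix.ext fun i j => ?_
    rw [sm_apply, Matrix.of_apply, Matrix.of_apply]
    have h1 := hI' i j
    rw [hM i j, hM j i, map_mul] at h1
    apply mul_left_cancel₀ (mul_ne_zero hδ0 hcδ0)
    linear_combination -h1
  · apply natDegree_of_sum
    have h1 : ∑ i, ∑ j, (Matrix.of M) i j * cj ((Matrix.of M) i j) = (C' * C').trace := by
      apply mul_left_cancel₀ (mul_ne_zero hδ0 hcδ0)
      rw [← hII, Finset.mul_sum]
      refine Finset.sum_congr rfl fun i _ => ?_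
      rw [Finset.mul_sum]
      refine Finset.sum_congr rfl fun j _ => ?_
      rw [hM i j, Matrix.of_apply, map_mul]; ring
    rw [h1]; exact htr

end Vale.Agent.P256.H909
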