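import Vale.Agent.P256.H909.Asm2

/-! Descent of norms to a relatively algebraically closed subfield, and the field of germs of
Nash meromorphic functions. -/

set_option linter.all false

namespace Vale.Agent.P256.H909

open Polynomial Matrix Filter Topology Vale.Agent.P256.H230
open scoped ComplexOrder

section descent

variable {K L : Type*} [Field K] [Field L] [Algebra K L] [StarRing K] [StarRing L]

theorem lift_monic (hcl : ∀ x : L, IsIntegral K x → x ∈ Set.range (algebraMap K L)) {F : K[X]}
    (hF : F ≠ 0) {q : L[X]} (hq : q.Monic) (hdvd : q ∣ F.map (algebraMap K L)) :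
    ∃ q0 : K[X], q0.map (algebraMap K L) = q := by
  have hl : F.leadingCoeff ≠ 0 := leadingCoeff_ne_zero.2 hF
  have hm : (C F.leadingCoeff⁻¹ * F).Monic := by
    rw [Monic, leadingCoeff_mul, leadingCoeff_C, inv_mul_cancel₀ hl]
  have hd : q ∣ (C F.leadingCoeff⁻¹ * F).map (algebraMap K L) := by
    rw [Polynomial.map_mul]
    exact hdvd.mul_left _
  have h1 := fun i => hcl _ (isIntegral_coeff_of_dvd _ _ hm hq hd i)
  have h2 : q ∈ lifts (algebraMap K L) := (lifts_iff_coeff_lifts q).2 h1
  exact (mem_lifts q).1 h2

variable (hstar : ∀ a : K, algebraMap K L (star a) = star (algebraMap K L a))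

include hstar

theorem map_star (F : K[X]) : (star F).map (algebraMap K L) = star (F.map (algebraMap K L)) := by
  ext i
  rw [coeff_map, coeff_star, coeff_star, coeff_map, hstar]

theorem norm_const (hcl : ∀ x : L, IsIntegral K x → x ∈ Set.range (algebraMap K L))
    (hS : SumNorm L[X]) {l : K} {γ : L} (h : algebraMap K L l = γ * star γ) :
    ∃ b : K, l = b * star b := by
  obtain ⟨c, hc⟩ := hS X (C γ)
  have hF : (X ^ 2 + C l : K[X]).map (algebraMap K L) = c * star c := by
    rw [← hc, star_X, star_C, ← C_mul, Polynomial.map_add, Polynomial.map_pow, map_X, map_C, h,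
      pow_two]
  have hF0 : (X ^ 2 + C l : K[X]) ≠ 0 := (monic_X_pow_add_C l (by norm_num)).ne_zero
  have hdeg : c.natDegree = 1 := by
    have h1 := congrArg natDegree hF
    rw [natDegree_norm, natDegree_map, natDegree_X_pow_add_C] at h1
    omega
  have hc0 : c ≠ 0 := by rintro rfl; simp at hdeg
  set α := c.leadingCoeff with hα
  have hα0 : α ≠ 0 := leadingCoeff_ne_zero.2 hc0
  set q : L[X] := C α⁻¹ * c with hq
  have hqm : q.Monic := by rw [Monic, hq, leadingCoeff_mul, leadingCoeff_C, inv_mul_cancel₀ hα0]
  have hcq : c = C α * q := by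
    rw [hq, ← mul_assoc, ← C_mul, mul_inv_cancel₀ hα0, C_1, one_mul]
  have hdvd : q ∣ (X ^ 2 + C l : K[X]).map (algebraMap K L) := by
    rw [hF, hcq, mul_assoc, mul_left_comm]
    exact dvd_mul_right _ _
  obtain ⟨q0, hq0⟩ := lift_monic hcl hF0 hqm hdvd
  have hsq : (star q).Monic := by
    have h1 : (star q).leadingCoeff = star q.leadingCoeff := by
      rw [leadingCoeff, natDegree_star, coeff_star]; rfl
    rw [Monic, h1, hqm.leadingCoeff, star_one]
  have hαα : α * star α = 1 := by
    have h1 : c * star c = C (α * star α) * (q * star q) := by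
      rw [hcq]
      rw [star_mul, star_C, C_mul]; ring
    have h2 := congrArg leadingCoeff h1
    rw [← hF, leadingCoeff_mul, leadingCoeff_C, (hqm.mul hsq).leadingCoeff, mul_one] at h2
    rw [← h2, ((monic_X_pow_add_C l (by norm_num)).map _).leadingCoeff]
  have hfin : (X ^ 2 + C l : K[X]) = q0 * star q0 := by
    apply Polynomial.map_injective _ (algebraMap K L).injective
    rw [hF, Polynomial.map_mul, map_star hstar, hq0, hcq, star_mul, star_C]
    calc C α * q * (star q * C (star α)) = C (α * star α) * (q * star q) := by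
          rw [C_mul]; ring
      _ = _ := by rw [hαα, C_1, one_mul]
  refine ⟨q0.coeff 0, ?_⟩
  have h1 := congrArg (fun f => f.coeff 0) hfin
  simp only [mul_coeff_zero, coeff_star] at h1
  simpa using h1

theorem descent (hcl : ∀ x : L, IsIntegral K x → x ∈ Set.range (algebraMap K L))
    (hS : SumNorm L[X]) {F : K[X]} {w : L[X]} (h : F.map (algebraMap K L) = w * star w) :
    ∃ w0 : K[X], F = w0 * star w0 := by
  by_cases hw : w = 0
  · refine ⟨0, ?_⟩
    rw [hw, zero_mul] at h
    rw [zero_mul]
    exact (Polynomial.map_eq_zero _).1 h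
  have hsw : star w ≠ 0 := star_ne_zero.2 hw
  have hF0 : F ≠ 0 := by
    rintro rfl
    rw [Polynomial.map_zero] at h
    exact mul_ne_zero hw hsw h.symm
  set γ := w.leadingCoeff with hγ
  have hγ0 : γ ≠ 0 := leadingCoeff_ne_zero.2 hw
  set q : L[X] := C γ⁻¹ * w with hq
  have hqm : q.Monic := by rw [Monic, hq, leadingCoeff_mul, leadingCoeff_C, inv_mul_cancel₀ hγ0]
  have hwq : w = C γ * q := by
    rw [hq, ← mul_assoc, ← C_mul, mul_inv_cancel₀ hγ0, C_1, one_mul]
  have hdvd : q ∣ F.map (algebraMap K L) := by
    rw [h, hwq, mul_assoc, mul_left_comm]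
    exact dvd_mul_right _ _
  obtain ⟨q0, hq0⟩ := lift_monic hcl hF0 hqm hdvd
  have hsl : (star w).leadingCoeff = star γ := by
    rw [leadingCoeff, natDegree_star, coeff_star]; rfl
  have hl : algebraMap K L F.leadingCoeff = γ * star γ := by
    rw [← leadingCoeff_map, h, leadingCoeff_mul, hsl]
  obtain ⟨b, hb⟩ := norm_const hstar hcl hS hl
  refine ⟨C b * q0, ?_⟩
  apply Polynomial.map_injective _ (algebraMap K L).injective
  rw [Polynomial.map_mul, Polynomial.map_mul, map_star hstar, Polynomial.map_mul, map_C, hq0, h,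
    hwq, star_mul (C γ) q, star_mul (C (algebraMap K L b)) q, star_C, star_C]
  have h2 : algebraMap K L b * star (algebraMap K L b) = γ * star γ := by
    rw [← hstar, ← map_mul, ← hb, hl]
  calc C γ * q * (star q * C (star γ)) = C (γ * star γ) * (q * star q) := by
        rw [C_mul]; ring
    _ = C (algebraMap K L b * star (algebraMap K L b)) * (q * star q) := by rw [h2]
    _ = _ := by rw [C_mul]; ring

theorem sumNorm_descent (hcl : ∀ x : L, IsIntegral K x → x ∈ Set.range (algebraMap K L))
    (hS : SumNorm L[X]) : SumNorm K[X] := by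
  intro a b
  obtain ⟨w, hw⟩ := hS (a.map (algebraMap K L)) (b.map (algebraMap K L))
  refine descent hstar hcl hS (w := w) ?_
  rw [Polynomial.map_add, Polynomial.map_mul, Polynomial.map_mul, map_star hstar,
    map_star hstar, hw]

theorem aniso_descent (hA : Aniso L) : Aniso K := by
  intro d a h i
  apply (algebraMap K L).injective
  rw [map_zero]
  refine hA d (fun i => algebraMap K L (a i)) ?_ i
  rw [← map_zero (algebraMap K L), ← h, map_sum]
  refine Finset.sum_congr rfl fun i _ => ?_
  rw [map_mul, hstar]

end descent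

end Vale.Agent.P256.H909
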