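import Vale.Agent.P256.H909.KN
import Vale.Agent.P256.H230.Norm
import Vale.Agent.P256.H230.Pencil

/-! Hermitian pencils over the field of Nash germs. -/

set_option linter.all false

namespace Vale.Agent.P256.H909

open Polynomial Matrix Filter Topology Vale.Agent.P256.H230
open scoped ComplexOrder

/-- real polynomials in the coordinate as algebraic germs -/
noncomputable def ioN : ℝ[X] →+* KN := icN.comp (mapRingHom (algebraMap ℝ ℂ))

theorem ioN_val (q : ℝ[X]) : algebraMap KN MG (ioN q) = io q := by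
  have : algebraMap KN MG (ioN q) = ic (q.map (algebraMap ℝ ℂ)) := rfl
  rw [this, ic_map]

/-- real polynomials in two variables over the field of algebraic germs -/
noncomputable def IoN : ℝ[X][X] →+* KN[X] := mapRingHom ioN

/-- the inclusion of polynomial rings -/
noncomputable def inKM : KN[X] →+* MG[X] := mapRingHom (algebraMap KN MG)

theorem inKM_injective : Function.Injective inKM := by
  rw [inKM, coe_mapRingHom]
  exact Polynomial.map_injective _ (algebraMap KN MG).injective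

theorem inKM_IoN (q : ℝ[X][X]) : inKM (IoN q) = Io q := by
  ext i
  rw [inKM, coe_mapRingHom, coeff_map, IoN, coe_mapRingHom, coeff_map, ioN_val, Io,
    coe_mapRingHom, coeff_map]

theorem inKM_star (q : KN[X]) : inKM (star q) = star (inKM q) := by
  rw [inKM, coe_mapRingHom]
  exact map_star star_KN q

variable {n : ℕ}

/-- the companion matrix over the field of algebraic germs -/
noncomputable def CmN (p : MvPolynomial (Fin n) ℝ) (e f g k : Fin n → ℝ) (d : ℕ) :
    Matrix (Fin d) (Fin d) KN[X] := Gen.cmp fun j => IoN (cf p e f g k j)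

/-- the Hermite matrix over the field of algebraic germs -/
noncomputable def HmN (p : MvPolynomial (Fin n) ℝ) (e f g k : Fin n → ℝ) (d : ℕ) :
    Matrix (Fin d) (Fin d) KN[X] := Gen.hm fun j => IoN (cf p e f g k j)

theorem CmN_map (p : MvPolynomial (Fin n) ℝ) (e f g k : Fin n → ℝ) (d : ℕ) :
    (CmN p e f g k d).map inKM = Cm p e f g k d := by
  rw [CmN, Gen.cmp_map]
  simp only [inKM_IoN]
  rfl

theorem HmN_map (p : MvPolynomial (Fin n) ℝ) (e f g k : Fin n → ℝ) (d : ℕ) :
    (HmN p e f g k d).map inKM = Hm p e f g k d := by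
  rw [HmN, Gen.hm_map]
  simp only [inKM_IoN]
  rfl

theorem map_inj {d : ℕ} {M N : Matrix (Fin d) (Fin d) KN[X]} (h : M.map inKM = N.map inKM) :
    M = N := by
  refine Matrix.ext fun i j => ?_
  have := congrFun (congrFun h i) j
  rw [Matrix.map_apply, Matrix.map_apply] at this
  exact inKM_injective this

theorem map_star_mat {d : ℕ} (M : Matrix (Fin d) (Fin d) KN[X]) :
    Mᴴ.map inKM = (M.map inKM)ᴴ := by
  refine Matrix.ext fun i j => ?_
  rw [Matrix.map_apply, conjTranspose_apply, conjTranspose_apply, Matrix.map_apply, inKM_star]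

theorem HmN_star (p : MvPolynomial (Fin n) ℝ) (e f g k : Fin n → ℝ) (d : ℕ) :
    (HmN p e f g k d)ᴴ = HmN p e f g k d := by
  apply map_inj
  rw [map_star_mat, HmN_map, Hm_star]

theorem HmN_comm (p : MvPolynomial (Fin n) ℝ) (e f g k : Fin n → ℝ) (d : ℕ) :
    HmN p e f g k d * CmN p e f g k d = (CmN p e f g k d)ᴴ * HmN p e f g k d := by
  apply map_inj
  rw [Matrix.map_mul, Matrix.map_mul, map_star_mat, HmN_map, CmN_map, Hm_comm]

theorem CmN_trace {p : MvPolynomial (Fin n) ℝ} {d : ℕ} (hp : p.IsHomogeneous d)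
    (e f g k : Fin n → ℝ) : (CmN p e f g k d * CmN p e f g k d).trace.natDegree ≤ 2 := by
  refine Gen.natDegree_trace_cmp_sq fun i => ?_
  rw [IoN, coe_mapRingHom]
  exact natDegree_map_le.trans (natDegree_cf hp e f g k i)

theorem HmN_det {p : MvPolynomial (Fin n) ℝ} {e f g k : Fin n → ℝ}
    (hp : IsHyperbolic p e) {d : ℕ} (hd : p.IsHomogeneous d)
    (hgen : ∃ s u : ℝ, ∀ t : ℝ, MvPolynomial.eval (f + u • (k + s • g) + t • e) p = 0 →
      dd p (f + u • (k + s • g) + t • e) e ≠ 0) : (HmN p e f g k d).det ≠ 0 := by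
  intro h
  apply Hm_det hp hd hgen
  rw [← HmN_map, ← RingHom.mapMatrix_apply, ← RingHom.map_det, h, map_zero]

theorem HmN_normPsd {p : MvPolynomial (Fin n) ℝ} {e f g k : Fin n → ℝ}
    (hp : IsHyperbolic p e) {d : ℕ} (hd : p.IsHomogeneous d) : NormPsd (HmN p e f g k d) := by
  intro v
  obtain ⟨W, hW, hW2⟩ := Hm_pos (f := f) (g := g) (k := k) hp hd (fun i => inKM (v i))
  obtain ⟨w, hw⟩ := exists_norm (gPos_of_rep hW hW2)
  refine descent star_KN KN_closed MG.sumNorm (w := w) ?_
  rw [← hw]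
  have h1 : (star v ⬝ᵥ (HmN p e f g k d *ᵥ v)).map (algebraMap KN MG) =
      inKM (star v ⬝ᵥ (HmN p e f g k d *ᵥ v)) := rfl
  rw [h1, RingHom.map_dotProduct, ← HmN_map]
  have h2 : inKM ∘ star v = star fun i => inKM (v i) := by
    funext i
    exact inKM_star (v i)
  have h3 : inKM ∘ (HmN p e f g k d *ᵥ v) =
      (HmN p e f g k d).map inKM *ᵥ fun i => inKM (v i) := by
    funext i
    rw [Function.comp_apply, RingHom.map_mulVec]
    rfl
  rw [h2, h3]

/-- **Hermitian pencil over the field of algebraic germs.** -/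
theorem pencil_KN {p : MvPolynomial (Fin n) ℝ} {e f g k : Fin n → ℝ}
    (hp : IsHyperbolic p e) {d : ℕ} (hd : p.IsHomogeneous d)
    (hgen : ∃ s u : ℝ, ∀ t : ℝ, MvPolynomial.eval (f + u • (k + s • g) + t • e) p = 0 →
      dd p (f + u • (k + s • g) + t • e) e ≠ 0) :
    ∃ A G : Matrix (Fin d) (Fin d) KN, Aᴴ = A ∧ Gᴴ = G ∧
      (A.map C + (X : KN[X]) • G.map C).charpoly =
        X ^ d + ∑ i : Fin d, C (IoN (cf p e f g k i)) * X ^ (i : ℕ) := by
  obtain ⟨A, G, hA, hG, h⟩ := H230.exists_pencil aniso_KN (sumNorm_KN MG.sumNorm)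
    (HmN_star p e f g k d) (HmN_normPsd hp hd) (HmN_det hp hd hgen) (HmN_comm p e f g k d)
    (CmN_trace hd e f g k)
  exact ⟨A, G, hA, hG, h.trans (Gen.charpoly_cmp _)⟩

/-! ### translation to functions -/

/-- value of an algebraic germ at a point -/
noncomputable def vl (a : KN) : ℂ → ℂ := (algebraMap KN MG a).rep

theorem vl_mer (a : KN) : MeromorphicAt (vl a) 0 := MG.mer _

theorem vl_alg (a : KN) : ∃ P : ℂ[X][X], P ≠ 0 ∧
    ∀ᶠ z in l0, (P.map (evalRingHom z)).eval (vl a z) = 0 := by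
  obtain ⟨P, hP, hP0⟩ := a.2
  refine ⟨P, hP, ?_⟩
  have h1 : ∀ Q : ℂ[X][X], (aeval (a : MG) Q : MG).rep =ᶠ[l0]
      fun z => (Q.map (evalRingHom z)).eval (vl a z) := by
    intro Q
    induction Q using Polynomial.induction_on' with
    | add Q R hQ hR =>
      rw [map_add]
      filter_upwards [MG.rep_add (aeval (a : MG) Q) (aeval (a : MG) R), hQ, hR] with z h1 h2 h3
      rw [h1, Pi.add_apply, h2, h3, Polynomial.map_add, eval_add]
    | monomial i c =>
      rw [aeval_monomial, algMG_eq]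
      filter_upwards [MG.rep_mul (ic c) ((a : MG) ^ i), ic_rep c, MG.rep_pow (a : MG) i]
        with z h1 h2 h3
      rw [h1, Pi.mul_apply, h2, h3, map_monomial, eval_monomial]
      rfl
  filter_upwards [h1 P, MG.rep_zero] with z h2 h3
  rw [← h2, hP0, h3]
  rfl

theorem germ_charpoly {d : ℕ} (M : Matrix (Fin d) (Fin d) (ℂ → ℂ[X])) (i : ℕ) :
    (M.map (Germ.coeRingHom (R := ℂ[X]) l0)).charpoly.coeff i =
      (((fun z => (M.map fun f => f z).charpoly.coeff i) : ℂ → ℂ[X]) : Germ l0 ℂ[X]) := by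
  have e4 : (M.charpoly.coeff i : ℂ → ℂ[X]) = fun z => (M.map fun f => f z).charpoly.coeff i := by
    funext z
    have e5 : M.map (Pi.evalRingHom (fun _ : ℂ => ℂ[X]) z) = M.map fun f => f z := rfl
    rw [← e5, Matrix.charpoly_map, coeff_map]
    rfl
  rw [Matrix.charpoly_map, coeff_map, ← e4]
  rfl

/-- the family of matrices of a pencil -/
noncomputable def pfam {d : ℕ} (A G : Matrix (Fin d) (Fin d) KN) :
    Matrix (Fin d) (Fin d) (ℂ → ℂ[X]) :=
  Matrix.of fun i j => (fun z => C (vl (A i j) z)) + (fun _ => (X : ℂ[X])) *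
    (fun z => C (vl (G i j) z))

theorem pfam_map {d : ℕ} (A G : Matrix (Fin d) (Fin d) KN) :
    (A.map C + (X : KN[X]) • G.map C).map (Phi.comp inKM) =
      (pfam A G).map (Germ.coeRingHom (R := ℂ[X]) l0) := by
  have e1 : ∀ a : KN, (Phi.comp inKM) (C a) =
      (((fun z => C (vl a z)) : ℂ → ℂ[X]) : Germ l0 ℂ[X]) := by
    intro a
    rw [RingHom.comp_apply, inKM, coe_mapRingHom, map_C]
    exact rep_iff.1 (rep_C _)
  have e2 : (Phi.comp inKM) X = (((fun _ => X) : ℂ → ℂ[X]) : Germ l0 ℂ[X]) := by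
    rw [RingHom.comp_apply, inKM, coe_mapRingHom, map_X, Phi, coe_eval₂RingHom, eval₂_X]
  refine Matrix.ext fun i j => ?_
  rw [Matrix.map_apply, Matrix.map_apply, Matrix.add_apply, Matrix.smul_apply,
    Matrix.map_apply, Matrix.map_apply, smul_eq_mul, map_add, map_mul, e1, e1, e2, pfam,
    Matrix.of_apply, map_add, map_mul]
  rfl

theorem coeff_charpoly {d : ℕ} (M : Matrix (Fin d) (Fin d) KN[X]) {c : Fin d → KN[X]}
    (h : M.charpoly = X ^ d + ∑ i : Fin d, C (c i) * X ^ (i : ℕ)) (i : Fin d) :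
    M.charpoly.coeff i = c i := by
  rw [h, coeff_add, finsetSum_coeff, coeff_X_pow, if_neg (by have := i.2; omega), zero_add]
  simp only [coeff_C_mul, coeff_X_pow]
  rw [Finset.sum_eq_single i]
  · simp
  · intro j _ hj
    rw [if_neg (fun h => hj (Fin.ext h.symm)), mul_zero]
  · intro h; exact absurd (Finset.mem_univ _) h

theorem charpoly_vl_coeff {d : ℕ} (A G : Matrix (Fin d) (Fin d) KN) {c : Fin d → ℝ[X][X]}
    (h : (A.map C + (X : KN[X]) • G.map C).charpoly =
        X ^ d + ∑ i : Fin d, C (IoN (c i)) * X ^ (i : ℕ)) (i : Fin d) :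
    ∀ᶠ z in l0, ((pfam A G).map fun f => f z).charpoly.coeff i = fm (c i) z := by
  have e0 := coeff_charpoly _ h i
  have e1 : H230.Rep (Io (c i)) (fun z => ((pfam A G).map fun f => f z).charpoly.coeff i) := by
    rw [rep_iff, ← germ_charpoly, ← pfam_map, Matrix.charpoly_map, coeff_map, e0,
      RingHom.comp_apply, inKM_IoN]
  exact e1.eq (rep_Io (c i))

theorem charpoly_eq_of_coeff {d : ℕ} (M : Matrix (Fin d) (Fin d) ℂ[X]) {c : Fin d → ℂ[X]}
    (hc : ∀ i : Fin d, M.charpoly.coeff i = c i) :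
    M.charpoly = X ^ d + ∑ i : Fin d, C (c i) * X ^ (i : ℕ) := by
  have hmon : M.charpoly.Monic := Matrix.charpoly_monic _
  have hdeg : M.charpoly.natDegree = d := by
    rw [Matrix.charpoly_natDegree_eq_dim, Fintype.card_fin]
  have h2 := hmon.as_sum
  rw [hdeg, Finset.sum_range] at h2
  simp only [hc] at h2
  exact h2

/-- the characteristic polynomial of a pencil of germs -/
theorem charpoly_vl {d : ℕ} (A G : Matrix (Fin d) (Fin d) KN) {c : Fin d → ℝ[X][X]}
    (h : (A.map C + (X : KN[X]) • G.map C).charpoly =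
        X ^ d + ∑ i : Fin d, C (IoN (c i)) * X ^ (i : ℕ)) :
    ∀ᶠ z in l0, ((A.map fun a => C (vl a z)) + (X : ℂ[X]) • G.map fun a => C (vl a z)).charpoly =
      X ^ d + ∑ i : Fin d, C (fm (c i) z) * X ^ (i : ℕ) := by
  filter_upwards [Filter.eventually_all.2 (charpoly_vl_coeff A G h)] with z hz
  have e1 : (pfam A G).map (fun f => f z) =
      (A.map fun a => C (vl a z)) + (X : ℂ[X]) • G.map fun a => C (vl a z) := by
    refine Matrix.ext fun i j => ?_
    rw [Matrix.map_apply, pfam, Matrix.of_apply, Matrix.add_apply, Matrix.smul_apply,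
      Matrix.map_apply, Matrix.map_apply]
    rfl
  rw [← e1]
  exact charpoly_eq_of_coeff _ hz

theorem vl_herm {d : ℕ} {A : Matrix (Fin d) (Fin d) KN} (hA : Aᴴ = A) :
    ∀ᶠ s : ℝ in r0, (A.map fun a => vl a s).IsHermitian := by
  have h1 : ∀ i j, ∀ᶠ s : ℝ in r0, star (vl (A j i) s) = vl (A i j) s := by
    intro i j
    have e1 : star (A j i) = A i j := by
      have := congrFun (congrFun hA i) j
      rwa [conjTranspose_apply] at this
    filter_upwards [MG.rep_star_real (algebraMap KN MG (A j i))] with s hs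
    rw [← e1]
    exact hs.symm
  filter_upwards [Filter.eventually_all.2 fun i => Filter.eventually_all.2 fun j => h1 i j]
    with s hs
  exact Matrix.ext fun i j => hs i j

/-- **Hermitian pencils depending meromorphically on a parameter.** -/
theorem pencil_fun {p : MvPolynomial (Fin n) ℝ} {e f g k : Fin n → ℝ}
    (hp : IsHyperbolic p e) {d : ℕ} (hd : p.IsHomogeneous d)
    (hgen : ∃ s u : ℝ, ∀ t : ℝ, MvPolynomial.eval (f + u • (k + s • g) + t • e) p = 0 →
      dd p (f + u • (k + s • g) + t • e) e ≠ 0) :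
    ∃ A G : ℂ → Matrix (Fin d) (Fin d) ℂ,
      (∀ i j, MeromorphicAt (fun z => A z i j) 0) ∧ (∀ i j, MeromorphicAt (fun z => G z i j) 0) ∧
      (∀ i j, ∃ P : ℂ[X][X], P ≠ 0 ∧
        ∀ᶠ z in 𝓝[≠] (0 : ℂ), (P.map (evalRingHom z)).eval (A z i j) = 0) ∧
      (∀ i j, ∃ P : ℂ[X][X], P ≠ 0 ∧
        ∀ᶠ z in 𝓝[≠] (0 : ℂ), (P.map (evalRingHom z)).eval (G z i j) = 0) ∧
      ∀ᶠ s : ℝ in 𝓝[≠] (0 : ℝ), (A s).IsHermitian ∧ (G s).IsHermitian ∧ ∀ t u : ℝ,
        ((MvPolynomial.eval (t • e + f + u • (k + s • g)) p : ℝ) : ℂ) =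
          ((MvPolynomial.eval e p : ℝ) : ℂ) *
            ((t : ℂ) • (1 : Matrix (Fin d) (Fin d) ℂ) - A s - (u : ℂ) • G s).det := by
  obtain ⟨A, G, hA, hG, h⟩ := pencil_KN hp hd hgen
  refine ⟨fun z => A.map fun a => vl a z, fun z => G.map fun a => vl a z, fun i j => vl_mer _,
    fun i j => vl_mer _, fun i j => vl_alg _, fun i j => vl_alg _, ?_⟩
  have h1 := tendsto_ofReal_r0.eventually (charpoly_vl A G (c := fun i => cf p e f g k i) h)
  filter_upwards [vl_herm hA, vl_herm hG, h1] with s h2 h3 h4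
  refine ⟨h2, h3, fun t u => ?_⟩
  have he := hp.2.1.ne'
  -- evaluate
  have h5 : ((t : ℂ) • (1 : Matrix (Fin d) (Fin d) ℂ) - (A.map fun a => vl a s) -
      (u : ℂ) • G.map fun a => vl a s).det =
      ((MvPolynomial.eval e p : ℝ) : ℂ)⁻¹ *
        ((MvPolynomial.eval (t • e + f + u • (k + s • g)) p : ℝ) : ℂ) := by
    set Ms := (A.map fun a => C (vl a s)) + (X : ℂ[X]) • G.map fun a => C (vl a s) with hMs
    have e1 : Ms.map (evalRingHom (u : ℂ)) = (A.map fun a => vl a s) +
        (u : ℂ) • G.map fun a => vl a s := by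
      refine Matrix.ext fun i j => ?_
      rw [hMs, Matrix.map_apply, Matrix.add_apply, Matrix.smul_apply, Matrix.map_apply,
        Matrix.map_apply, Matrix.add_apply, Matrix.smul_apply, Matrix.map_apply,
        Matrix.map_apply, coe_evalRingHom, eval_add, smul_eq_mul, eval_mul, eval_X, eval_C,
        eval_C, smul_eq_mul]
    have e2 : ((A.map fun a => vl a s) + (u : ℂ) • G.map fun a => vl a s).charpoly =
        X ^ d + ∑ i : Fin d, C (((ev2 s u (cf p e f g k i) : ℝ) : ℂ)) * X ^ (i : ℕ) := by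
      rw [← e1, Matrix.charpoly_map, h4, Polynomial.map_add, Polynomial.map_pow, map_X,
        Polynomial.map_sum]
      congr 1
      refine Finset.sum_congr rfl fun i _ => ?_
      rw [Polynomial.map_mul, map_C, Polynomial.map_pow, map_X, coe_evalRingHom, eval_fm]
    have e3 : ((t : ℂ) • (1 : Matrix (Fin d) (Fin d) ℂ) - (A.map fun a => vl a s) -
      (u : ℂ) • G.map fun a => vl a s).det =
        ((A.map fun a => vl a s) + (u : ℂ) • G.map fun a => vl a s).charpoly.eval (t : ℂ) := by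
      have e6 : (t : ℂ) • (1 : Matrix (Fin d) (Fin d) ℂ) = Matrix.scalar (Fin d) (t : ℂ) := by
        rw [Matrix.smul_one_eq_diagonal]; rfl
      rw [Matrix.eval_charpoly, sub_sub, e6]
    rw [e3, e2, eval_add, eval_pow, eval_X, Polynomial.eval_finset_sum]
    have e4 := sum_cf hd he f g k s u t
    have e5 := congrArg (fun x : ℝ => (x : ℂ)) e4
    push_cast at e5
    rw [← e5]
    congr 1
    refine Finset.sum_congr rfl fun i _ => ?_
    simp
  rw [h5, ← mul_assoc, mul_inv_cancel₀ (by exact_mod_cast he), one_mul]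

end Vale.Agent.P256.H909
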